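import Crest.Agent.R330.IG

/-! # Row 330, A2/A (statements frozen; see `R330/Blueprint.lean`) -/

set_option autoImplicit false
set_option linter.unusedSectionVars false

noncomputable section

open MeasureTheory Filter Topology
open scoped InnerProductSpace ContDiff Matrix
open Crest.MathPhysics.MatrixQM (GammaNine)

namespace Crest.Agent.R330

variable {E E' F : Type} [NormedAddCommGroup E] [InnerProductSpace ℝ E] [FiniteDimensional ℝ E]
  [NormedAddCommGroup E'] [InnerProductSpace ℝ E'] [FiniteDimensional ℝ E']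
  [NormedAddCommGroup F] [InnerProductSpace ℂ F] [FiniteDimensional ℂ F]

/-! ### tensor bookkeeping -/

@[simp] theorem lift_apply {n : ℕ} (L : E →ₗ[ℝ] E') (x : T n E) (a : Fin n) :
    lift n L x a = L (x a) := rfl

@[simp] theorem liftI_apply {n : ℕ} (L : E →ₗᵢ[ℝ] E') (x : T n E) (a : Fin n) :
    liftI n L x a = L (x a) := rfl

@[simp] theorem mat_apply {m n : ℕ} (M : Matrix (Fin m) (Fin n) ℝ) (x : T n E) (a : Fin m) :
    mat M x a = ∑ b, M a b • x b := rfl

@[simp] theorem tens_apply {n : ℕ} (u : Fin n → ℝ) (e : E) (a : Fin n) : tens u e a = u a • e := rfl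

theorem mat_mul {l m n : ℕ} (M : Matrix (Fin l) (Fin m) ℝ) (N : Matrix (Fin m) (Fin n) ℝ) :
    (mat (M * N) : T n E →ₗ[ℝ] T l E) = mat M ∘ₗ mat N := by
  refine LinearMap.ext fun x => PiLp.ext fun a => ?_
  simp only [mat_apply, LinearMap.comp_apply, Matrix.mul_apply, Finset.sum_smul, Finset.smul_sum, smul_smul]
  exact Finset.sum_comm

theorem mat_one {n : ℕ} : (mat (1 : Matrix (Fin n) (Fin n) ℝ) : T n E →ₗ[ℝ] T n E) = LinearMap.id := by
  refine LinearMap.ext fun x => PiLp.ext fun a => ?_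
  simp [Matrix.one_apply]

theorem mat_add {m n : ℕ} (M N : Matrix (Fin m) (Fin n) ℝ) :
    (mat (M + N) : T n E →ₗ[ℝ] T m E) = mat M + mat N := by
  refine LinearMap.ext fun x => PiLp.ext fun a => ?_
  simp [add_smul, Finset.sum_add_distrib]

theorem mat_smul {m n : ℕ} (r : ℝ) (M : Matrix (Fin m) (Fin n) ℝ) :
    (mat (r • M) : T n E →ₗ[ℝ] T m E) = r • mat M := by
  refine LinearMap.ext fun x => PiLp.ext fun a => ?_
  simp [Finset.smul_sum, smul_smul]

theorem mat_lift {m n : ℕ} (M : Matrix (Fin m) (Fin n) ℝ) (L : E →ₗ[ℝ] E') :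
    mat M ∘ₗ lift n L = lift m L ∘ₗ mat M := by
  refine LinearMap.ext fun x => PiLp.ext fun a => ?_
  simp

theorem lift_comp {E'' : Type} [NormedAddCommGroup E''] [InnerProductSpace ℝ E'']
    [FiniteDimensional ℝ E''] {n : ℕ} (L : E' →ₗ[ℝ] E'') (L' : E →ₗ[ℝ] E') :
    lift n (L ∘ₗ L') = lift n L ∘ₗ lift n L' := by
  rfl

theorem mat_tens {m n : ℕ} (M : Matrix (Fin m) (Fin n) ℝ) (u : Fin n → ℝ) (e : E) :
    mat M (tens u e) = tens (M *ᵥ u) e := by
  refine PiLp.ext fun a => ?_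
  simp [Matrix.mulVec, dotProduct, Finset.sum_smul, smul_smul]

theorem lift_tens {n : ℕ} (L : E →ₗ[ℝ] E') (u : Fin n → ℝ) (e : E) :
    lift n L (tens u e) = tens u (L e) := by
  refine PiLp.ext fun a => ?_
  simp

theorem inner_tens {n : ℕ} (u v : Fin n → ℝ) (e e' : E) :
    ⟪tens u e, tens v e'⟫_ℝ = (u ⬝ᵥ v) * ⟪e, e'⟫_ℝ := by
  simp only [PiLp.inner_apply, tens_apply, real_inner_smul_left, real_inner_smul_right, dotProduct,
    Finset.sum_mul]
  exact Finset.sum_congr rfl fun i _ => by ring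

theorem adjoint_mat {m n : ℕ} (M : Matrix (Fin m) (Fin n) ℝ) :
    LinearMap.adjoint (mat M : T n E →ₗ[ℝ] T m E) = mat Mᵀ := by
  symm
  rw [LinearMap.eq_adjoint_iff]
  intro x y
  simp only [PiLp.inner_apply, mat_apply, sum_inner, inner_sum, real_inner_smul_left, real_inner_smul_right,
    Matrix.transpose_apply]
  exact Finset.sum_comm

theorem adjoint_lift {n : ℕ} (L : E →ₗ[ℝ] E') :
    LinearMap.adjoint (lift n L) = lift n (LinearMap.adjoint L) := by
  symm
  rw [LinearMap.eq_adjoint_iff]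
  intro x y
  simp only [PiLp.inner_apply, lift_apply, LinearMap.adjoint_inner_left]

theorem trace_mat_lift {n : ℕ} (M : Matrix (Fin n) (Fin n) ℝ) (L : E →ₗ[ℝ] E) :
    LinearMap.trace ℝ (T n E) (mat M ∘ₗ lift n L) = M.trace * LinearMap.trace ℝ E L := by
  classical
  rw [LinearMap.trace_eq_sum_inner _ (Pi.orthonormalBasis fun _ : Fin n => stdOrthonormalBasis ℝ E),
    LinearMap.trace_eq_sum_inner _ (stdOrthonormalBasis ℝ E), Fintype.sum_sigma, Matrix.trace, Finset.sum_mul]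
  refine Finset.sum_congr rfl fun a _ => ?_
  rw [Finset.mul_sum]
  refine Finset.sum_congr rfl fun j _ => ?_
  rw [Pi.orthonormalBasis_apply, PiLp.inner_apply, Finset.sum_eq_single a]
  · simp only [LinearMap.comp_apply, mat_apply, lift_apply]
    rw [Finset.sum_eq_single a]
    · simp [real_inner_smul_right]
    · intro b _ hb
      simp [hb]
    · simp
  · intro b _ hb
    simp [hb]
  · simp

theorem finrank_T (n : ℕ) : Module.finrank ℝ (T n E) = n * Module.finrank ℝ E := by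
  rw [(WithLp.linearEquiv 2 ℝ (Fin n → E)).finrank_eq, Module.finrank_pi_fintype]
  simp

theorem norm_lift_le {n : ℕ} (L : E →ₗ[ℝ] E') (a : ℝ) (ha : 0 ≤ a) (h : ∀ v, ‖L v‖ ≤ a * ‖v‖)
    (x : T n E) : ‖lift n L x‖ ≤ a * ‖x‖ := by
  refine le_of_sq_le_sq ?_ (by positivity)
  rw [mul_pow, PiLp.norm_sq_eq_of_L2, PiLp.norm_sq_eq_of_L2, Finset.mul_sum]
  refine Finset.sum_le_sum fun i _ => ?_
  rw [lift_apply, ← mul_pow]
  exact pow_le_pow_left₀ (norm_nonneg _) (h _) 2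

theorem norm_mat_orth {n : ℕ} (O : Matrix (Fin n) (Fin n) ℝ) (hO : Oᵀ * O = 1) (x : T n E) :
    ‖mat O x‖ = ‖x‖ := by
  have h : ⟪mat O x, mat O x⟫_ℝ = ⟪x, x⟫_ℝ := by
    rw [← LinearMap.adjoint_inner_left, adjoint_mat, ← LinearMap.comp_apply, ← mat_mul, hO, mat_one,
      LinearMap.id_apply]
  rw [real_inner_self_eq_norm_sq, real_inner_self_eq_norm_sq] at h
  exact (pow_left_inj₀ (norm_nonneg _) (norm_nonneg _) two_ne_zero).mp h

theorem isSkew_mat {n : ℕ} {M : Matrix (Fin n) (Fin n) ℝ} (h : Mᵀ = -M) :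
    IsSkew (mat M : T n E →ₗ[ℝ] T n E) := by
  intro u v
  rw [← LinearMap.adjoint_inner_right, adjoint_mat, h, ← neg_one_smul ℝ M, mat_smul, LinearMap.smul_apply,
    real_inner_smul_right, neg_one_mul]

theorem isSkew_lift {n : ℕ} {L : E →ₗ[ℝ] E} (h : IsSkew L) : IsSkew (lift n L) := by
  intro u v
  simp only [PiLp.inner_apply, lift_apply, h _ _, Finset.sum_neg_distrib]

theorem Lie.isSkew_br (𝔤 : Lie E) (ξ : E) : IsSkew (𝔤.br ξ) := by
  intro u v
  rw [𝔤.anti ξ u, inner_neg_left, 𝔤.inv]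

/-- the bracket as a continuous bilinear map -/
def Lie.a2aB (𝔤 : Lie E) : E →L[ℝ] E →L[ℝ] E :=
  LinearMap.toContinuousLinearMap
    ((LinearMap.toContinuousLinearMap : (E →ₗ[ℝ] E) ≃ₗ[ℝ] (E →L[ℝ] E)).toLinearMap ∘ₗ 𝔤.br)

theorem Lie.exists_norm_br (𝔤 : Lie E) : ∃ b : ℝ, 0 < b ∧ ∀ u v, ‖𝔤.br u v‖ ≤ b * ‖u‖ * ‖v‖ := by
  refine ⟨‖𝔤.a2aB‖ + 1, by positivity, fun u v => (𝔤.a2aB.le_opNorm₂ u v).trans ?_⟩
  gcongr
  exact le_add_of_nonneg_right zero_le_one

theorem rexp'_lift {n : ℕ} (L : E →ₗ[ℝ] E) (x : T n E) :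
    rexp' (lift n L) x = lift n (rexp' L).toLinearMap x := by
  refine PiLp.ext fun a => ?_
  exact rexp'_intertwine (PiLp.projₗ 2 (fun _ : Fin n => E) a) (lift n L) L rfl x

open scoped Matrix.Norms.Operator in
theorem a2a_map_exp {n : ℕ} (m : Matrix (Fin n) (Fin n) ℝ → E →ₗ[ℝ] E) (h1 : ∀ M N, m (M + N) = m M + m N)
    (h2 : ∀ (r : ℝ) M, m (r • M) = r • m M) (h3 : m 1 = LinearMap.id) (h4 : ∀ M N, m (M * N) = m M ∘ₗ m N)
    (A : Matrix (Fin n) (Fin n) ℝ) (x : E) : rexp' (m A) x = m (NormedSpace.exp A) x := by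
  let f : Matrix (Fin n) (Fin n) ℝ →ₐ[ℝ] (E →L[ℝ] E) := AlgHom.ofLinearMap
    { toFun := fun M => LinearMap.toContinuousLinearMap (m M)
      map_add' := fun M N => by rw [h1, map_add]
      map_smul' := fun r M => by rw [h2, map_smul, RingHom.id_apply] }
    (by
      show LinearMap.toContinuousLinearMap (m 1) = 1
      rw [h3]
      rfl)
    (fun M N => by
      show LinearMap.toContinuousLinearMap (m (M * N)) = _
      rw [h4]
      rfl)
  have := NormedSpace.map_exp_of_mem_ball (𝕂 := ℝ) f f.toLinearMap.continuous_of_finiteDimensional A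
    ((NormedSpace.expSeries_radius_eq_top ℝ (Matrix (Fin n) (Fin n) ℝ)).symm ▸ edist_lt_top _ _)
  exact (DFunLike.congr_fun this x).symm

/-- The flow of a skew matrix is `mat` of an orthogonal matrix (independent of `E`). -/
theorem exists_rexp'_mat {n : ℕ} {V : Matrix (Fin n) (Fin n) ℝ} (h : Vᵀ = -V) (t : ℝ) :
    (NormedSpace.exp (t • V))ᵀ * NormedSpace.exp (t • V) = 1 ∧
      ∀ x : T n E, rexp' (t • mat V) x = mat (NormedSpace.exp (t • V)) x := by
  constructor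
  · rw [← Matrix.exp_transpose, Matrix.transpose_smul, h, smul_neg,
      ← Matrix.exp_add_of_commute _ _ (Commute.refl (t • V)).neg_left, neg_add_cancel, NormedSpace.exp_zero]
  · intro x
    rw [← mat_smul]
    exact a2a_map_exp (fun M => (mat M : T n E →ₗ[ℝ] T n E)) mat_add mat_smul mat_one mat_mul (t • V) x

/-- `exp (ad ξ)` is an automorphism. -/
theorem Lie.rexp'_br (𝔤 : Lie E) (ξ u v : E) :
    rexp' (𝔤.br ξ) (𝔤.br u v) = 𝔤.br (rexp' (𝔤.br ξ) u) (rexp' (𝔤.br ξ) v) := by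
  have := ba_ode (𝔤.br ξ) (f := fun r : ℝ => 𝔤.br (rexp' (r • 𝔤.br ξ) u) (rexp' (r • 𝔤.br ξ) v))
    (fun r => by
      have h1 := (𝔤.a2aB.hasFDerivAt.comp_hasDerivAt r (ba_hasDerivAt (𝔤.br ξ) u r)).clm_apply
        (ba_hasDerivAt (𝔤.br ξ) v r)
      rw [𝔤.jac]
      exact h1) 1
  simpa [ba_zero] using this.symm

end Crest.Agent.R330

end
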