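import Crest.Agent.R330.A2.A

/-! # Row 330, A2/B (statements frozen; see `R330/Blueprint.lean`) -/

set_option autoImplicit false
set_option linter.unusedSectionVars false

noncomputable section

open MeasureTheory Filter Topology
open scoped InnerProductSpace ContDiff Matrix
open Crest.MathPhysics.MatrixQM (GammaNine)

namespace Crest.Agent.R330

variable {E E' F : Type} [NormedAddCommGroup E] [InnerProductSpace ℝ E] [FiniteDimensional ℝ E]
  [NormedAddCommGroup E'] [InnerProductSpace ℝ E'] [FiniteDimensional ℝ E']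
  [NormedAddCommGroup F] [InnerProductSpace ℂ F] [FiniteDimensional ℂ F]

/-! ### gamma matrices -/

section Gamma

variable (G : GammaNine)

theorem a2b_sq (i : Fin 9) : G.γ i * G.γ i = 1 := by
  have h := G.clifford i i
  rw [if_pos rfl, ← one_add_one_eq_two, ← two_smul ℝ, ← two_smul ℝ] at h
  exact smul_right_injective _ (two_ne_zero (α := ℝ)) h

theorem a2b_sq' (i : Fin 9) (M : Matrix (Fin 16) (Fin 16) ℝ) : G.γ i * (G.γ i * M) = M := by
  rw [← mul_assoc, a2b_sq, one_mul]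

theorem a2b_anti {i j : Fin 9} (h : i ≠ j) : G.γ i * G.γ j = -(G.γ j * G.γ i) := by
  have h1 := G.clifford i j
  rw [if_neg h] at h1
  exact eq_neg_of_add_eq_zero_left h1

theorem a2b_anti' {i j : Fin 9} (h : i ≠ j) (M : Matrix (Fin 16) (Fin 16) ℝ) :
    G.γ i * (G.γ j * M) = -(G.γ j * (G.γ i * M)) := by
  rw [← mul_assoc, a2b_anti G h, neg_mul, mul_assoc]

theorem a2b_sw {i j : Fin 9} (h : j < i) : G.γ i * G.γ j = -(G.γ j * G.γ i) := a2b_anti G h.ne'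

theorem a2b_sw' {i j : Fin 9} (h : j < i) (M : Matrix (Fin 16) (Fin 16) ℝ) :
    G.γ i * (G.γ j * M) = -(G.γ j * (G.γ i * M)) := a2b_anti' G h.ne' M

theorem a2b_trace {M : Matrix (Fin 16) (Fin 16) ℝ} (a : Fin 9) (h : G.γ a * M = -(M * G.γ a)) :
    M.trace = 0 := by
  have h1 : M.trace = (G.γ a * M * G.γ a).trace := by
    rw [Matrix.trace_mul_comm, a2b_sq']
  rw [h, neg_mul, mul_assoc, a2b_sq, mul_one, Matrix.trace_neg] at h1
  linarith

theorem a2b_ex (i j k l m : Fin 9) : ∃ a : Fin 9, a ≠ i ∧ a ≠ j ∧ a ≠ k ∧ a ≠ l ∧ a ≠ m := by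
  obtain ⟨a, -, ha⟩ := Finset.exists_mem_notMem_of_card_lt_card (s := {i, j, k, l, m})
    (t := Finset.univ) (lt_of_le_of_lt Finset.card_le_five (by simp))
  exact ⟨a, by simpa only [Finset.mem_insert, Finset.mem_singleton, not_or] using ha⟩

theorem a2b_dot (i : Fin 9) (u v : Fin 16 → ℝ) : (G.γ i *ᵥ u) ⬝ᵥ v = u ⬝ᵥ (G.γ i *ᵥ v) := by
  rw [Matrix.dotProduct_mulVec, ← Matrix.mulVec_transpose, G.symm]

theorem gamma_trace_one (i : Fin 9) : (G.γ i).trace = 0 := by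
  obtain ⟨a, h, -⟩ := a2b_ex i i i i i
  exact a2b_trace G a (a2b_anti G h)

theorem gamma_trace_two (i j : Fin 9) : (G.γ i * G.γ j).trace = if i = j then 16 else 0 := by
  split_ifs with h
  · rw [h, a2b_sq]
    simp
  · refine a2b_trace G i ?_
    rw [a2b_sq', a2b_anti G h, neg_mul, neg_neg, mul_assoc, a2b_sq, mul_one]

theorem gamma_trace_three (i j k : Fin 9) : (G.γ i * G.γ j * G.γ k).trace = 0 := by
  obtain ⟨a, h1, h2, h3, -⟩ := a2b_ex i j k k k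
  refine a2b_trace G a ?_
  simp only [mul_assoc]
  rw [a2b_anti' G h1, a2b_anti' G h2, a2b_anti G h3]
  simp only [mul_neg, neg_neg]

theorem gamma_trace_five (i j k l m : Fin 9) :
    (G.γ i * G.γ j * G.γ k * G.γ l * G.γ m).trace = 0 := by
  obtain ⟨a, h1, h2, h3, h4, h5⟩ := a2b_ex i j k l m
  refine a2b_trace G a ?_
  simp only [mul_assoc]
  rw [a2b_anti' G h1, a2b_anti' G h2, a2b_anti' G h3, a2b_anti' G h4, a2b_anti G h5]
  simp only [mul_neg, neg_neg]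

theorem sig_skew {V : Matrix (Fin 9) (Fin 9) ℝ} (h : Vᵀ = -V) : (sig G V)ᵀ = -sig G V := by
  have hV : ∀ i j, V j i = -V i j := fun i j => congrFun (congrFun h i) j
  unfold sig
  rw [Matrix.transpose_smul, ← smul_neg, Matrix.transpose_sum, ← Finset.sum_neg_distrib]
  simp only [Matrix.transpose_sum, Matrix.transpose_smul, Matrix.transpose_mul, G.symm,
    ← Finset.sum_neg_distrib]
  rw [Finset.sum_comm]
  congr 1
  refine Finset.sum_congr rfl fun i _ => Finset.sum_congr rfl fun j _ => ?_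
  rw [hV, neg_smul]

/-- `[σ(V), γ^j] = Σ_i V_ij γ^i`. -/
theorem sig_comm {V : Matrix (Fin 9) (Fin 9) ℝ} (h : Vᵀ = -V) (j : Fin 9) :
    sig G V * G.γ j - G.γ j * sig G V = ∑ i, V i j • G.γ i := by
  have hV : ∀ i j, V j i = -V i j := fun i j => congrFun (congrFun h i) j
  have key : ∀ a b, G.γ a * G.γ b * G.γ j - G.γ j * (G.γ a * G.γ b) =
      (if b = j then (2 : ℝ) • G.γ a else 0) - (if a = j then (2 : ℝ) • G.γ b else 0) := by
    intro a b
    have e : G.γ a * G.γ b * G.γ j - G.γ j * (G.γ a * G.γ b) =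
        G.γ a * (G.γ b * G.γ j + G.γ j * G.γ b) - (G.γ a * G.γ j + G.γ j * G.γ a) * G.γ b := by
      noncomm_ring
    rw [e, G.clifford, G.clifford]
    split_ifs <;> simp [mul_two, two_mul, two_smul]
  unfold sig
  rw [smul_mul_assoc, mul_smul_comm, ← smul_sub]
  simp only [Finset.sum_mul, Finset.mul_sum, smul_mul_assoc, mul_smul_comm, ← Finset.sum_sub_distrib,
    ← smul_sub, key]
  simp only [smul_sub, Finset.sum_sub_distrib, smul_ite, smul_zero, Finset.sum_ite_eq', Finset.mem_univ,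
    if_true]
  rw [Finset.sum_comm (f := fun x y => if x = j then V x y • (2 : ℝ) • G.γ y else 0)]
  simp only [Finset.sum_ite_eq', Finset.mem_univ, if_true, Finset.smul_sum, ← Finset.sum_sub_distrib]
  refine Finset.sum_congr rfl fun i _ => ?_
  rw [hV i j]
  module

theorem sig_pl {i j : Fin 9} (h : i ≠ j) : sig G (pl i j) = (-1 / 2 : ℝ) • (G.γ i * G.γ j) := by
  unfold sig pl
  simp only [Matrix.sub_apply, Matrix.single_apply, sub_smul, Finset.sum_sub_distrib, ite_and, ite_smul,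
    one_smul, zero_smul]
  rw [Finset.sum_comm (f := fun x y => if j = x then if i = y then G.γ x * G.γ y else 0 else 0),
    Finset.sum_comm (f := fun x y => if i = x then if j = y then G.γ x * G.γ y else 0 else 0)]
  simp only [Finset.sum_ite_eq, Finset.mem_univ, if_true]
  rw [a2b_anti G h.symm]
  module

theorem pl_skew (i j : Fin 9) : (pl i j)ᵀ = -pl i j := by
  simp [pl, Matrix.transpose_sub, Matrix.transpose_single]

theorem V0_skew : V0ᵀ = -V0 := by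
  simp only [V0, Matrix.transpose_sub, Matrix.transpose_add, Matrix.transpose_smul, pl_skew]
  module

theorem neut_ok : Wts.OK neut := by
  rintro p rfl
  exact V0_skew

theorem a2b_flip {P T : Matrix (Fin 16) (Fin 16) ℝ} {S : Set (Matrix (Fin 16) (Fin 16) ℝ)}
    (hP : ∀ M ∈ S, M * P = P * M) (hT : ∀ M ∈ S, M * T = T * M) (PP : P * P = 1) (TT : T * T = 1)
    (PT : P * T = -(T * P)) (h : ∃ v : Fin 16 → ℝ, v ≠ 0 ∧ ∀ M ∈ S, M *ᵥ v = v) :
    ∃ w : Fin 16 → ℝ, w ≠ 0 ∧ ∀ M ∈ insert P S, M *ᵥ w = w := by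
  obtain ⟨v, h0, hv⟩ := h
  by_cases h1 : v + P *ᵥ v = 0
  · refine ⟨T *ᵥ v, fun h2 => h0 ?_, Set.forall_mem_insert.2 ⟨?_, fun M hM => ?_⟩⟩
    · rw [← Matrix.one_mulVec v, ← TT, ← Matrix.mulVec_mulVec, h2, Matrix.mulVec_zero]
    · rw [Matrix.mulVec_mulVec, PT, Matrix.neg_mulVec, ← Matrix.mulVec_mulVec,
        eq_neg_of_add_eq_zero_right h1, Matrix.mulVec_neg, neg_neg]
    · rw [Matrix.mulVec_mulVec, hT M hM, ← Matrix.mulVec_mulVec, hv M hM]
  · refine ⟨_, h1, Set.forall_mem_insert.2 ⟨?_, fun M hM => ?_⟩⟩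
    · rw [Matrix.mulVec_add, Matrix.mulVec_mulVec, PP, Matrix.one_mulVec, add_comm]
    · rw [Matrix.mulVec_add, Matrix.mulVec_mulVec, hP M hM, ← Matrix.mulVec_mulVec, hv M hM]

/-- normal ordering of gamma words -/
local macro "gord" : tactic =>
  `(tactic| simp (disch := decide) only [mul_assoc, a2b_sw, a2b_sw', a2b_sq, a2b_sq', mul_neg, neg_mul,
    neg_neg, mul_one, Set.forall_mem_insert, Set.forall_mem_empty, and_true, and_self])

theorem a2b_vec : ∃ (e : ℝ) (w : Fin 16 → ℝ), (e = 1 ∨ e = -1) ∧ w ≠ 0 ∧ (e • G.γ 8) *ᵥ w = w ∧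
    (-(G.γ 0 * G.γ 1 * (G.γ 2 * G.γ 3))) *ᵥ w = w ∧ (-(G.γ 0 * G.γ 1 * (G.γ 4 * G.γ 5))) *ᵥ w = w ∧
    (-(G.γ 0 * G.γ 1 * (G.γ 6 * G.γ 7))) *ᵥ w = w := by
  have h0 : ∃ v : Fin 16 → ℝ, v ≠ 0 ∧ ∀ M ∈ (∅ : Set (Matrix (Fin 16) (Fin 16) ℝ)), M *ᵥ v = v :=
    ⟨1, one_ne_zero, by simp⟩
  have h1 := a2b_flip (P := -(G.γ 0 * G.γ 1 * (G.γ 2 * G.γ 3))) (T := G.γ 2) (by gord) (by gord) (by gord)
    (by gord) (by gord) h0
  have h2 := a2b_flip (P := -(G.γ 0 * G.γ 1 * (G.γ 4 * G.γ 5))) (T := G.γ 4) (by gord) (by gord) (by gord)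
    (by gord) (by gord) h1
  obtain ⟨v, hv0, hv⟩ := a2b_flip (P := -(G.γ 0 * G.γ 1 * (G.γ 6 * G.γ 7))) (T := G.γ 6) (by gord)
    (by gord) (by gord) (by gord) (by gord) h2
  by_cases h3 : v + G.γ 8 *ᵥ v = 0
  · simp only [Set.forall_mem_insert] at hv
    refine ⟨-1, v, Or.inr rfl, hv0, ?_, hv.2.2.1, hv.2.1, hv.1⟩
    rw [neg_smul, one_smul, Matrix.neg_mulVec, eq_neg_of_add_eq_zero_right h3, neg_neg]
  · have h4 : ∀ M, M *ᵥ v = v → M * G.γ 8 = G.γ 8 * M → M *ᵥ (v + G.γ 8 *ᵥ v) = v + G.γ 8 *ᵥ v :=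
      fun M e1 e2 => by
        rw [Matrix.mulVec_add, Matrix.mulVec_mulVec, e2, ← Matrix.mulVec_mulVec, e1]
    simp only [Set.forall_mem_insert] at hv
    refine ⟨1, _, Or.inl rfl, h3, ?_, h4 _ hv.2.2.1 (by gord), h4 _ hv.2.1 (by gord), h4 _ hv.1 (by gord)⟩
    rw [one_smul, Matrix.mulVec_add, Matrix.mulVec_mulVec, a2b_sq, Matrix.one_mulVec, add_comm]

theorem a2b_sig_add (V W : Matrix (Fin 9) (Fin 9) ℝ) : sig G (V + W) = sig G V + sig G W := by
  simp only [sig, Matrix.add_apply, add_smul, Finset.sum_add_distrib, smul_add]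

theorem a2b_sig_sub (V W : Matrix (Fin 9) (Fin 9) ℝ) : sig G (V - W) = sig G V - sig G W := by
  simp only [sig, Matrix.sub_apply, sub_smul, Finset.sum_sub_distrib, smul_sub]

theorem a2b_sig_smul (r : ℝ) (V : Matrix (Fin 9) (Fin 9) ℝ) : sig G (r • V) = r • sig G V := by
  simp only [sig, Matrix.smul_apply, smul_eq_mul, mul_smul, ← Finset.smul_sum]
  exact smul_comm _ _ _

/-- Existence of the spinor, up to the sign of `γ^8`. -/
theorem exists_spn : ∃ (σ : Spn) (e : ℝ), (e = 1 ∨ e = -1) ∧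
    ∀ i, σ.G.γ i = if i = 8 then e • G.γ i else G.γ i := by
  obtain ⟨e, w, he, hw, h8, h1, h2, h3⟩ := a2b_vec G
  have hee : e * e = 1 := by rcases he with rfl | rfl <;> norm_num
  let G' : GammaNine :=
    { γ := fun i => if i = 8 then e • G.γ i else G.γ i
      symm := fun i => by split_ifs <;> simp [G.symm]
      clifford := fun i j => by
        by_cases hi : i = 8 <;> by_cases hj : j = 8
        · rw [if_pos hi, if_pos hj, smul_mul_smul_comm, smul_mul_smul_comm, hee, one_smul, one_smul,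
            G.clifford]
        · rw [if_pos hi, if_neg hj, smul_mul_assoc, mul_smul_comm, ← smul_add, G.clifford,
            if_neg (by rintro rfl; exact hj hi), smul_zero]
        · rw [if_neg hi, if_pos hj, smul_mul_assoc, mul_smul_comm, ← smul_add, G.clifford,
            if_neg (by rintro rfl; exact hi hj), smul_zero]
        · rw [if_neg hi, if_neg hj, G.clifford] }
  have hpos : 0 < w ⬝ᵥ w := lt_of_le_of_ne (Finset.sum_nonneg fun i _ => mul_self_nonneg _)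
    fun h => hw (dotProduct_self_eq_zero.1 h.symm)
  have key : ∀ B : Matrix (Fin 16) (Fin 16) ℝ, (-(G.γ 0 * G.γ 1 * B)) *ᵥ w = w →
      B *ᵥ ((√(w ⬝ᵥ w))⁻¹ • w) = (G.γ 0 * G.γ 1) *ᵥ ((√(w ⬝ᵥ w))⁻¹ • w) := by
    intro B hB
    rw [Matrix.mulVec_smul, Matrix.mulVec_smul]
    congr 1
    conv_rhs => rw [← hB, Matrix.mulVec_mulVec]
    congr 1
    gord
  refine ⟨⟨G', (√(w ⬝ᵥ w))⁻¹ • w, ?_, ?_, key _ h1, key _ h2, key _ h3⟩, e, he, fun i => rfl⟩
  · rw [smul_dotProduct, dotProduct_smul, smul_eq_mul, smul_eq_mul, ← mul_assoc, ← mul_inv,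
      Real.mul_self_sqrt hpos.le, inv_mul_cancel₀ hpos.ne']
  · rw [Matrix.mulVec_smul]
    exact congrArg _ h8

end Gamma

namespace Spn

variable (σ : Spn)

/-- `σ(V₀) = -(γ^{01} + 2γ^{23} - γ^{45} - 2γ^{67})`. -/
theorem sig_V0 : sig σ.G V0 = -(σ.G.γ 0 * σ.G.γ 1) - (2 : ℝ) • (σ.G.γ 2 * σ.G.γ 3) +
    σ.G.γ 4 * σ.G.γ 5 + (2 : ℝ) • (σ.G.γ 6 * σ.G.γ 7) := by
  simp (disch := decide) only [V0, a2b_sig_add, a2b_sig_sub, a2b_sig_smul, sig_pl]
  module

theorem s'_unit : σ.s' ⬝ᵥ σ.s' = 1 := by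
  rw [s', ← Matrix.mulVec_mulVec, a2b_dot, Matrix.mulVec_mulVec _ (σ.G.γ 0), a2b_sq, Matrix.one_mulVec,
    a2b_dot, Matrix.mulVec_mulVec, a2b_sq, Matrix.one_mulVec, σ.unit]

theorem s_s' : σ.s ⬝ᵥ σ.s' = 0 := by
  have h : σ.s ⬝ᵥ σ.s' = -(σ.s ⬝ᵥ σ.s') := by
    conv_lhs => rw [s', ← Matrix.mulVec_mulVec, ← a2b_dot, ← a2b_dot, Matrix.mulVec_mulVec,
      a2b_sw σ.G (show (0 : Fin 9) < 1 by decide), Matrix.neg_mulVec, neg_dotProduct, dotProduct_comm]
    rfl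
  linarith

theorem h8' : σ.G.γ 8 *ᵥ σ.s' = σ.s' := by
  have e : σ.G.γ 8 * (σ.G.γ 0 * σ.G.γ 1) = σ.G.γ 0 * σ.G.γ 1 * σ.G.γ 8 := by
    simp (disch := decide) only [mul_assoc, a2b_sw, a2b_sw', mul_neg, neg_neg]
  rw [s', Matrix.mulVec_mulVec, e, ← Matrix.mulVec_mulVec, σ.h8]

theorem sig_s : sig σ.G V0 *ᵥ σ.s = 0 := by
  rw [sig_V0]
  simp only [Matrix.add_mulVec, Matrix.sub_mulVec, Matrix.neg_mulVec, Matrix.smul_mulVec, σ.h23, σ.h45,
    σ.h67]
  module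

theorem sig_s' : sig σ.G V0 *ᵥ σ.s' = 0 := by
  have e : sig σ.G V0 * (σ.G.γ 0 * σ.G.γ 1) = σ.G.γ 0 * σ.G.γ 1 * sig σ.G V0 := by
    rw [sig_V0]
    simp (disch := decide) only [mul_add, add_mul, mul_sub, sub_mul, smul_mul_assoc, mul_smul_comm,
      mul_assoc, a2b_sw, a2b_sw', a2b_sq, a2b_sq', mul_neg, neg_mul, neg_neg]
  rw [s', Matrix.mulVec_mulVec, e, ← Matrix.mulVec_mulVec, sig_s, Matrix.mulVec_zero]

theorem gamma_s_s' (i : Fin 9) : (σ.G.γ i *ᵥ σ.s) ⬝ᵥ σ.s' = 0 := by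
  by_cases h : i = 8
  · rw [h, σ.h8, s_s']
  have e : (σ.G.γ i *ᵥ σ.s) ⬝ᵥ σ.s' = -((σ.G.γ i *ᵥ σ.s) ⬝ᵥ σ.s') := by
    conv_lhs => rw [← σ.h8', ← a2b_dot, Matrix.mulVec_mulVec, a2b_anti σ.G (Ne.symm h), Matrix.neg_mulVec,
      ← Matrix.mulVec_mulVec, σ.h8, neg_dotProduct]
  linarith

end Spn

end Crest.Agent.R330

end
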