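import Crest.Agent.R330.A2.B

/-! # Row 330, A2/C (statements frozen; see `R330/Blueprint.lean`) -/

set_option autoImplicit false
set_option linter.unusedSectionVars false
set_option linter.unusedSimpArgs false

noncomputable section

open MeasureTheory Filter Topology
open scoped InnerProductSpace ContDiff Matrix
open Crest.MathPhysics.MatrixQM (GammaNine)

namespace Crest.Agent.R330

variable {E E' F : Type} [NormedAddCommGroup E] [InnerProductSpace ℝ E] [FiniteDimensional ℝ E]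
  [NormedAddCommGroup E'] [InnerProductSpace ℝ E'] [FiniteDimensional ℝ E']
  [NormedAddCommGroup F] [InnerProductSpace ℂ F] [FiniteDimensional ℂ F]

theorem a2c_sq (G : GammaNine) (i : Fin 9) : G.γ i * G.γ i = 1 := by
  have h := G.clifford i i
  rw [if_pos rfl] at h
  have h2 : (2 : ℝ) • (G.γ i * G.γ i) = (2 : ℝ) • (1 : Matrix (Fin 16) (Fin 16) ℝ) := by
    rw [two_smul, two_smul, h, one_add_one_eq_two]
  exact smul_right_injective _ two_ne_zero h2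

theorem a2c_anti (G : GammaNine) {i j : Fin 9} (h : i ≠ j) : G.γ i * G.γ j = -(G.γ j * G.γ i) := by
  have h1 := G.clifford i j
  rw [if_neg h] at h1
  exact eq_neg_of_add_eq_zero_left h1

theorem a2c_sq' (G : GammaNine) (i : Fin 9) (M : Matrix (Fin 16) (Fin 16) ℝ) : G.γ i * (G.γ i * M) = M := by
  rw [← mul_assoc, a2c_sq, one_mul]

theorem a2c_sw (G : GammaNine) {i j : Fin 9} (h : j < i) : G.γ i * G.γ j = -(G.γ j * G.γ i) :=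
  a2c_anti G h.ne'

theorem a2c_sw' (G : GammaNine) {i j : Fin 9} (h : j < i) (M : Matrix (Fin 16) (Fin 16) ℝ) :
    G.γ i * (G.γ j * M) = -(G.γ j * (G.γ i * M)) := by
  rw [← mul_assoc, a2c_sw G h, neg_mul, mul_assoc]

theorem a2c_dot (G : GammaNine) (u : Fin 16 → ℝ) (hu : u ⬝ᵥ u = 1) (i j : Fin 9) :
    (G.γ i *ᵥ u) ⬝ᵥ (G.γ j *ᵥ u) = if i = j then 1 else 0 := by
  have h : ∀ i j : Fin 9, (G.γ i *ᵥ u) ⬝ᵥ (G.γ j *ᵥ u) = u ⬝ᵥ (G.γ i * G.γ j) *ᵥ u := fun i j => by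
    rw [← Matrix.mulVec_mulVec, Matrix.dotProduct_mulVec u, ← Matrix.mulVec_transpose, G.symm]
  split_ifs with hij
  · rw [h, hij, a2c_sq, Matrix.one_mulVec, hu]
  · have h1 := h i j
    rw [a2c_anti G hij, Matrix.neg_mulVec, dotProduct_neg, ← h j i, dotProduct_comm (G.γ j *ᵥ u)] at h1
    linarith

/-- symmetric idempotent commuting with `J` -/
structure A2cGood (J P : Matrix (Fin 16) (Fin 16) ℝ) : Prop where
  sym : Pᵀ = P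
  idem : P * P = P
  comm : P * J = J * P

theorem A2cGood.mul {J P Q : Matrix (Fin 16) (Fin 16) ℝ} (hP : A2cGood J P) (hQ : A2cGood J Q) (h : P * Q = Q * P) :
    A2cGood J (P * Q) := by
  refine ⟨by rw [Matrix.transpose_mul, hP.sym, hQ.sym, h], ?_, ?_⟩
  · rw [mul_assoc, ← mul_assoc Q, ← h, mul_assoc, hQ.idem, ← mul_assoc, hP.idem]
  · rw [mul_assoc, hQ.comm, ← mul_assoc, hP.comm, mul_assoc]

theorem A2cGood.ineq {J P : Matrix (Fin 16) (Fin 16) ℝ} (hP : A2cGood J P) (hJ : Jᵀ * J = 1) (u v : Fin 16 → ℝ) :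
    2 * |u ⬝ᵥ (J * P) *ᵥ v| ≤ u ⬝ᵥ P *ᵥ u + v ⬝ᵥ P *ᵥ v := by
  have ht : ∀ (A B : Matrix (Fin 16) (Fin 16) ℝ) (x y : Fin 16 → ℝ),
      (A *ᵥ x) ⬝ᵥ (B *ᵥ y) = x ⬝ᵥ (Aᵀ * B) *ᵥ y := fun A B x y => by
    rw [← Matrix.mulVec_mulVec, Matrix.dotProduct_mulVec x, ← Matrix.mulVec_transpose, Matrix.transpose_transpose]
  have h1 : (P *ᵥ u) ⬝ᵥ (P *ᵥ u) = u ⬝ᵥ P *ᵥ u := by rw [ht, hP.sym, hP.idem]
  have h2 : ((J * P) *ᵥ v) ⬝ᵥ ((J * P) *ᵥ v) = v ⬝ᵥ P *ᵥ v := by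
    rw [ht, Matrix.transpose_mul, mul_assoc, ← mul_assoc Jᵀ, hJ, one_mul, hP.sym, hP.idem]
  have h3 : (P *ᵥ u) ⬝ᵥ ((J * P) *ᵥ v) = u ⬝ᵥ (J * P) *ᵥ v := by
    rw [ht, hP.sym, ← mul_assoc, hP.comm, mul_assoc, hP.idem]
  rw [← h1, ← h2, ← h3]
  generalize P *ᵥ u = x
  generalize (J * P) *ᵥ v = y
  have h4 : 0 ≤ (x - y) ⬝ᵥ (x - y) := Finset.sum_nonneg fun i _ => mul_self_nonneg _
  have h5 : 0 ≤ (x + y) ⬝ᵥ (x + y) := Finset.sum_nonneg fun i _ => mul_self_nonneg _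
  simp only [sub_dotProduct, dotProduct_sub, add_dotProduct, dotProduct_add, dotProduct_comm y x] at h4 h5
  rcases abs_cases (x ⬝ᵥ y) with h | h <;> linarith [h.1]

/-- spectral projector of an involution -/
def a2cp (x : ℝ) (a : Matrix (Fin 16) (Fin 16) ℝ) : Matrix (Fin 16) (Fin 16) ℝ := (1 / 2 : ℝ) • (1 + x • a)

theorem a2cp_comm {x : ℝ} {a b : Matrix (Fin 16) (Fin 16) ℝ} (h : a * b = b * a) : a2cp x a * b = b * a2cp x a := by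
  simp only [a2cp, smul_mul_assoc, mul_smul_comm, add_mul, mul_add, one_mul, mul_one, h]

theorem a2cp_good {x : ℝ} (hx : x * x = 1) {J a : Matrix (Fin 16) (Fin 16) ℝ} (h1 : aᵀ = a) (h2 : a * a = 1)
    (h3 : a * J = J * a) : A2cGood J (a2cp x a) := by
  refine ⟨?_, ?_, a2cp_comm h3⟩
  · simp only [a2cp, Matrix.transpose_smul, Matrix.transpose_add, Matrix.transpose_one, h1]
  · simp only [a2cp, smul_mul_assoc, mul_smul_comm, add_mul, mul_add, one_mul, mul_one, h2, smul_add, smul_smul]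
    match_scalars
    · linear_combination (1 / 4) * hx
    · ring

theorem a2cp_trace (x : ℝ) {g a Q : Matrix (Fin 16) (Fin 16) ℝ} (hg : g * g = 1) (ha : g * a = -(a * g))
    (hQ : g * Q = Q * g) : (a2cp x a * Q).trace = 1 / 2 * Q.trace := by
  have h : (a * Q).trace = 0 := by
    have h1 : (g * (a * Q * g)).trace = (a * Q).trace := by
      rw [Matrix.trace_mul_comm, mul_assoc, hg, mul_one]
    have h2 : g * (a * Q * g) = -(a * Q) := by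
      rw [← mul_assoc, ← mul_assoc, ha, neg_mul, neg_mul, mul_assoc a, hQ, mul_assoc, mul_assoc, hg, mul_one]
    rw [h2, Matrix.trace_neg] at h1
    linarith
  simp only [a2cp, smul_mul_assoc, add_mul, one_mul, Matrix.trace_smul, Matrix.trace_add, h, smul_eq_mul, mul_zero,
    add_zero]

theorem a2c_abs {J a b c g₁ g₂ g₃ : Matrix (Fin 16) (Fin 16) ℝ} (hJ : Jᵀ * J = 1)
    (a1 : aᵀ = a) (a2 : a * a = 1) (a3 : a * J = J * a) (b1 : bᵀ = b) (b2 : b * b = 1) (b3 : b * J = J * b)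
    (c1 : cᵀ = c) (c2 : c * c = 1) (c3 : c * J = J * c) (ab : a * b = b * a) (ac : a * c = c * a) (bc : b * c = c * b)
    (h1 : g₁ * g₁ = 1) (h1a : g₁ * a = -(a * g₁)) (h1b : b * g₁ = g₁ * b) (h1c : c * g₁ = g₁ * c)
    (h2 : g₂ * g₂ = 1) (h2b : g₂ * b = -(b * g₂)) (h2c : c * g₂ = g₂ * c)
    (h3 : g₃ * g₃ = 1) (h3c : g₃ * c = -(c * g₃)) :
    ∃ B : Matrix (Fin 16) (Fin 16) ℝ, Bᵀ = B ∧ B.trace = 40 ∧ ∀ u v : Fin 16 → ℝ,
      2 * (u ⬝ᵥ (J * (a * (b * c) - (2 : ℝ) • (b * c) + a * c + (2 : ℝ) • (a * b))) *ᵥ v) ≤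
        u ⬝ᵥ B *ᵥ u + v ⬝ᵥ B *ᵥ v := by
  let P : ℝ → ℝ → ℝ → Matrix (Fin 16) (Fin 16) ℝ := fun x y z => a2cp x a * (a2cp y b * a2cp z c)
  have hP : ∀ x y z : ℝ, x * x = 1 → y * y = 1 → z * z = 1 → A2cGood J (P x y z) := fun x y z hx hy hz => by
    refine (a2cp_good hx a1 a2 a3).mul ((a2cp_good hy b1 b2 b3).mul (a2cp_good hz c1 c2 c3)
      (a2cp_comm (a2cp_comm bc.symm).symm)) (a2cp_comm ?_)
    rw [← mul_assoc, ← a2cp_comm ab.symm, mul_assoc, ← a2cp_comm ac.symm, mul_assoc]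
  have hT : ∀ x y z : ℝ, (P x y z).trace = 2 := fun x y z => by
    have e3 := a2cp_trace z h3 h3c (Q := 1) (by rw [mul_one, one_mul])
    have e2 := a2cp_trace y h2 h2b (Q := a2cp z c) (a2cp_comm h2c).symm
    have e1 := a2cp_trace x h1 h1a (Q := a2cp y b * a2cp z c) (by
      rw [← mul_assoc, ← a2cp_comm h1b, mul_assoc, ← a2cp_comm h1c, mul_assoc])
    rw [mul_one, Matrix.trace_one, Fintype.card_fin] at e3
    rw [e1, e2, e3]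
    norm_num
  have hN : a * (b * c) - (2 : ℝ) • (b * c) + a * c + (2 : ℝ) • (a * b) =
      (4 : ℝ) • P (-1) (-1) 1 + (2 : ℝ) • P (-1) 1 (-1) - (6 : ℝ) • P (-1) 1 1 - (4 : ℝ) • P 1 (-1) (-1) +
        (2 : ℝ) • P 1 1 (-1) + (2 : ℝ) • P 1 1 1 := by
    simp only [P, a2cp, smul_mul_assoc, mul_smul_comm, add_mul, mul_add, one_mul, mul_one]
    module
  have m : (-1 : ℝ) * -1 = 1 := by norm_num
  have o : (1 : ℝ) * 1 = 1 := by norm_num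
  refine ⟨(4 : ℝ) • P (-1) (-1) 1 + (2 : ℝ) • P (-1) 1 (-1) + (6 : ℝ) • P (-1) 1 1 + (4 : ℝ) • P 1 (-1) (-1) +
    (2 : ℝ) • P 1 1 (-1) + (2 : ℝ) • P 1 1 1, ?_, ?_, fun u v => ?_⟩
  · simp only [Matrix.transpose_add, Matrix.transpose_smul, (hP _ _ _ m m o).sym, (hP _ _ _ m o m).sym,
      (hP _ _ _ m o o).sym, (hP _ _ _ o m m).sym, (hP _ _ _ o o m).sym, (hP _ _ _ o o o).sym]
  · simp only [Matrix.trace_add, Matrix.trace_smul, hT, smul_eq_mul]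
    norm_num
  · have i1 := (hP _ _ _ m m o).ineq hJ u v
    have i2 := (hP _ _ _ m o m).ineq hJ u v
    have i3 := (hP _ _ _ m o o).ineq hJ u v
    have i4 := (hP _ _ _ o m m).ineq hJ u v
    have i5 := (hP _ _ _ o o m).ineq hJ u v
    have i6 := (hP _ _ _ o o o).ineq hJ u v
    rw [hN]
    simp only [mul_add, mul_sub, mul_smul_comm, Matrix.add_mulVec, Matrix.sub_mulVec, Matrix.smul_mulVec,
      dotProduct_add, dotProduct_sub, dotProduct_smul, smul_eq_mul]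
    linarith [le_abs_self (u ⬝ᵥ (J * P (-1) (-1) 1) *ᵥ v), le_abs_self (u ⬝ᵥ (J * P (-1) 1 (-1)) *ᵥ v),
      neg_abs_le (u ⬝ᵥ (J * P (-1) 1 1) *ᵥ v), neg_abs_le (u ⬝ᵥ (J * P 1 (-1) (-1)) *ᵥ v),
      le_abs_self (u ⬝ᵥ (J * P 1 1 (-1)) *ᵥ v), le_abs_self (u ⬝ᵥ (J * P 1 1 1) *ᵥ v)]

namespace Spn

variable (σ : Spn)

/-- Fierz: `Σ_i γ^i u (γ^i u)ᵀ = ½(1 - γ^8) + u uᵀ` for a unit `u` with `γ^8 u = u`. -/
theorem fierz (G : GammaNine) (u : Fin 16 → ℝ) (hu : u ⬝ᵥ u = 1) (h8 : G.γ 8 *ᵥ u = u) :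
    ∑ i, Matrix.vecMulVec (G.γ i *ᵥ u) (G.γ i *ᵥ u) =
      (1 / 2 : ℝ) • (1 - G.γ 8) + Matrix.vecMulVec u u := by
  let A : Matrix (Fin 16) (Fin 9) ℝ := Matrix.of fun a i => (G.γ i *ᵥ u) a
  have hQ : ∑ i, Matrix.vecMulVec (G.γ i *ᵥ u) (G.γ i *ᵥ u) = A * Aᵀ := by
    ext a b
    simp only [Matrix.sum_apply, Matrix.vecMulVec_apply, Matrix.mul_apply, Matrix.transpose_apply, Matrix.of_apply, A]
  have hA : Aᵀ * A = 1 := by
    ext i j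
    rw [Matrix.one_apply, ← a2c_dot G u hu]
    simp only [Matrix.mul_apply, Matrix.transpose_apply, Matrix.of_apply, A, dotProduct]
  set R : Matrix (Fin 16) (Fin 16) ℝ := (1 / 2 : ℝ) • (1 - G.γ 8) + Matrix.vecMulVec u u with hR
  have hRv : ∀ v, R *ᵥ v = (1 / 2 : ℝ) • (v - G.γ 8 *ᵥ v) + (u ⬝ᵥ v) • u := fun v => by
    rw [hR, Matrix.add_mulVec, Matrix.smul_mulVec, Matrix.sub_mulVec, Matrix.one_mulVec, Matrix.vecMulVec_mulVec]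
    simp
  have hs : Rᵀ = R := by
    rw [hR, Matrix.transpose_add, Matrix.transpose_smul, Matrix.transpose_sub, Matrix.transpose_one, G.symm,
      Matrix.transpose_vecMulVec]
  have hRR : R * R = R := by
    refine Matrix.ext_of_mulVec_single fun i => ?_
    generalize (Pi.single i 1 : Fin 16 → ℝ) = v
    have h1 : u ⬝ᵥ G.γ 8 *ᵥ v = u ⬝ᵥ v := by
      rw [Matrix.dotProduct_mulVec, ← Matrix.mulVec_transpose, G.symm, h8]
    rw [← Matrix.mulVec_mulVec, hRv (R *ᵥ v), hRv v]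
    simp only [Matrix.mulVec_add, Matrix.mulVec_smul, Matrix.mulVec_sub, Matrix.mulVec_mulVec, a2c_sq,
      Matrix.one_mulVec, h8, dotProduct_add, dotProduct_smul, dotProduct_sub, h1, hu, sub_self, smul_eq_mul]
    module
  have hRA : R * A = A := by
    ext a i
    have h1 : R *ᵥ (G.γ i *ᵥ u) = G.γ i *ᵥ u := by
      have h2 := a2c_dot G u hu 8 i
      rw [h8] at h2
      rw [hRv, h2]
      split_ifs with hi
      · rw [← hi, h8, h8]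
        module
      · rw [Matrix.mulVec_mulVec, a2c_anti G hi, Matrix.neg_mulVec, ← Matrix.mulVec_mulVec, h8]
        module
    exact congrFun h1 a
  have hAR : Aᵀ * R = Aᵀ := by rw [← hs, ← Matrix.transpose_mul, hRA]
  have h0 : (R - A * Aᵀ)ᴴ * (R - A * Aᵀ) = R - A * Aᵀ := by
    rw [Matrix.conjTranspose_eq_transpose_of_trivial, Matrix.transpose_sub, hs, Matrix.transpose_mul,
      Matrix.transpose_transpose, sub_mul, mul_sub, mul_sub, hRR, ← Matrix.mul_assoc R, hRA, Matrix.mul_assoc A Aᵀ R,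
      hAR, Matrix.mul_assoc A Aᵀ, ← Matrix.mul_assoc Aᵀ, hA, Matrix.one_mul, sub_self, sub_zero]
  have h1 : (R - A * Aᵀ).trace = 0 := by
    rw [Matrix.trace_sub, Matrix.trace_mul_comm, hA, hR, Matrix.trace_add, Matrix.trace_smul, Matrix.trace_sub,
      gamma_trace_one, Matrix.trace_vecMulVec, hu, Matrix.trace_one, Matrix.trace_one]
    norm_num
  rw [← h0, Matrix.trace_conjTranspose_mul_self_eq_zero_iff] at h1
  rw [hQ]
  exact (sub_eq_zero.1 h1).symm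

/-- Chirality: `γ^0 ⋯ γ^7 = γ^8` (because it holds on `s`). -/
theorem chir : σ.G.γ 0 * σ.G.γ 1 * (σ.G.γ 2 * σ.G.γ 3) * (σ.G.γ 4 * σ.G.γ 5) *
    (σ.G.γ 6 * σ.G.γ 7) = σ.G.γ 8 := by
  set Γ := σ.G.γ 0 * σ.G.γ 1 * (σ.G.γ 2 * σ.G.γ 3) * (σ.G.γ 4 * σ.G.γ 5) * (σ.G.γ 6 * σ.G.γ 7) with hΓ
  have hs : Γ *ᵥ σ.s = σ.s := by
    have e1 : σ.G.γ 0 * σ.G.γ 1 * (σ.G.γ 2 * σ.G.γ 3) * (σ.G.γ 4 * σ.G.γ 5) * (σ.G.γ 0 * σ.G.γ 1) =
        -(σ.G.γ 2 * σ.G.γ 3) * (σ.G.γ 4 * σ.G.γ 5) := by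
      simp (disch := decide) only [mul_assoc, a2c_sq, a2c_sq', a2c_sw, a2c_sw', mul_neg, neg_mul, neg_neg]
    have e2 : -(σ.G.γ 2 * σ.G.γ 3) * (σ.G.γ 0 * σ.G.γ 1) = -(σ.G.γ 0 * σ.G.γ 1) * (σ.G.γ 2 * σ.G.γ 3) := by
      simp (disch := decide) only [mul_assoc, a2c_sq, a2c_sq', a2c_sw, a2c_sw', mul_neg, neg_mul, neg_neg]
    have e3 : -(σ.G.γ 0 * σ.G.γ 1) * (σ.G.γ 0 * σ.G.γ 1) = 1 := by
      simp (disch := decide) only [mul_assoc, a2c_sq, a2c_sq', a2c_sw, a2c_sw', mul_neg, neg_mul, neg_neg]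
    rw [hΓ, ← Matrix.mulVec_mulVec, σ.h67, Matrix.mulVec_mulVec, e1, ← Matrix.mulVec_mulVec, σ.h45,
      Matrix.mulVec_mulVec, e2, ← Matrix.mulVec_mulVec, σ.h23, Matrix.mulVec_mulVec, e3, Matrix.one_mulVec]
  have hc : ∀ i, Γ * σ.G.γ 8 * σ.G.γ i = σ.G.γ i * (Γ * σ.G.γ 8) := by
    intro i
    rw [hΓ]
    match i with
    | 0 | 1 | 2 | 3 | 4 | 5 | 6 | 7 | 8 =>
      simp (disch := decide) only [mul_assoc, a2c_sq, a2c_sq', a2c_sw, a2c_sw', mul_neg, neg_mul, neg_neg, mul_one]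
  have hZ : (Γ * σ.G.γ 8) *ᵥ σ.s = σ.s := by rw [← Matrix.mulVec_mulVec, σ.h8, hs]
  generalize hZ' : Γ * σ.G.γ 8 = Z at hc hZ
  have h1 : Z * ((1 / 2 : ℝ) • (1 - σ.G.γ 8) + Matrix.vecMulVec σ.s σ.s) =
      (1 / 2 : ℝ) • (1 - σ.G.γ 8) + Matrix.vecMulVec σ.s σ.s := by
    rw [← fierz σ.G σ.s σ.unit σ.h8, Finset.mul_sum]
    refine Finset.sum_congr rfl fun i _ => ?_
    rw [Matrix.mul_vecMulVec, Matrix.mulVec_mulVec, hc, ← Matrix.mulVec_mulVec, hZ]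
  rw [mul_add, Matrix.mul_vecMulVec, hZ, add_left_inj, mul_smul_comm] at h1
  have h2 : Z * (1 - σ.G.γ 8) = 1 - σ.G.γ 8 := smul_right_injective _ (by norm_num) h1
  have h3 : Z * (1 + σ.G.γ 8) = 1 + σ.G.γ 8 := by
    have e : 1 + σ.G.γ 8 = σ.G.γ 0 * ((1 - σ.G.γ 8) * σ.G.γ 0) := by
      simp (disch := decide) only [sub_mul, mul_add, one_mul, a2c_sq, a2c_sq', a2c_sw, sub_neg_eq_add]
    rw [e, ← mul_assoc, hc, mul_assoc, ← mul_assoc Z, h2]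
  have h4 : (2 : ℝ) • Z = (2 : ℝ) • (1 : Matrix (Fin 16) (Fin 16) ℝ) := by
    rw [mul_sub, mul_one] at h2
    rw [mul_add, mul_one] at h3
    calc (2 : ℝ) • Z = (Z - Z * σ.G.γ 8) + (Z + Z * σ.G.γ 8) := by module
      _ = _ := by rw [h2, h3]; module
  have h5 : Z = 1 := smul_right_injective _ two_ne_zero h4
  calc Γ = Γ * σ.G.γ 8 * σ.G.γ 8 := by rw [mul_assoc, a2c_sq, mul_one]
    _ = σ.G.γ 8 := by rw [hZ', h5, one_mul]

/-- `|γ^8 σ(V₀)|`: a symmetric majorant with trace `12·2 + 8·2 = 40`... precisely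
`tr |σ(V₀)| = (4a + 4b) + (2(a+b) + 2(b-a)) = 24 + 16 = 40` for `(a, b) = (2, 4)`. -/
theorem exists_abs_sig : ∃ B : Matrix (Fin 16) (Fin 16) ℝ, Bᵀ = B ∧ B.trace = 40 ∧
    ∀ u v : Fin 16 → ℝ, 2 * (u ⬝ᵥ (σ.G.γ 8 * sig σ.G V0) *ᵥ v) ≤ u ⬝ᵥ B *ᵥ u + v ⬝ᵥ B *ᵥ v := by
  have h : σ.G.γ 8 * sig σ.G V0 = σ.G.γ 0 * σ.G.γ 1 *
      (σ.G.γ 0 * σ.G.γ 1 * (σ.G.γ 2 * σ.G.γ 3) * (σ.G.γ 0 * σ.G.γ 1 * (σ.G.γ 4 * σ.G.γ 5) *
          (σ.G.γ 0 * σ.G.γ 1 * (σ.G.γ 6 * σ.G.γ 7))) -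
        (2 : ℝ) • (σ.G.γ 0 * σ.G.γ 1 * (σ.G.γ 4 * σ.G.γ 5) * (σ.G.γ 0 * σ.G.γ 1 * (σ.G.γ 6 * σ.G.γ 7))) +
        σ.G.γ 0 * σ.G.γ 1 * (σ.G.γ 2 * σ.G.γ 3) * (σ.G.γ 0 * σ.G.γ 1 * (σ.G.γ 6 * σ.G.γ 7)) +
        (2 : ℝ) • (σ.G.γ 0 * σ.G.γ 1 * (σ.G.γ 2 * σ.G.γ 3) * (σ.G.γ 0 * σ.G.γ 1 * (σ.G.γ 4 * σ.G.γ 5)))) := by
    rw [σ.sig_V0, ← σ.chir]
    simp (disch := decide) only [mul_add, mul_sub, mul_smul_comm, mul_assoc, a2c_sq, a2c_sq', a2c_sw, a2c_sw', mul_neg,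
      neg_mul, neg_neg, mul_one]
  rw [h]
  apply a2c_abs (g₁ := σ.G.γ 2) (g₂ := σ.G.γ 4) (g₃ := σ.G.γ 6) <;>
    simp (disch := decide) only [Matrix.transpose_mul, σ.G.symm, mul_assoc, a2c_sq, a2c_sq', a2c_sw, a2c_sw', mul_neg,
      neg_mul, neg_neg, mul_one]

end Spn

end Crest.Agent.R330

end
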