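import Crest.Agent.R330.A2.C

/-! # Row 330, A2/D (statements frozen; see `R330/Blueprint.lean`) -/

set_option autoImplicit false
set_option linter.unusedSectionVars false

noncomputable section

open MeasureTheory Filter Topology
open scoped InnerProductSpace ContDiff Matrix
open Crest.MathPhysics.MatrixQM (GammaNine)

namespace Crest.Agent.R330

variable {E E' F : Type} [NormedAddCommGroup E] [InnerProductSpace ℝ E] [FiniteDimensional ℝ E]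
  [NormedAddCommGroup E'] [InnerProductSpace ℝ E'] [FiniteDimensional ℝ E']
  [NormedAddCommGroup F] [InnerProductSpace ℂ F] [FiniteDimensional ℂ F]

/-! ### the potential -/

/-- `tens u` as a linear map -/
def da_tensL {n : ℕ} (u : Fin n → ℝ) : E →ₗ[ℝ] T n E where
  toFun := tens u
  map_add' a b := by ext i; simp
  map_smul' r a := by ext i; simp [smul_comm r]

theorem da_tensL_apply {n : ℕ} (u : Fin n → ℝ) (e : E) : da_tensL u e = tens u e := rfl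

/-- coordinate projection -/
def da_proj {n : ℕ} (i : Fin n) : T n E →ₗ[ℝ] E where
  toFun x := x i
  map_add' a b := rfl
  map_smul' r a := rfl

theorem da_proj_apply {n : ℕ} (i : Fin n) (x : T n E) : da_proj i x = x i := rfl

theorem da_tens_sub {n : ℕ} (u v : Fin n → ℝ) (e : E) : tens (u - v) e = tens u e - tens v e := by
  ext i; simp [sub_smul]

theorem da_tens_smul {n : ℕ} (r : ℝ) (u : Fin n → ℝ) (e : E) : tens (r • u) e = r • tens u e := by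
  ext i; simp [mul_smul]

theorem da_tens_neg {n : ℕ} (u : Fin n → ℝ) (e : E) : tens (-u) e = -tens u e := by
  ext i; simp

theorem da_tens_neg' {n : ℕ} (u : Fin n → ℝ) (e : E) : tens u (-e) = -tens u e := by
  ext i; simp

theorem da_tens_zero {n : ℕ} (e : E) : tens (0 : Fin n → ℝ) e = 0 := by
  ext i; simp

theorem da_tens_zero' {n : ℕ} (u : Fin n → ℝ) : tens u (0 : E) = 0 := by
  ext i; simp

theorem da_br_self (𝔤 : Lie E) (a : E) : 𝔤.br a a = 0 := by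
  have h := 𝔤.anti a a
  have h2 : (2 : ℝ) • 𝔤.br a a = 0 := by
    rw [two_smul]
    exact eq_neg_iff_add_eq_zero.1 h
  exact (smul_eq_zero.1 h2).resolve_left two_ne_zero

/-- the bilinear map behind `wpot` -/
def da_B (𝔤 : Lie E) (G : GammaNine) (u : Fin 16 → ℝ) : X E →L[ℝ] X E →L[ℝ] Th E :=
  LinearMap.toContinuousBilinearMap ((1 / 2 : ℝ) • ∑ i, ∑ j,
    (𝔤.br.compl₁₂ (da_proj i) (da_proj j)).compr₂ (da_tensL ((G.γ i * G.γ j) *ᵥ u)))

theorem da_B_apply (𝔤 : Lie E) (G : GammaNine) (u : Fin 16 → ℝ) (x v : X E) :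
    da_B 𝔤 G u x v = (1 / 2 : ℝ) • ∑ i, ∑ j, tens ((G.γ i * G.γ j) *ᵥ u) (𝔤.br (x i) (v j)) := by
  simp only [da_B, LinearMap.toContinuousBilinearMap_apply, LinearMap.smul_apply, LinearMap.sum_apply,
    LinearMap.compr₂_apply, LinearMap.compl₁₂_apply, da_proj_apply, da_tensL_apply]

theorem da_wpot_eq (𝔤 : Lie E) (G : GammaNine) (u : Fin 16 → ℝ) :
    wpot 𝔤 G u = fun x => da_B 𝔤 G u x x := by
  funext x
  rw [da_B_apply, wpot]

theorem da_fderiv (𝔤 : Lie E) (G : GammaNine) (u : Fin 16 → ℝ) (x v : X E) :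
    fderiv ℝ (wpot 𝔤 G u) x v = da_B 𝔤 G u x v + da_B 𝔤 G u v x := by
  have h : HasFDerivAt (fun y => da_B 𝔤 G u y y) _ x :=
    ((da_B 𝔤 G u).hasFDerivAt (x := x)).clm_apply (hasFDerivAt_id x)
  rw [da_wpot_eq, h.fderiv]
  simp

theorem da_swap (G : GammaNine) (i j : Fin 9) :
    G.γ j * G.γ i = (if i = j then (2 : ℝ) else 0) • (1 : Matrix (Fin 16) (Fin 16) ℝ) - G.γ i * G.γ j := by
  rw [eq_sub_iff_add_eq, add_comm, G.clifford]
  split_ifs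
  · rw [two_smul, one_add_one_eq_two]
  · rw [zero_smul]

theorem da_dot (G : GammaNine) (i : Fin 9) (a b : Fin 16 → ℝ) : (G.γ i *ᵥ a) ⬝ᵥ b = a ⬝ᵥ (G.γ i *ᵥ b) := by
  rw [Matrix.dotProduct_mulVec, ← Matrix.mulVec_transpose, G.symm]

theorem da_orth (G : GammaNine) {u : Fin 16 → ℝ} (hu : u ⬝ᵥ u = 1) (i j : Fin 9) :
    (G.γ i *ᵥ u) ⬝ᵥ (G.γ j *ᵥ u) = if i = j then 1 else 0 := by
  have h1 : (G.γ i *ᵥ u) ⬝ᵥ (G.γ j *ᵥ u) = u ⬝ᵥ ((G.γ i * G.γ j) *ᵥ u) := by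
    rw [da_dot, Matrix.mulVec_mulVec]
  have h2 : (G.γ i *ᵥ u) ⬝ᵥ (G.γ j *ᵥ u) = u ⬝ᵥ ((G.γ j * G.γ i) *ᵥ u) := by
    rw [dotProduct_comm, da_dot, Matrix.mulVec_mulVec]
  rw [da_swap, Matrix.sub_mulVec, dotProduct_sub, ← h1, Matrix.smul_mulVec, Matrix.one_mulVec,
    dotProduct_smul, hu] at h2
  split_ifs at h2 ⊢ <;> simp only [smul_eq_mul] at h2 <;> linarith

theorem da_cmap (G : GammaNine) (u : Fin 16 → ℝ) (x : X E) :
    cmap G u x = ∑ i, tens (G.γ i *ᵥ u) (x i) := by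
  ext α
  simp [cmap]

theorem da_cyc (G : GammaNine) (j k l : Fin 9) : G.γ k * G.γ l * G.γ j = G.γ j * G.γ k * G.γ l -
    (if j = k then (2 : ℝ) else 0) • G.γ l + (if j = l then (2 : ℝ) else 0) • G.γ k := by
  rw [mul_assoc, da_swap G j l, mul_sub, ← mul_assoc, da_swap G j k, sub_mul]
  simp only [mul_smul_comm, smul_mul_assoc, mul_one, one_mul]
  abel

/-- contraction of three gamma matrices with a tensor satisfying the Bianchi identity -/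
theorem da_three (g : Fin 9 → Fin 9 → Fin 9 → ℝ) (h : Fin 9 → ℝ) (A : Fin 9 → Fin 9 → Fin 9 → ℝ)
    (hg : ∀ j k l, g k l j = g j k l - (if j = k then 2 else 0) * h l + (if j = l then 2 else 0) * h k)
    (ha : ∀ j k l, A j k l = -A j l k) (hc : ∀ j k l, A j k l + A k l j + A l j k = 0) :
    ∑ j, ∑ k, ∑ l, g j k l * A j k l = -2 * ∑ j, ∑ k, h k * A j k j := by
  have r1 : ∀ f : Fin 9 → Fin 9 → Fin 9 → ℝ, ∑ j, ∑ k, ∑ l, f j k l = ∑ j, ∑ k, ∑ l, f k l j := fun f => by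
    rw [Finset.sum_comm (f := fun j k => ∑ l, f k l j)]
    exact Finset.sum_congr rfl fun k _ => Finset.sum_comm
  have z : ∀ j k, A j k k = 0 := fun j k => by linarith [ha j k k]
  have e0 : ∑ j, ∑ k, ∑ l, g j k l * A j k l + ∑ j, ∑ k, ∑ l, g j k l * A k l j +
      ∑ j, ∑ k, ∑ l, g j k l * A l j k = 0 := by
    simp only [← Finset.sum_add_distrib, ← mul_add, hc, mul_zero, Finset.sum_const_zero]
  have e1 : ∑ j, ∑ k, ∑ l, g j k l * A l j k = ∑ j, ∑ k, ∑ l, g k l j * A j k l :=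
    r1 fun j k l => g j k l * A l j k
  have e2 : ∑ j, ∑ k, ∑ l, g j k l * A k l j = ∑ j, ∑ k, ∑ l, g l j k * A j k l :=
    (r1 fun j k l => g l j k * A j k l).symm
  have e3 : ∑ j, ∑ k, h k * A j j k = -∑ j, ∑ k, h k * A j k j := by
    simp only [← Finset.sum_neg_distrib]
    exact Finset.sum_congr rfl fun j _ => Finset.sum_congr rfl fun k _ => by rw [ha j j k]; ring
  have e4 : ∑ j, ∑ k, ∑ l, g k l j * A j k l = ∑ j, ∑ k, ∑ l, g j k l * A j k l -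
      2 * ∑ j, ∑ k, h k * A j j k + 2 * ∑ j, ∑ k, h k * A j k j := by
    simp only [Finset.mul_sum, ← Finset.sum_sub_distrib, ← Finset.sum_add_distrib]
    refine Finset.sum_congr rfl fun j _ => ?_
    simp only [hg j, add_mul, sub_mul, Finset.sum_add_distrib, Finset.sum_sub_distrib, ite_mul, zero_mul,
      Finset.sum_ite_eq, Finset.mem_univ, if_true, mul_assoc]
    rw [Finset.sum_comm (f := fun k l => if j = k then 2 * (h l * A j k l) else 0)]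
    simp only [Finset.sum_ite_eq, Finset.mem_univ, if_true]
  have hg' : ∀ j k l, g l j k = g j k l + (if l = j then 2 else 0) * h k - (if l = k then 2 else 0) * h j :=
    fun j k l => by linarith [hg l j k]
  have e5 : ∑ j, ∑ k, ∑ l, g l j k * A j k l = ∑ j, ∑ k, ∑ l, g j k l * A j k l +
      2 * ∑ j, ∑ k, h k * A j k j := by
    simp only [Finset.mul_sum, ← Finset.sum_add_distrib]
    refine Finset.sum_congr rfl fun j _ => Finset.sum_congr rfl fun k _ => ?_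
    simp only [hg' j k, add_mul, sub_mul, Finset.sum_add_distrib, Finset.sum_sub_distrib, ite_mul, zero_mul,
      Finset.sum_ite_eq', Finset.mem_univ, if_true, mul_assoc, z, mul_zero, sub_zero]
  linarith

theorem norm_cmap (G : GammaNine) {u : Fin 16 → ℝ} (hu : u ⬝ᵥ u = 1) (x : X E) :
    ‖cmap G u x‖ = ‖x‖ := by
  rw [← sq_eq_sq₀ (norm_nonneg _) (norm_nonneg _), ← real_inner_self_eq_norm_sq, PiLp.norm_sq_eq_of_L2,
    da_cmap, sum_inner]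
  refine Finset.sum_congr rfl fun i _ => ?_
  simp only [inner_sum, inner_tens, da_orth G hu, ite_mul, one_mul, zero_mul, Finset.sum_ite_eq,
    Finset.mem_univ, if_true, real_inner_self_eq_norm_sq]

theorem cmap_eq_sum (G : GammaNine) (u : Fin 16 → ℝ) (x : X E) :
    cmap G u x = ∑ i, tens (G.γ i *ᵥ u) (x i) := by
  exact da_cmap G u x

theorem contDiff_wpot (𝔤 : Lie E) (G : GammaNine) (u : Fin 16 → ℝ) :
    ContDiff ℝ ∞ (wpot 𝔤 G u) := by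
  rw [da_wpot_eq]
  exact (da_B 𝔤 G u).contDiff.clm_apply contDiff_id

theorem contDiff_wd (𝔤 : Lie E) (σ : Spn) (ε : ℝ) {f : E → E} (hf : ContDiff ℝ ∞ f) :
    ContDiff ℝ ∞ (wd 𝔤 σ ε f) := by
  refine ((contDiff_wpot 𝔤 σ.G σ.s).add
    ((LinearMap.toContinuousLinearMap (cmap (E := E) σ.G σ.s ∘ₗ mat V0)).contDiff.const_smul ε)).add ?_
  exact (LinearMap.toContinuousLinearMap (da_tensL (E := E) σ.s')).contDiff.comp
    (hf.comp (LinearMap.toContinuousLinearMap (da_proj (E := E) (8 : Fin 9))).contDiff)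

theorem wpot_smul (𝔤 : Lie E) (G : GammaNine) (u : Fin 16 → ℝ) (r : ℝ) (x : X E) :
    wpot 𝔤 G u (r • x) = r ^ 2 • wpot 𝔤 G u x := by
  simp only [da_wpot_eq, map_smul, smul_apply, smul_smul, sq]

theorem fderiv_wpot (𝔤 : Lie E) (G : GammaNine) (u : Fin 16 → ℝ) (x v : X E) :
    fderiv ℝ (wpot 𝔤 G u) x v = (∑ i, mat (G.γ i) ∘ₗ lift 16 (𝔤.br (x i))) (cmap G u v) -
      tens u (∑ i, 𝔤.br (x i) (v i)) := by
  have e1 : (∑ i, mat (G.γ i) ∘ₗ lift 16 (𝔤.br (x i))) (cmap G u v) =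
      ∑ i, ∑ j, tens ((G.γ i * G.γ j) *ᵥ u) (𝔤.br (x i) (v j)) := by
    simp only [da_cmap, LinearMap.sum_apply, LinearMap.comp_apply, map_sum, lift_tens, mat_tens,
      Matrix.mulVec_mulVec]
    exact Finset.sum_comm
  have e2 : ∑ i, ∑ j, tens ((G.γ i * G.γ j) *ᵥ u) (𝔤.br (v i) (x j)) =
      ∑ i, ∑ j, tens ((G.γ i * G.γ j) *ᵥ u) (𝔤.br (x i) (v j)) -
        (2 : ℝ) • tens u (∑ i, 𝔤.br (x i) (v i)) := by
    rw [Finset.sum_comm, ← da_tensL_apply, map_sum, Finset.smul_sum, ← Finset.sum_sub_distrib]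
    refine Finset.sum_congr rfl fun i _ => ?_
    have e : ∀ j, tens ((G.γ j * G.γ i) *ᵥ u) (𝔤.br (v j) (x i)) =
        tens ((G.γ i * G.γ j) *ᵥ u) (𝔤.br (x i) (v j)) -
          if i = j then (2 : ℝ) • tens u (𝔤.br (x i) (v j)) else 0 := fun j => by
      rw [da_swap G i j, 𝔤.anti (v j), da_tens_neg', Matrix.sub_mulVec, da_tens_sub, Matrix.smul_mulVec,
        Matrix.one_mulVec, da_tens_smul, neg_sub]
      split_ifs
      · rfl
      · rw [zero_smul]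
    simp only [e, Finset.sum_sub_distrib, Finset.sum_ite_eq, Finset.mem_univ, if_true, da_tensL_apply]
  rw [da_fderiv, da_B_apply, da_B_apply, e1, e2]
  module

theorem wpot_add (𝔤 : Lie E) (G : GammaNine) (u : Fin 16 → ℝ) (x v : X E) :
    wpot 𝔤 G u (x + v) = wpot 𝔤 G u x + fderiv ℝ (wpot 𝔤 G u) x v + wpot 𝔤 G u v := by
  rw [da_fderiv]
  simp only [da_wpot_eq, map_add, add_apply]
  abel

/-- Bianchi identity. -/
theorem norm_wpot_sq (𝔤 : Lie E) (G : GammaNine) {u : Fin 16 → ℝ} (hu : u ⬝ᵥ u = 1) (x : X E) :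
    ‖wpot 𝔤 G u x‖ ^ 2 = 1 / 2 * ∑ i, ∑ j, ‖𝔤.br (x i) (x j)‖ ^ 2 := by
  set Tt : Fin 9 → Fin 9 → Fin 9 → Fin 9 → ℝ := fun i j k l =>
    ⟪𝔤.br (x i) (x j), 𝔤.br (x k) (x l)⟫_ℝ with hT
  have a1 : ∀ i j k l, Tt i j k l = -Tt i j l k := fun i j k l => by
    simp only [hT]
    rw [𝔤.anti (x k), inner_neg_right]
  have a2 : ∀ i j k l, Tt i j k l = -Tt j i k l := fun i j k l => by
    simp only [hT]
    rw [𝔤.anti (x i), inner_neg_left]
  have a4 : ∀ i j k l, Tt i j k l + Tt i k l j + Tt i l j k = 0 := fun i j k l => by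
    simp only [hT, 𝔤.inv, ← inner_add_right]
    rw [𝔤.jac (x j), 𝔤.anti (x l) (x j), 𝔤.anti (x l) (𝔤.br (x j) (x k)), map_neg]
    simp
  have e1 : ‖wpot 𝔤 G u x‖ ^ 2 = 1 / 4 * ∑ i, ∑ j, ∑ k, ∑ l,
      ((G.γ i * G.γ j) *ᵥ u) ⬝ᵥ ((G.γ k * G.γ l) *ᵥ u) * Tt i j k l := by
    rw [← real_inner_self_eq_norm_sq, wpot, real_inner_smul_left, real_inner_smul_right]
    simp only [sum_inner]
    simp only [inner_sum, inner_tens, hT]
    ring
  have e2 : ∑ i, ∑ j, ∑ k, ∑ l, ((G.γ i * G.γ j) *ᵥ u) ⬝ᵥ ((G.γ k * G.γ l) *ᵥ u) * Tt i j k l =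
      -∑ i, ∑ j, ∑ k, ∑ l, (G.γ i *ᵥ u) ⬝ᵥ ((G.γ j * G.γ k * G.γ l) *ᵥ u) * Tt i j k l := by
    rw [Finset.sum_comm]
    simp only [← Finset.sum_neg_distrib]
    refine Finset.sum_congr rfl fun i _ => Finset.sum_congr rfl fun j _ =>
      Finset.sum_congr rfl fun k _ => Finset.sum_congr rfl fun l _ => ?_
    rw [a2 j i, ← Matrix.mulVec_mulVec, da_dot G j, Matrix.mulVec_mulVec, mul_assoc]
    ring
  have e3 : ∀ i, ∑ j, ∑ k, ∑ l, (G.γ i *ᵥ u) ⬝ᵥ ((G.γ j * G.γ k * G.γ l) *ᵥ u) * Tt i j k l =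
      -2 * ∑ j, Tt i j i j := fun i => by
    rw [da_three (fun j k l => (G.γ i *ᵥ u) ⬝ᵥ ((G.γ j * G.γ k * G.γ l) *ᵥ u))
      (fun k => (G.γ i *ᵥ u) ⬝ᵥ (G.γ k *ᵥ u)) (Tt i) (fun j k l => ?_) (a1 i) (a4 i)]
    · simp only [da_orth G hu, ite_mul, one_mul, zero_mul, Finset.sum_ite_eq, Finset.mem_univ, if_true]
    · rw [da_cyc G j k l, Matrix.add_mulVec, Matrix.sub_mulVec, Matrix.smul_mulVec, Matrix.smul_mulVec,
        dotProduct_add, dotProduct_sub, dotProduct_smul, dotProduct_smul, smul_eq_mul, smul_eq_mul]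
  rw [e1, e2]
  simp only [e3, ← Finset.mul_sum]
  simp only [hT, real_inner_self_eq_norm_sq]
  ring

theorem adjoint_cmap_wpot (𝔤 : Lie E) (G : GammaNine) {u : Fin 16 → ℝ} (hu : u ⬝ᵥ u = 1)
    (h8 : G.γ 8 *ᵥ u = u) (x : X E) :
    LinearMap.adjoint (cmap G u) (wpot 𝔤 G u x) = -lift 9 (𝔤.br (x 8)) x := by
  have hn : ∀ j, u ⬝ᵥ (G.γ j *ᵥ u) = if j = 8 then 1 else 0 := fun j => by
    rw [← da_orth G hu, h8, dotProduct_comm]
  refine ext_inner_left ℝ fun y => ?_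
  rw [LinearMap.adjoint_inner_right, da_cmap, sum_inner, PiLp.inner_apply]
  refine Finset.sum_congr rfl fun k _ => ?_
  set Tt : Fin 9 → Fin 9 → ℝ := fun i j => ⟪y k, 𝔤.br (x i) (x j)⟫_ℝ with hT
  have a1 : ∀ i j, Tt i j = -Tt j i := fun i j => by
    simp only [hT]
    rw [𝔤.anti (x i), inner_neg_right]
  set g : Fin 9 → Fin 9 → ℝ := fun i j => (G.γ k *ᵥ u) ⬝ᵥ ((G.γ i * G.γ j) *ᵥ u) with hg
  have b1 : ∀ i j, g j i = g i j - (if k = i then 2 else 0) * (if j = 8 then 1 else 0) +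
      (if k = j then 2 else 0) * (if i = 8 then 1 else 0) := fun i j => by
    have c1 : g j i = u ⬝ᵥ ((G.γ i * G.γ j * G.γ k) *ᵥ u) := by
      simp only [hg]
      rw [dotProduct_comm, ← Matrix.mulVec_mulVec, da_dot G j, da_dot G i, Matrix.mulVec_mulVec,
        Matrix.mulVec_mulVec]
    have c2 : g i j = u ⬝ᵥ ((G.γ k * G.γ i * G.γ j) *ᵥ u) := by
      simp only [hg]
      rw [da_dot G k, Matrix.mulVec_mulVec, mul_assoc]
    rw [c1, c2, da_cyc G k i j, Matrix.add_mulVec, Matrix.sub_mulVec, Matrix.smul_mulVec,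
      Matrix.smul_mulVec, dotProduct_add, dotProduct_sub, dotProduct_smul, dotProduct_smul, hn, hn,
      smul_eq_mul, smul_eq_mul]
  have e1 : ∑ i, ∑ j, g i j * Tt i j = -∑ i, ∑ j, g j i * Tt i j := by
    rw [Finset.sum_comm]
    simp only [← Finset.sum_neg_distrib]
    exact Finset.sum_congr rfl fun i _ => Finset.sum_congr rfl fun j _ => by rw [a1 j i]; ring
  have e2 : ∑ i, ∑ j, g j i * Tt i j = ∑ i, ∑ j, g i j * Tt i j - 2 * Tt k 8 + 2 * Tt 8 k := by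
    have c : ∀ i j, g j i * Tt i j = g i j * Tt i j -
        (if k = i then if j = 8 then 2 * Tt i j else 0 else 0) +
        (if i = 8 then if k = j then 2 * Tt i j else 0 else 0) := fun i j => by
      rw [b1 i j]
      split_ifs <;> ring
    simp only [c, Finset.sum_add_distrib, Finset.sum_sub_distrib, Finset.sum_ite_irrel, Finset.sum_ite_eq,
      Finset.sum_ite_eq', Finset.mem_univ, if_true, Finset.sum_const_zero]
  have e3 : ⟪tens (G.γ k *ᵥ u) (y k), wpot 𝔤 G u x⟫_ℝ = 1 / 2 * ∑ i, ∑ j, g i j * Tt i j := by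
    rw [wpot, real_inner_smul_right]
    simp only [inner_sum, inner_tens, hg, hT]
  have e4 : ⟪y k, (-lift 9 (𝔤.br (x 8)) x) k⟫_ℝ = -Tt 8 k := by
    simp only [hT, PiLp.neg_apply, lift_apply, inner_neg_right]
  rw [e3, e4]
  linarith [a1 k 8]

/-- Splitting of the potential: mass term and `D`/`F` terms.  `zpart x` kills the component `8`. -/
theorem norm_wd_sq (𝔤 : Lie E) (σ : Spn) (ε : ℝ) (f : E → E) (x : X E) :
    ‖wd 𝔤 σ ε f x‖ ^ 2 = ‖ε • mat V0 x - lift 9 (𝔤.br (x 8)) x‖ ^ 2 +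
      ‖wpot 𝔤 σ.G σ.s (mat (1 - Matrix.single 8 8 1) x) + tens σ.s' (f (x 8))‖ ^ 2 := by
  set z : X E := mat (1 - Matrix.single 8 8 1) x with hz
  have hzi : ∀ i, z i = if i = 8 then 0 else x i := fun i => by
    simp only [hz, mat_apply, Matrix.sub_apply, Matrix.one_apply, Matrix.single_apply, sub_smul, ite_smul,
      one_smul, zero_smul, Finset.sum_sub_distrib, Finset.sum_ite_eq, Finset.mem_univ, if_true]
    by_cases hi : i = 8
    · subst hi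
      simp
    · simp [hi, Ne.symm hi]
  have e : ∀ i j, tens ((σ.G.γ i * σ.G.γ j) *ᵥ σ.s) (𝔤.br (x i) (x j)) =
      tens ((σ.G.γ i * σ.G.γ j) *ᵥ σ.s) (𝔤.br (z i) (z j)) -
        (if i = 8 then tens (σ.G.γ j *ᵥ σ.s) (𝔤.br (x 8) (x j)) else 0) -
        (if j = 8 then tens (σ.G.γ i *ᵥ σ.s) (𝔤.br (x 8) (x i)) else 0) := fun i j => by
    rw [hzi, hzi]
    by_cases hi : i = 8 <;> by_cases hj : j = 8
    · simp [hi, hj, da_br_self, da_tens_zero']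
    · subst hi
      rw [da_swap σ.G j 8, if_neg hj, zero_smul, zero_sub, Matrix.neg_mulVec, ← Matrix.mulVec_mulVec, σ.h8]
      simp [hj, da_tens_zero', da_tens_neg]
    · subst hj
      rw [← Matrix.mulVec_mulVec, σ.h8, 𝔤.anti (x i)]
      simp [hi, da_tens_zero', da_tens_neg']
    · simp [hi, hj]
  have e1 : wpot 𝔤 σ.G σ.s x = wpot 𝔤 σ.G σ.s z - cmap σ.G σ.s (lift 9 (𝔤.br (x 8)) x) := by
    rw [wpot, wpot, da_cmap]
    simp only [e, Finset.sum_sub_distrib, Finset.sum_ite_irrel, Finset.sum_ite_eq', Finset.mem_univ, if_true,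
      Finset.sum_const_zero, lift_apply]
    module
  have e2 : wd 𝔤 σ ε f x = cmap σ.G σ.s (ε • mat V0 x - lift 9 (𝔤.br (x 8)) x) +
      (wpot 𝔤 σ.G σ.s z + tens σ.s' (f (x 8))) := by
    rw [wd, e1, map_sub, map_smul]
    abel
  have o1 : ∀ y : X E, ⟪cmap σ.G σ.s y, wpot 𝔤 σ.G σ.s z + tens σ.s' (f (x 8))⟫_ℝ = 0 := fun y => by
    rw [inner_add_right, ← LinearMap.adjoint_inner_right, adjoint_cmap_wpot 𝔤 σ.G σ.unit σ.h8, da_cmap,
      sum_inner]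
    have z0 : lift 9 (𝔤.br (z 8)) z = 0 := by
      ext i
      simp [hzi 8]
    simp only [z0, neg_zero, inner_zero_right, inner_tens, σ.gamma_s_s', zero_mul, Finset.sum_const_zero,
      add_zero]
  rw [e2, norm_add_sq_real, o1, norm_cmap σ.G σ.unit]
  ring

theorem db_sum9 {M : Type} [AddCommMonoid M] (f : Fin 9 → M) :
    ∑ i, f i = f 0 + f 1 + f 2 + f 3 + f 4 + f 5 + f 6 + f 7 + f 8 := by
  rw [Fin.sum_univ_castSucc, Fin.sum_univ_eight]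
  rfl

theorem db_mat_sub {m n : ℕ} (M N : Matrix (Fin m) (Fin n) ℝ) :
    (mat (M - N) : T n E →ₗ[ℝ] T m E) = mat M - mat N := by
  rw [eq_sub_iff_add_eq, ← mat_add, sub_add_cancel]

theorem db_mat_neg {m n : ℕ} (M : Matrix (Fin m) (Fin n) ℝ) :
    (mat (-M) : T n E →ₗ[ℝ] T m E) = -mat M := by
  rw [← neg_one_smul ℝ M, mat_smul, neg_one_smul]

theorem db_vec {m n : ℕ} (u : Fin m → ℝ) (w : Fin n → ℝ) (x : T n E) :
    mat (Matrix.vecMulVec u w) x = tens u (∑ b, w b • x b) := by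
  ext a
  simp [Matrix.vecMulVec_apply, mul_smul, Finset.smul_sum]

theorem db_adj (G : GammaNine) (u : Fin 16 → ℝ) (θ : Th E) (i : Fin 9) :
    LinearMap.adjoint (cmap G u) θ i = ∑ b, (G.γ i *ᵥ u) b • θ b := by
  rw [cmap, adjoint_mat]
  rfl

theorem db_adj_K {n : ℕ} (M : Matrix (Fin n) (Fin n) ℝ) (L : E →ₗ[ℝ] E) :
    LinearMap.adjoint (mat M ∘ₗ lift n L) = mat Mᵀ ∘ₗ lift n (LinearMap.adjoint L) := by
  rw [LinearMap.adjoint_comp, adjoint_mat, adjoint_lift, mat_lift]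

theorem db_adj_br (𝔤 : Lie E) {n : ℕ} (M : Matrix (Fin n) (Fin n) ℝ) (ξ : E) :
    LinearMap.adjoint (mat M ∘ₗ lift n (𝔤.br ξ)) = -(mat Mᵀ ∘ₗ lift n (𝔤.br ξ)) := by
  have h : lift n (𝔤.br ξ) = LinearMap.adjoint (-lift n (𝔤.br ξ)) :=
    (LinearMap.eq_adjoint_iff _ _).2 fun u v => by
      rw [isSkew_lift (𝔤.isSkew_br ξ) u v, LinearMap.neg_apply, inner_neg_right]
  rw [LinearMap.adjoint_comp, adjoint_mat, h, LinearMap.adjoint_adjoint, ← h, LinearMap.neg_comp,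
    mat_lift]

theorem db_sig8 (G : GammaNine) : sig G V0 * G.γ 8 = G.γ 8 * sig G V0 := by
  rw [← sub_eq_zero, sig_comm G V0_skew, db_sum9]
  simp [V0, pl]

/-- `e ↦ u ⊗ e`. -/
def dbT {n : ℕ} (u : Fin n → ℝ) : E →ₗ[ℝ] T n E where
  toFun := tens u
  map_add' x y := by ext a; simp
  map_smul' r x := by ext a; simp [smul_comm r]

theorem db_fderiv (𝔤 : Lie E) (σ : Spn) (ε : ℝ) {f : E → E} {x : X E}
    (hf : DifferentiableAt ℝ f (x 8)) (v : X E) :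
    fderiv ℝ (wd 𝔤 σ ε f) x v = fderiv ℝ (wpot 𝔤 σ.G σ.s) x v + ε • cmap σ.G σ.s (mat V0 v) +
      tens σ.s' (fderiv ℝ f (x 8) (v 8)) := by
  have h0 :=
    (((contDiff_wpot 𝔤 σ.G σ.s).differentiable (by simp) x).hasFDerivAt.add
      ((LinearMap.toContinuousLinearMap (cmap σ.G σ.s ∘ₗ mat V0)).hasFDerivAt.const_smul ε)).add
      ((LinearMap.toContinuousLinearMap (dbT σ.s')).hasFDerivAt.comp x (hf.hasFDerivAt.comp x
        (f := fun y : X E => y 8) (PiLp.proj (𝕜 := ℝ) 2 (fun _ : Fin 9 => E) 8).hasFDerivAt))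
  have h : HasFDerivAt (wd 𝔤 σ ε f) _ x := h0
  rw [h.fderiv]
  rfl

theorem adjoint_cmap_wd (𝔤 : Lie E) (σ : Spn) (ε : ℝ) (f : E → E) (x : X E) :
    LinearMap.adjoint (cmap σ.G σ.s) (wd 𝔤 σ ε f x) = ε • mat V0 x - lift 9 (𝔤.br (x 8)) x := by
  have h1 : ∀ v : X E, LinearMap.adjoint (cmap σ.G σ.s) (cmap σ.G σ.s v) = v := fun v =>
    ext_inner_left ℝ fun w => by
      rw [LinearMap.adjoint_inner_right]
      exact (⟨cmap σ.G σ.s, norm_cmap σ.G σ.unit⟩ : X E →ₗᵢ[ℝ] Th E).inner_map_map w v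
  have h2 : LinearMap.adjoint (cmap σ.G σ.s) (tens σ.s' (f (x 8))) = 0 := by
    ext i
    simp only [db_adj, tens_apply, smul_smul, ← Finset.sum_smul]
    rw [show ∑ b, (σ.G.γ i *ᵥ σ.s) b * σ.s' b = 0 from σ.gamma_s_s' i, zero_smul, PiLp.zero_apply]
  rw [wd, map_add, map_add, map_smul, h1, h2, adjoint_cmap_wpot 𝔤 σ.G σ.unit σ.h8]
  abel

/-- `dw cᵀ - c dwᵀ = 𝒴 + A_Θ` with `A_Θ = εσ(V₀) - ad φ`. -/
theorem dwd_skew (𝔤 : Lie E) (σ : Spn) (ε : ℝ) {f : E → E} {x : X E}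
    (hf : DifferentiableAt ℝ f (x 8))
    (hfs : ∀ u v, ⟪fderiv ℝ f (x 8) u, v⟫_ℝ = ⟪u, fderiv ℝ f (x 8) v⟫_ℝ) :
    (fderiv ℝ (wd 𝔤 σ ε f) x).toLinearMap ∘ₗ LinearMap.adjoint (cmap σ.G σ.s) -
        cmap σ.G σ.s ∘ₗ LinearMap.adjoint (fderiv ℝ (wd 𝔤 σ ε f) x).toLinearMap =
      yuk 𝔤 σ ε f x + (ε • mat (sig σ.G V0) - lift 16 (𝔤.br (x 8))) := by
  obtain ⟨Cm, hC⟩ : ∃ Cm : Matrix (Fin 16) (Fin 9) ℝ, Cm = .of fun α i => (σ.G.γ i *ᵥ σ.s) α := ⟨_, rfl⟩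
  have e0 : (cmap σ.G σ.s : X E →ₗ[ℝ] Th E) = mat Cm := by rw [hC, cmap]
  obtain ⟨R, hR⟩ : ∃ R, R = Matrix.vecMulVec σ.s σ.s := ⟨_, rfl⟩
  have R1 : Rᵀ = R := by rw [hR, Matrix.transpose_vecMulVec]
  have e1 : Cm * Cmᵀ = (1 / 2 : ℝ) • (1 - σ.G.γ 8) + R := by
    rw [hR, ← Spn.fierz σ.G σ.s σ.unit σ.h8, hC]
    ext a b
    simp [Matrix.mul_apply, Matrix.sum_apply, Matrix.vecMulVec_apply]
  have e2 : Cm * V0 = sig σ.G V0 * Cm := by
    ext a j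
    have h := congrArg (fun M => (M *ᵥ σ.s) a) (sig_comm σ.G V0_skew j)
    simp only [Matrix.sub_mulVec, ← Matrix.mulVec_mulVec, σ.sig_s, Matrix.mulVec_zero, sub_zero,
      Matrix.sum_mulVec, Matrix.smul_mulVec, Finset.sum_apply, Pi.smul_apply, smul_eq_mul] at h
    simp only [hC, Matrix.mul_apply, Matrix.of_apply, mul_comm _ (V0 _ _), ← h]
    rfl
  have e3 : Cm * V0 * Cmᵀ = (1 / 2 : ℝ) • (sig σ.G V0 - σ.G.γ 8 * sig σ.G V0) := by
    rw [e2, Matrix.mul_assoc, e1, mul_add, hR, Matrix.mul_vecMulVec, σ.sig_s, Matrix.zero_vecMulVec,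
      add_zero, mul_smul_comm, mul_sub, mul_one, db_sig8]
  have e4 : (fderiv ℝ (wd 𝔤 σ ε f) x).toLinearMap ∘ₗ LinearMap.adjoint (cmap σ.G σ.s) =
      ∑ i, mat (σ.G.γ i * (Cm * Cmᵀ) - R * σ.G.γ i) ∘ₗ lift 16 (𝔤.br (x i)) + ε • mat (Cm * V0 * Cmᵀ) +
        mat (Matrix.vecMulVec σ.s' σ.s) ∘ₗ lift 16 (fderiv ℝ f (x 8)).toLinearMap := by
    refine LinearMap.ext fun θ => ?_
    simp only [LinearMap.comp_apply, ContinuousLinearMap.coe_coe, db_fderiv 𝔤 σ ε hf, fderiv_wpot,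
      LinearMap.add_apply, LinearMap.sum_apply, LinearMap.smul_apply, db_mat_sub, LinearMap.sub_apply,
      Finset.sum_sub_distrib, db_adj, σ.h8, db_vec]
    congr 3
    · refine Finset.sum_congr rfl fun i _ => ?_
      rw [e0, adjoint_mat, mat_mul, LinearMap.comp_apply, ← LinearMap.comp_apply (mat (Cm * Cmᵀ)), mat_lift,
        mat_mul]
      rfl
    · have : ∀ i, R * σ.G.γ i = Matrix.vecMulVec σ.s (σ.G.γ i *ᵥ σ.s) := fun i => by
        rw [hR, Matrix.vecMulVec_mul, ← Matrix.mulVec_transpose, σ.G.symm]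
      simp only [this, db_vec, map_sum, map_smul, lift_apply]
      exact map_sum (dbT σ.s) _ _
    · rw [e0, adjoint_mat, mat_mul, mat_mul]
      rfl
    · simp only [map_sum, map_smul, lift_apply, ContinuousLinearMap.coe_coe]
  have e5 : LinearMap.adjoint (fderiv ℝ f (x 8)).toLinearMap = (fderiv ℝ f (x 8)).toLinearMap :=
    ((LinearMap.eq_adjoint_iff _ _).2 hfs).symm
  have e6 : ∀ i, σ.G.γ i * (Cm * Cmᵀ) - R * σ.G.γ i + (σ.G.γ i * (Cm * Cmᵀ) - R * σ.G.γ i)ᵀ =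
      σ.G.γ i - if i = 8 then 1 else 0 := fun i => by
    have h : (if i = 8 then 1 else 0 : Matrix (Fin 16) (Fin 16) ℝ) =
        (1 / 2 : ℝ) • (σ.G.γ i * σ.G.γ 8 + σ.G.γ 8 * σ.G.γ i) := by
      rw [σ.G.clifford]
      split_ifs
      · rw [show (2 : Matrix (Fin 16) (Fin 16) ℝ) = 1 + 1 from one_add_one_eq_two.symm]
        module
      · rw [smul_zero]
    simp only [h, e1, Matrix.transpose_sub, Matrix.transpose_mul, Matrix.transpose_add,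
      Matrix.transpose_smul, σ.G.symm, R1, mul_add, mul_smul_comm,
      mul_sub, mul_one]
    module
  have e7 : Cm * V0 * Cmᵀ - (Cm * V0 * Cmᵀ)ᵀ = sig σ.G V0 - σ.G.γ 8 * sig σ.G V0 := by
    rw [Matrix.transpose_mul, Matrix.transpose_mul, Matrix.transpose_transpose, V0_skew, Matrix.neg_mul,
      Matrix.mul_neg, ← Matrix.mul_assoc, e3]
    module
  have e8 : ∑ i, mat (σ.G.γ i * (Cm * Cmᵀ) - R * σ.G.γ i) ∘ₗ lift 16 (𝔤.br (x i)) +
      ∑ i, mat (σ.G.γ i * (Cm * Cmᵀ) - R * σ.G.γ i)ᵀ ∘ₗ lift 16 (𝔤.br (x i)) =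
      ∑ i, mat (σ.G.γ i) ∘ₗ lift 16 (𝔤.br (x i)) - lift 16 (𝔤.br (x 8)) := by
    simp only [← Finset.sum_add_distrib, ← LinearMap.add_comp, ← mat_add, e6]
    simp only [db_mat_sub, LinearMap.sub_comp, Finset.sum_sub_distrib]
    rw [Finset.sum_eq_single (8 : Fin 9) (f := fun i => mat (if i = 8 then 1 else 0) ∘ₗ lift 16 (𝔤.br (x i)))
      (fun i _ hi => by rw [if_neg hi, ← sub_self (0 : Matrix _ _ ℝ), db_mat_sub, sub_self, LinearMap.zero_comp])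
      (by simp), if_pos rfl, mat_one, LinearMap.id_comp]
  have e9 := congrArg (mat (E := E)) e7
  have e10 : cmap σ.G σ.s ∘ₗ LinearMap.adjoint (fderiv ℝ (wd 𝔤 σ ε f) x).toLinearMap = LinearMap.adjoint
      ((fderiv ℝ (wd 𝔤 σ ε f) x).toLinearMap ∘ₗ LinearMap.adjoint (cmap σ.G σ.s)) := by
    rw [LinearMap.adjoint_comp, LinearMap.adjoint_adjoint]
  rw [e10, e4]
  simp only [map_add, map_sum, db_adj_br]
  simp only [db_adj_K, e5, map_smulₛₗ, adjoint_mat, conj_trivial,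
    Matrix.transpose_vecMulVec, Finset.sum_neg_distrib, yuk]
  rw [db_mat_sub, db_mat_sub] at e9
  rw [db_mat_sub (Matrix.vecMulVec _ _), LinearMap.sub_comp]
  linear_combination (norm := module) e8 + ε • e9

theorem wd_zero (𝔤 : Lie E) (σ : Spn) : wd 𝔤 σ 0 (fun _ => 0) = wpot 𝔤 σ.G σ.s := by
  funext x
  rw [wd, zero_smul, add_zero, show tens σ.s' (0 : E) = 0 from map_zero (dbT σ.s'), add_zero]

theorem Qe_zero (𝔤 : Lie E) (C : Cl (Th E) F) (σ : Spn) : Qe 𝔤 C σ 0 = Qu 𝔤 C σ.G σ.s := by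
  rw [Qe, Qd, wd_zero, Qu]

theorem contDiff_mu : ContDiff ℝ ∞ (mu : X E → ℝ) := by
  have h : ∀ i, ContDiff ℝ ∞ fun x : X E => ‖x i‖ ^ 2 := fun i =>
    (PiLp.proj (𝕜 := ℝ) 2 (fun _ : Fin 9 => E) i).contDiff.norm_sq ℝ
  exact ((((h 0).add (h 1)).add (contDiff_const.mul ((h 2).add (h 3)))).sub ((h 4).add (h 5))).sub
    (contDiff_const.mul ((h 6).add (h 7)))

theorem abs_mu_le (x : X E) : |mu x| ≤ 2 * zsq x := by
  have h : zsq x = ‖x 0‖ ^ 2 + ‖x 1‖ ^ 2 + ‖x 2‖ ^ 2 + ‖x 3‖ ^ 2 + ‖x 4‖ ^ 2 + ‖x 5‖ ^ 2 + ‖x 6‖ ^ 2 +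
      ‖x 7‖ ^ 2 := Fin.sum_univ_eight _
  have h' := fun i => sq_nonneg ‖x i‖
  rw [h, mu, abs_le]
  constructor <;> linarith [h' 0, h' 1, h' 2, h' 3, h' 4, h' 5, h' 6, h' 7]

theorem db_V0 (x : X E) : mat V0 x = WithLp.toLp 2 ![(-2 : ℝ) • x 1, (2 : ℝ) • x 0, (-4 : ℝ) • x 3,
    (4 : ℝ) • x 2, (2 : ℝ) • x 5, (-2 : ℝ) • x 4, (4 : ℝ) • x 7, (-4 : ℝ) • x 6, 0] := by
  ext a
  rw [mat_apply, db_sum9]
  fin_cases a <;> simp [V0, pl]

theorem db_gg (G : GammaNine) {i j : Fin 9} (h : i ≠ j) (s : Fin 16 → ℝ) :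
    G.γ i *ᵥ (G.γ i * G.γ j) *ᵥ s = G.γ j *ᵥ s ∧ G.γ j *ᵥ (G.γ i * G.γ j) *ᵥ s = -(G.γ i *ᵥ s) := by
  have h1 : ∀ k, G.γ k * G.γ k = 1 := fun k => by
    have := G.clifford k k
    rw [if_pos rfl, ← one_add_one_eq_two, ← two_smul ℝ, ← two_smul ℝ] at this
    exact smul_right_injective _ two_ne_zero this
  have h2 := G.clifford i j
  rw [if_neg h, add_eq_zero_iff_eq_neg] at h2
  rw [Matrix.mulVec_mulVec, Matrix.mulVec_mulVec, ← mul_assoc, h1, one_mul, h2, mul_neg, ← mul_assoc, h1,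
    one_mul, Matrix.neg_mulVec]
  exact ⟨rfl, rfl⟩

/-- The deformation is a gradient deformation along `s'`. -/
theorem wd_eq_grad (𝔤 : Lie E) (σ : Spn) (ε : ℝ) {Fn : E → ℝ} (hF : ContDiff ℝ ∞ Fn) (x : X E) :
    wd 𝔤 σ ε (gradient Fn) x =
      wpot 𝔤 σ.G σ.s x + cmap σ.G σ.s' (gradient (fun y : X E => ε * mu y + Fn (y 8)) x) := by
  have h : ∀ i, HasFDerivAt (fun x : X E => ‖x i‖ ^ 2) _ x := fun i =>
    (PiLp.proj (𝕜 := ℝ) 2 (fun _ : Fin 9 => E) i).hasFDerivAt.norm_sq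
  have h1 : HasFDerivAt (fun y : X E => ε * mu y + Fn (y 8)) _ x :=
    ((((((h 0).add (h 1)).add (((h 2).add (h 3)).const_mul 2)).sub ((h 4).add (h 5))).sub
      (((h 6).add (h 7)).const_mul 2)).const_mul ε).add
      ((hF.differentiable (by simp) (x 8)).hasGradientAt.hasFDerivAt.comp x
        (f := fun y : X E => y 8) (PiLp.proj (𝕜 := ℝ) 2 (fun _ : Fin 9 => E) 8).hasFDerivAt)
  have h2 : HasGradientAt (fun y : X E => ε * mu y + Fn (y 8)) (WithLp.toLp 2 ![(2 * ε) • x 0,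
      (2 * ε) • x 1, (4 * ε) • x 2, (4 * ε) • x 3, (-2 * ε) • x 4, (-2 * ε) • x 5, (-4 * ε) • x 6,
      (-4 * ε) • x 7, gradient Fn (x 8)]) x := by
    refine hasGradientAt_iff_hasFDerivAt.2 (h1.congr_fderiv ?_)
    ext v
    simp [PiLp.inner_apply, db_sum9, inner_smul_left, inner_neg_left]
    ring
  obtain ⟨a0, a1⟩ := db_gg σ.G (i := 0) (j := 1) (by decide) σ.s
  obtain ⟨a2, a3⟩ := db_gg σ.G (i := 2) (j := 3) (by decide) σ.s
  obtain ⟨a4, a5⟩ := db_gg σ.G (i := 4) (j := 5) (by decide) σ.s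
  obtain ⟨a6, a7⟩ := db_gg σ.G (i := 6) (j := 7) (by decide) σ.s
  rw [σ.h23] at a2 a3
  rw [σ.h45] at a4 a5
  rw [σ.h67] at a6 a7
  rw [h2.gradient, wd, add_assoc, db_V0, cmap_eq_sum, cmap_eq_sum, db_sum9, db_sum9, σ.h8', Spn.s', a0, a1,
    a2, a3, a4, a5, a6, a7]
  congr 1
  ext a
  simp
  module

theorem isSkew_yuk (𝔤 : Lie E) (σ : Spn) (ε : ℝ) {f : E → E} (x : X E)
    (hf : ∀ u v, ⟪fderiv ℝ f (x 8) u, v⟫_ℝ = ⟪u, fderiv ℝ f (x 8) v⟫_ℝ) :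
    IsSkew (yuk 𝔤 σ ε f x) := by
  have e5 : LinearMap.adjoint (fderiv ℝ f (x 8)).toLinearMap = (fderiv ℝ f (x 8)).toLinearMap :=
    ((LinearMap.eq_adjoint_iff _ _).2 hf).symm
  have h : LinearMap.adjoint (yuk 𝔤 σ ε f x) = -yuk 𝔤 σ ε f x := by
    simp only [yuk, map_add, map_sub, map_sum, db_adj_br]
    simp only [db_adj_K, e5, map_smulₛₗ, adjoint_mat,
      conj_trivial, Matrix.transpose_sub, Matrix.transpose_vecMulVec, Finset.sum_neg_distrib, σ.G.symm,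
      Matrix.transpose_mul, sig_skew σ.G V0_skew, neg_mul, db_sig8, db_mat_neg]
    simp only [db_mat_sub, LinearMap.sub_comp]
    module
  intro u v
  rw [← LinearMap.adjoint_inner_right, h, LinearMap.neg_apply, inner_neg_right]

theorem db_Y (𝔤 : Lie E) (G : GammaNine) : ∃ b : ℝ, 0 < b ∧ ∀ (x : X E) (θ : Th E),
    ‖(∑ i, mat (G.γ i) ∘ₗ lift 16 (𝔤.br (x i))) θ‖ ≤ b * ‖x‖ * ‖θ‖ := by
  obtain ⟨b, hb, h⟩ := 𝔤.exists_norm_br
  choose c hc h' using fun i => (LinearMap.toContinuousLinearMap (mat (E := E) (G.γ i))).bound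
  refine ⟨(∑ i, c i) * b, mul_pos (Finset.sum_pos (fun i _ => hc i) Finset.univ_nonempty) hb, fun x θ => ?_⟩
  simp only [LinearMap.sum_apply, Finset.sum_mul, mul_assoc]
  refine norm_sum_le_of_le _ fun i _ => (h' i _).trans (mul_le_mul_of_nonneg_left ?_ (hc i).le)
  rw [← mul_assoc]
  exact norm_lift_le _ _ (by positivity) (fun v => (h _ v).trans (by gcongr; exact PiLp.norm_apply_le x i)) θ

theorem exists_norm_yuk (𝔤 : Lie E) (C : Cl (Th E) F) (σ : Spn) : ∃ b : ℝ, 0 < b ∧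
    ∀ (ε : ℝ) (f : E → E) (x : X E),
      ‖C.iS (yuk 𝔤 σ ε f x)‖ ≤ b * (‖x‖ + |ε| + ‖fderiv ℝ f (x 8)‖) := by
  obtain ⟨b, hb, h⟩ := db_Y 𝔤 σ.G
  obtain ⟨c, hc, h1⟩ := (LinearMap.toContinuousLinearMap (mat (E := E) (σ.G.γ 8 * sig σ.G V0))).bound
  obtain ⟨d, hd, h2⟩ := (LinearMap.toContinuousLinearMap
    (mat (E := E) (Matrix.vecMulVec σ.s' σ.s - Matrix.vecMulVec σ.s σ.s'))).bound
  refine ⟨((Module.finrank ℝ (Th E) : ℝ) / 4 + 1) * (b + c + d), by positivity, fun ε f x => ?_⟩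
  rw [Cl.iS, norm_smul, Complex.norm_I, one_mul, mul_assoc]
  refine (C.norm_S_le _ ((b + c + d) * (‖x‖ + |ε| + ‖fderiv ℝ f (x 8)‖)) (by positivity) fun v => ?_).trans
    (mul_le_mul_of_nonneg_right (by linarith) (by positivity))
  have h3 := (h2 _).trans (mul_le_mul_of_nonneg_left (norm_lift_le (fderiv ℝ f (x 8)).toLinearMap _
    (norm_nonneg _) (fderiv ℝ f (x 8)).le_opNorm v) hd.le)
  have h4 := mul_le_mul_of_nonneg_left (h1 v) (abs_nonneg ε)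
  rw [yuk, LinearMap.add_apply, LinearMap.sub_apply, LinearMap.smul_apply]
  refine (norm_add_le_of_le (norm_sub_le_of_le (h x v) ((norm_smul _ _).trans_le h4)) h3).trans ?_
  calc _ = (b * ‖x‖ + c * |ε| + d * ‖fderiv ℝ f (x 8)‖) * ‖v‖ := by ring
    _ ≤ _ := by
      refine mul_le_mul_of_nonneg_right ?_ (norm_nonneg _)
      rw [mul_add, mul_add]
      gcongr <;> linarith

theorem exists_norm_wpot (𝔤 : Lie E) (G : GammaNine) {u : Fin 16 → ℝ} (hu : u ⬝ᵥ u = 1) :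
    ∃ b : ℝ, 0 < b ∧ ∀ x v : X E, ‖wpot 𝔤 G u x‖ ≤ b * ‖x‖ ^ 2 ∧
      ‖fderiv ℝ (wpot 𝔤 G u) x v‖ ≤ b * ‖x‖ * ‖v‖ := by
  obtain ⟨b, hb, h⟩ := db_Y 𝔤 G
  obtain ⟨c, hc, h1⟩ := 𝔤.exists_norm_br
  obtain ⟨d, hd, h2⟩ := (LinearMap.toContinuousLinearMap (dbT (E := E) u)).bound
  have key : ∀ x v : X E, ‖fderiv ℝ (wpot 𝔤 G u) x v‖ ≤ (b + d * (9 * c)) * ‖x‖ * ‖v‖ := fun x v => by
    have h3 : ‖∑ i, 𝔤.br (x i) (v i)‖ ≤ ∑ _i : Fin 9, c * ‖x‖ * ‖v‖ := norm_sum_le_of_le _ fun i _ =>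
      (h1 _ _).trans (by gcongr <;> exact PiLp.norm_apply_le _ i)
    rw [fderiv_wpot]
    refine (norm_sub_le_of_le (h x _) ((h2 _).trans (mul_le_mul_of_nonneg_left h3 hd.le))).trans_eq ?_
    simp [norm_cmap G hu]
    ring
  refine ⟨b + d * (9 * c), by positivity, fun x v => ⟨?_, key x v⟩⟩
  have h4 := wpot_add 𝔤 G u x x
  rw [← two_smul ℝ x, wpot_smul] at h4
  have h5 : fderiv ℝ (wpot 𝔤 G u) x x = (2 : ℝ) • wpot 𝔤 G u x := by
    linear_combination (norm := module) -h4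
  have h6 := key x x
  rw [h5, norm_smul, Real.norm_two, mul_assoc, ← pow_two] at h6
  linarith [norm_nonneg (wpot 𝔤 G u x)]

theorem norm_V0_le (x : X E) : ‖mat V0 x‖ ≤ 4 * ‖x‖ := by
  refine le_of_sq_le_sq ?_ (by positivity)
  rw [mul_pow, db_V0, PiLp.norm_sq_eq_of_L2, PiLp.norm_sq_eq_of_L2, db_sum9, db_sum9]
  have h' := fun i => sq_nonneg ‖x i‖
  simp [norm_smul, mul_pow]
  linarith [h' 0, h' 1, h' 4, h' 5, h' 8]

end Crest.Agent.R330

end
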