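import Crest.Agent.R330.A2.D

/-! # Row 330, A2/E (statements frozen; see `R330/Blueprint.lean`) -/

set_option autoImplicit false
set_option linter.unusedSectionVars false

noncomputable section

open MeasureTheory Filter Topology
open scoped InnerProductSpace ContDiff Matrix
open Crest.MathPhysics.MatrixQM (GammaNine)

namespace Crest.Agent.R330

variable {E E' F : Type} [NormedAddCommGroup E] [InnerProductSpace ℝ E] [FiniteDimensional ℝ E]
  [NormedAddCommGroup E'] [InnerProductSpace ℝ E'] [FiniteDimensional ℝ E']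
  [NormedAddCommGroup F] [InnerProductSpace ℂ F] [FiniteDimensional ℂ F]

/-! ### squares of the supercharges -/

theorem ea_tens_add {n : ℕ} (u v : Fin n → ℝ) (e : E) : tens (u + v) e = tens u e + tens v e := by
  ext a
  simp [tens, add_smul]

theorem ea_tens_smul {n : ℕ} (r : ℝ) (u : Fin n → ℝ) (e : E) : tens (r • u) e = r • tens u e := by
  ext a
  simp [tens, mul_smul]

/-- `u ↦ Q_u ψ (x)` is linear -/
def eaQ (𝔤 : Lie E) (C : Cl (Th E) F) (G : GammaNine) (ψ : X E → F) (x : X E) : (Fin 16 → ℝ) →ₗ[ℝ] F where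
  toFun u := Qu 𝔤 C G u ψ x
  map_add' u v := by
    simp only [Qu, dirac, cmap_eq_sum, wpot, Matrix.mulVec_add, ea_tens_add, Finset.sum_add_distrib, map_add,
      smul_add, add_apply]
    abel
  map_smul' r u := by
    simp only [Qu, dirac, cmap_eq_sum, wpot, Matrix.mulVec_smul, ea_tens_smul, ← Finset.smul_sum, map_smul,
      smul_add, smul_apply, RingHom.id_apply, smul_comm _ r]

theorem ea_diff_dirac {Y Θ : Type} [NormedAddCommGroup Y] [InnerProductSpace ℝ Y] [FiniteDimensional ℝ Y]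
    [NormedAddCommGroup Θ] [InnerProductSpace ℝ Θ] [FiniteDimensional ℝ Θ] (C : Cl Θ F) (c : Y →ₗ[ℝ] Θ)
    {w : Y → Θ} {ψ : Y → F} {x : Y} (hw : DifferentiableAt ℝ w x) (hψ : ContDiffAt ℝ 2 ψ x) :
    DifferentiableAt ℝ (dirac C c w ψ) x := by
  have h1 : DifferentiableAt ℝ (fderiv ℝ ψ) x :=
    (hψ.fderiv_right (m := 1) (by norm_num)).differentiableAt (by norm_num)
  have h2 : DifferentiableAt ℝ (fun y => (C.θ (w y)).restrictScalars ℝ) x :=
    (ContinuousLinearMap.restrictScalarsL ℂ F F ℝ ℝ).differentiableAt.comp x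
      ((C.contDiff_θ.differentiable (by simp)).differentiableAt.comp x hw)
  refine DifferentiableAt.add (DifferentiableAt.fun_sum fun i _ => ?_)
    (h2.clm_apply (hψ.differentiableAt (by norm_num)))
  exact (((C.θ (c (stdOrthonormalBasis ℝ Y i))).restrictScalars ℝ).differentiableAt.comp x
    (h1.clm_apply (differentiableAt_const _))).const_smul (-Complex.I)

section
variable {Θ Θ' : Type} [NormedAddCommGroup Θ] [InnerProductSpace ℝ Θ] [FiniteDimensional ℝ Θ]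
  [NormedAddCommGroup Θ'] [InnerProductSpace ℝ Θ'] [FiniteDimensional ℝ Θ']

theorem ea_adj_skew {A : Θ →ₗ[ℝ] Θ} (hA : IsSkew A) : LinearMap.adjoint A = -A := by
  refine ((LinearMap.eq_adjoint_iff _ _).2 fun u v => ?_).symm
  rw [LinearMap.neg_apply, inner_neg_left, hA, neg_neg]

theorem ea_trace_adj (A : Θ →ₗ[ℝ] Θ) : LinearMap.trace ℝ Θ (LinearMap.adjoint A) = LinearMap.trace ℝ Θ A := by
  rw [LinearMap.trace_eq_sum_inner _ (stdOrthonormalBasis ℝ Θ), LinearMap.trace_eq_sum_inner _ (stdOrthonormalBasis ℝ Θ)]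
  refine Finset.sum_congr rfl fun i _ => ?_
  rw [LinearMap.adjoint_inner_right, real_inner_comm]

theorem ea_trace_skew_symm {A B : Θ →ₗ[ℝ] Θ} (hA : LinearMap.adjoint A = -A) (hB : LinearMap.adjoint B = B) :
    LinearMap.trace ℝ Θ (A ∘ₗ B) = 0 := by
  have h := ea_trace_adj (A ∘ₗ B)
  rw [LinearMap.adjoint_comp, hA, hB, LinearMap.comp_neg, map_neg, LinearMap.trace_comp_comm'] at h
  linarith

theorem ea_S_adj (C : Cl Θ F) (a b : Θ' →ₗ[ℝ] Θ) (h : LinearMap.trace ℝ Θ (b ∘ₗ LinearMap.adjoint a) = 0) (v : F) :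
    (2 * Complex.I) • C.S (a ∘ₗ LinearMap.adjoint b) v =
      -C.iS (b ∘ₗ LinearMap.adjoint a - a ∘ₗ LinearMap.adjoint b) v := by
  have h1 : LinearMap.adjoint (b ∘ₗ LinearMap.adjoint a) = a ∘ₗ LinearMap.adjoint b := by
    rw [LinearMap.adjoint_comp, LinearMap.adjoint_adjoint]
  have h2 := C.S_symm (b ∘ₗ LinearMap.adjoint a + a ∘ₗ LinearMap.adjoint b) fun u v => by
    simp only [LinearMap.add_apply, LinearMap.comp_apply, inner_add_left, inner_add_right,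
      ← LinearMap.adjoint_inner_right a, ← LinearMap.adjoint_inner_right b, ← LinearMap.adjoint_inner_left a,
      ← LinearMap.adjoint_inner_left b]
    ring
  rw [map_add, ← h1, ea_trace_adj, h, h1, C.S_add] at h2
  simp only [add_zero, zero_div, Complex.ofReal_zero, zero_smul] at h2
  rw [Cl.iS, C.S_sub, eq_neg_of_add_eq_zero_left h2]
  simp only [smul_apply, sub_apply, neg_apply]
  module

end

theorem ea_mat_sum {m n : ℕ} {ι : Type} (s : Finset ι) (M : ι → Matrix (Fin m) (Fin n) ℝ) :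
    (mat (∑ i ∈ s, M i) : T n E →ₗ[ℝ] T m E) = ∑ i ∈ s, mat (M i) := by
  classical
  induction s using Finset.induction_on with
  | empty =>
    ext x a
    simp [mat]
  | insert a s ha ih => rw [Finset.sum_insert ha, Finset.sum_insert ha, mat_add, ih]

theorem ea_mat_sub {m n : ℕ} (M N : Matrix (Fin m) (Fin n) ℝ) :
    (mat (M - N) : T n E →ₗ[ℝ] T m E) = mat M - mat N := by
  rw [eq_sub_iff_add_eq, ← mat_add, sub_add_cancel]

/-- the undeformed Yukawa matrix -/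
def eaY (𝔤 : Lie E) (G : GammaNine) (x : X E) : Th E →ₗ[ℝ] Th E := ∑ i, mat (G.γ i) ∘ₗ lift 16 (𝔤.br (x i))

theorem ea_yuk (𝔤 : Lie E) (σ : Spn) (x : X E) : yuk 𝔤 σ 0 (fun _ => 0) x = eaY 𝔤 σ.G x := by
  have : lift 16 (0 : E →ₗ[ℝ] E) = 0 := by
    ext y a
    simp [lift]
  simp [yuk, eaY, this]

theorem ea_adj_Y (𝔤 : Lie E) (G : GammaNine) (x : X E) : LinearMap.adjoint (eaY 𝔤 G x) = -eaY 𝔤 G x := by
  rw [eaY, map_sum, ← Finset.sum_neg_distrib]
  refine Finset.sum_congr rfl fun i _ => ?_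
  rw [LinearMap.adjoint_comp, ea_adj_skew (isSkew_lift (𝔤.isSkew_br _)), adjoint_mat, G.symm, LinearMap.neg_comp,
    mat_lift]

theorem ea_adj_cmap (G : GammaNine) (u : Fin 16 → ℝ) (t : Th E) (i : Fin 9) :
    LinearMap.adjoint (cmap G u) t i = ∑ α, (G.γ i *ᵥ u) α • t α := by
  rw [cmap, adjoint_mat]
  rfl

theorem ea_dw (𝔤 : Lie E) (G : GammaNine) (u : Fin 16 → ℝ) (x : X E) :
    (fderiv ℝ (wpot 𝔤 G u) x).toLinearMap ∘ₗ LinearMap.adjoint (cmap G u) =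
      eaY 𝔤 G x ∘ₗ mat (∑ i, Matrix.vecMulVec (G.γ i *ᵥ u) (G.γ i *ᵥ u)) -
        mat (Matrix.vecMulVec u u) ∘ₗ eaY 𝔤 G x := by
  have h1 : (cmap G u : X E →ₗ[ℝ] Th E) ∘ₗ LinearMap.adjoint (cmap G u) =
      mat (∑ i, Matrix.vecMulVec (G.γ i *ᵥ u) (G.γ i *ᵥ u)) := by
    rw [cmap, adjoint_mat, ← mat_mul]
    refine congrArg mat ?_
    ext a b
    simp [Matrix.mul_apply, Matrix.sum_apply, Matrix.vecMulVec_apply]
  refine LinearMap.ext fun t => ?_
  rw [← h1]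
  simp only [LinearMap.comp_apply, LinearMap.sub_apply, ContinuousLinearMap.coe_coe]
  rw [fderiv_wpot]
  congr 1
  have h2 : (mat (Matrix.vecMulVec u u) : Th E →ₗ[ℝ] Th E) ∘ₗ eaY 𝔤 G x =
      ∑ i, lift 16 (𝔤.br (x i)) ∘ₗ mat (Matrix.vecMulVec u (G.γ i *ᵥ u)) := by
    rw [eaY, ← Module.End.mul_eq_comp, Finset.mul_sum]
    refine Finset.sum_congr rfl fun i _ => ?_
    rw [Module.End.mul_eq_comp, ← LinearMap.comp_assoc, ← mat_mul, mat_lift, Matrix.vecMulVec_mul,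
      ← Matrix.mulVec_transpose, G.symm]
  rw [← LinearMap.comp_apply, h2]
  ext a
  simp only [tens, ea_adj_cmap, LinearMap.sum_apply, LinearMap.comp_apply, WithLp.ofLp_sum, Finset.sum_apply, lift,
    mat, LinearMap.coe_mk, AddHom.coe_mk, Matrix.vecMulVec_apply, mul_smul, ← Finset.smul_sum, map_smul]

theorem ea_dw' (𝔤 : Lie E) (G : GammaNine) (u : Fin 16 → ℝ) (x : X E) :
    cmap G u ∘ₗ LinearMap.adjoint (fderiv ℝ (wpot 𝔤 G u) x).toLinearMap =
      eaY 𝔤 G x ∘ₗ mat (Matrix.vecMulVec u u) -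
        mat (∑ i, Matrix.vecMulVec (G.γ i *ᵥ u) (G.γ i *ᵥ u)) ∘ₗ eaY 𝔤 G x := by
  have h := congrArg LinearMap.adjoint (ea_dw 𝔤 G u x)
  rw [LinearMap.adjoint_comp, LinearMap.adjoint_adjoint, map_sub, LinearMap.adjoint_comp, LinearMap.adjoint_comp,
    ea_adj_Y, adjoint_mat, adjoint_mat, Matrix.transpose_sum] at h
  simp only [Matrix.transpose_vecMulVec] at h
  rw [h, LinearMap.comp_neg, LinearMap.neg_comp]
  abel

theorem ea_trace_dw (𝔤 : Lie E) (G : GammaNine) (u : Fin 16 → ℝ) (x : X E) :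
    LinearMap.trace ℝ (Th E) ((fderiv ℝ (wpot 𝔤 G u) x).toLinearMap ∘ₗ LinearMap.adjoint (cmap G u)) = 0 := by
  rw [ea_dw, map_sub, LinearMap.trace_comp_comm' (eaY 𝔤 G x), ea_trace_skew_symm (ea_adj_Y 𝔤 G x),
    ea_trace_skew_symm (ea_adj_Y 𝔤 G x), sub_zero]
  · rw [adjoint_mat, Matrix.transpose_vecMulVec]
  · rw [adjoint_mat, Matrix.transpose_sum]
    simp only [Matrix.transpose_vecMulVec]

theorem ea_Y8 (𝔤 : Lie E) (G : GammaNine) (x : X E) :
    eaY 𝔤 G x ∘ₗ mat (G.γ 8) + mat (G.γ 8) ∘ₗ eaY 𝔤 G x = (2 : ℝ) • lift 16 (𝔤.br (x 8)) := by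
  have h : ∀ i, (mat (G.γ i) ∘ₗ lift 16 (𝔤.br (x i))) * mat (G.γ 8) + mat (G.γ 8) * (mat (G.γ i) ∘ₗ lift 16 (𝔤.br (x i))) =
      if i = 8 then (2 : ℝ) • (lift 16 (𝔤.br (x i)) : Th E →ₗ[ℝ] Th E) else 0 := by
    intro i
    rw [Module.End.mul_eq_comp, Module.End.mul_eq_comp, LinearMap.comp_assoc, ← mat_lift, ← LinearMap.comp_assoc,
      ← LinearMap.comp_assoc, ← LinearMap.add_comp, ← mat_mul, ← mat_mul, ← mat_add, G.clifford]
    split_ifs
    · rw [show (2 : Matrix (Fin 16) (Fin 16) ℝ) = (2 : ℝ) • 1 by rw [two_smul, one_add_one_eq_two], mat_smul,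
        mat_one, LinearMap.smul_comp, LinearMap.id_comp]
    · rw [show (0 : Matrix (Fin 16) (Fin 16) ℝ) = (0 : ℝ) • 1 by rw [zero_smul], mat_smul, zero_smul,
        LinearMap.zero_comp]
  rw [eaY, ← Module.End.mul_eq_comp, ← Module.End.mul_eq_comp, Finset.sum_mul, Finset.mul_sum,
    ← Finset.sum_add_distrib]
  simp only [h, Finset.sum_ite_eq', Finset.mem_univ, if_true]

theorem ea_diff_wd (𝔤 : Lie E) (σ : Spn) (ε : ℝ) {f : E → E} {x : X E} (hf : DifferentiableAt ℝ f (x 8)) :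
    DifferentiableAt ℝ (wd 𝔤 σ ε f) x := by
  let L : E →ₗ[ℝ] Th E :=
    { toFun := tens σ.s'
      map_add' := fun a b => by
        ext i
        simp [tens]
      map_smul' := fun r a => by
        ext i
        simp [tens, smul_comm r] }
  have h1 := ((contDiff_wpot 𝔤 σ.G σ.s).differentiable (by simp)).differentiableAt (x := x)
  have h2 := (LinearMap.toContinuousLinearMap
    (ε • (cmap σ.G σ.s ∘ₗ mat V0 : X E →ₗ[ℝ] Th E))).differentiableAt (x := x)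
  have h3 := (LinearMap.toContinuousLinearMap L).differentiableAt.comp x
    (hf.comp x (PiLp.proj (𝕜 := ℝ) 2 (fun _ : Fin 9 => E) 8).differentiableAt)
  exact (h1.add h2).add h3

theorem Qu_sum (𝔤 : Lie E) (C : Cl (Th E) F) (G : GammaNine) (u : Fin 16 → ℝ) (ψ : X E → F)
    (x : X E) : Qu 𝔤 C G u ψ x = ∑ α, (u α : ℂ) • Qu 𝔤 C G (Pi.single α 1) ψ x := by
  have h := (eaQ 𝔤 C G ψ x).pi_apply_eq_sum_univ u
  refine h.trans (Finset.sum_congr rfl fun α _ => ?_)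
  rw [Complex.coe_smul]
  refine congrArg (u α • eaQ 𝔤 C G ψ x ·) ?_
  funext β
  simp [Pi.single_apply, eq_comm]

/-- The square of the deformed supercharge on the sector. -/
theorem Qd_sq (𝔤 : Lie E) (C : Cl (Th E) F) (σ : Spn) (ε k : ℝ) {f : E → E} {ψ : X E → F} {x : X E}
    (hf : DifferentiableAt ℝ f (x 8))
    (hfs : ∀ u v, ⟪fderiv ℝ f (x 8) u, v⟫_ℝ = ⟪u, fderiv ℝ f (x 8) v⟫_ℝ)
    (hψ : ContDiffAt ℝ 2 ψ x) (hG : GaussAt 𝔤 C ψ x) (hk : ε = 0 ∨ RotAt C σ.G V0 k ψ x) :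
    Qd 𝔤 C σ ε f (Qd 𝔤 C σ ε f ψ) x = (-1 / 2 : ℂ) • lap ψ x +
      (((1 / 2 * ‖wd 𝔤 σ ε f x‖ ^ 2 : ℝ) : ℂ) • ψ x + C.iS (yuk 𝔤 σ ε f x) (ψ x) +
        ((ε * k : ℝ) : ℂ) • ψ x) := by
  borelize (X E)
  have hw := ea_diff_wd 𝔤 σ ε hf
  have hw0 := ((contDiff_wpot 𝔤 σ.G σ.s).differentiable (by simp)).differentiableAt (x := x)
  have htr : LinearMap.trace ℝ (Th E)
      ((fderiv ℝ (wd 𝔤 σ ε f) x).toLinearMap ∘ₗ LinearMap.adjoint (cmap σ.G σ.s)) = 0 := by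
    let A := LinearMap.toContinuousLinearMap (LinearMap.adjoint (cmap σ.G σ.s : X E →ₗ[ℝ] Th E))
    let V := LinearMap.toContinuousLinearMap (ε • (mat V0 : X E →ₗ[ℝ] X E))
    have h1 := A.hasFDerivAt.comp x hw.hasFDerivAt
    have h2 := (V.hasFDerivAt (x := x)).add (A.hasFDerivAt.comp x hw0.hasFDerivAt)
    have h3 : A ∘ wd 𝔤 σ ε f = V + A ∘ wpot 𝔤 σ.G σ.s := by
      funext y
      change LinearMap.adjoint (cmap σ.G σ.s) (wd 𝔤 σ ε f y) =
        ε • mat V0 y + LinearMap.adjoint (cmap σ.G σ.s) (wpot 𝔤 σ.G σ.s y)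
      rw [adjoint_cmap_wd, adjoint_cmap_wpot 𝔤 σ.G σ.unit σ.h8, sub_eq_add_neg]
    rw [h3] at h1
    have h4 : LinearMap.adjoint (cmap σ.G σ.s) ∘ₗ (fderiv ℝ (wd 𝔤 σ ε f) x).toLinearMap =
        ε • mat V0 + LinearMap.adjoint (cmap σ.G σ.s) ∘ₗ (fderiv ℝ (wpot 𝔤 σ.G σ.s) x).toLinearMap :=
      congrArg ContinuousLinearMap.toLinearMap (h1.unique h2)
    have h5 := ea_trace_skew_symm (ea_adj_skew (isSkew_mat (E := E) V0_skew)) LinearMap.adjoint_id
    rw [LinearMap.comp_id] at h5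
    rw [LinearMap.trace_comp_comm', h4, map_add, map_smul, h5, LinearMap.trace_comp_comm', ea_trace_dw]
    simp
  have h1 : fderiv ℝ ψ x (ε • mat V0 x - lift 9 (𝔤.br (x 8)) x) =
      (ε : ℂ) • C.S (mat (sig σ.G V0)) (ψ x) + ((ε * k : ℝ) * Complex.I) • ψ x - C.S (lift 16 (𝔤.br (x 8))) (ψ x) := by
    have h2 : fderiv ℝ ψ x (lift 9 (𝔤.br (x 8)) x) = _ := hG (x 8)
    rw [map_sub, map_smul, h2]
    rcases hk with rfl | hk
    · simp
    · have h3 : fderiv ℝ ψ x (mat V0 x) = _ := hk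
      rw [h3, ← Complex.coe_smul]
      push_cast
      module
  unfold Qd
  rw [dirac_sq C _ (norm_cmap σ.G σ.unit) hw hψ, ea_S_adj C _ _ htr, dwd_skew 𝔤 σ ε hf hfs, adjoint_cmap_wd, h1]
  simp only [Cl.iS, C.S_add, C.S_sub, C.S_smul, smul_apply, add_apply, sub_apply, smul_add, smul_sub, smul_smul]
  have h6 : Complex.I * (((ε * k : ℝ) : ℂ) * Complex.I) = -((ε * k : ℝ) : ℂ) := by
    rw [mul_left_comm, Complex.I_mul_I, mul_neg_one]
  rw [h6]
  module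

theorem Qu_sq (𝔤 : Lie E) (C : Cl (Th E) F) (σ : Spn) {u : Fin 16 → ℝ} (hu : u ⬝ᵥ u = 1)
    (h8 : σ.G.γ 8 *ᵥ u = u) {ψ : X E → F} {x : X E} (hψ : ContDiffAt ℝ 2 ψ x)
    (hG : GaussAt 𝔤 C ψ x) : Qu 𝔤 C σ.G u (Qu 𝔤 C σ.G u ψ) x = H0 𝔤 C σ ψ x := by
  borelize (X E)
  have hw := ((contDiff_wpot 𝔤 σ.G u).differentiable (by simp)).differentiableAt (x := x)
  have h1 : (fderiv ℝ (wpot 𝔤 σ.G u) x).toLinearMap ∘ₗ LinearMap.adjoint (cmap σ.G u) -
      cmap σ.G u ∘ₗ LinearMap.adjoint (fderiv ℝ (wpot 𝔤 σ.G u) x).toLinearMap =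
      eaY 𝔤 σ.G x - lift 16 (𝔤.br (x 8)) := by
    have h2 : (lift 16 (𝔤.br (x 8)) : Th E →ₗ[ℝ] Th E) =
        (1 / 2 : ℝ) • (eaY 𝔤 σ.G x ∘ₗ mat (σ.G.γ 8) + mat (σ.G.γ 8) ∘ₗ eaY 𝔤 σ.G x) := by
      rw [ea_Y8, smul_smul]
      norm_num
    rw [ea_dw, ea_dw', Spn.fierz σ.G u hu h8, mat_add, mat_smul, ea_mat_sub, mat_one, h2]
    simp only [LinearMap.comp_add, LinearMap.add_comp, LinearMap.comp_smul, LinearMap.smul_comp, LinearMap.comp_sub,
      LinearMap.sub_comp, LinearMap.comp_id, LinearMap.id_comp]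
    module
  have h2 : fderiv ℝ ψ x (lift 9 (𝔤.br (x 8)) x) = _ := hG (x 8)
  unfold Qu H0
  rw [dirac_sq C _ (norm_cmap σ.G hu) hw hψ, ea_S_adj C _ _ (ea_trace_dw 𝔤 σ.G u x), h1,
    adjoint_cmap_wpot 𝔤 σ.G hu h8, map_neg, h2, ea_yuk, norm_wpot_sq 𝔤 σ.G hu,
    norm_wpot_sq 𝔤 σ.G σ.unit]
  simp only [Cl.iS, C.S_sub, smul_apply, sub_apply, Complex.ofReal_zero, zero_mul, zero_smul, add_zero]
  module

theorem Qu_anticomm (𝔤 : Lie E) (C : Cl (Th E) F) (σ : Spn) {ψ : X E → F} {x : X E}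
    (hψ : ContDiffAt ℝ 2 ψ x) (hG : GaussAt 𝔤 C ψ x) :
    Qu 𝔤 C σ.G σ.s (Qu 𝔤 C σ.G σ.s' ψ) x + Qu 𝔤 C σ.G σ.s' (Qu 𝔤 C σ.G σ.s ψ) x = 0 := by
  borelize (X E)
  have hlin : ∀ (φ : X E → F) (y : X E), Qu 𝔤 C σ.G ((3 / 5 : ℝ) • σ.s + (4 / 5 : ℝ) • σ.s') φ y =
      (3 / 5 : ℂ) • Qu 𝔤 C σ.G σ.s φ y + (4 / 5 : ℂ) • Qu 𝔤 C σ.G σ.s' φ y := by
    intro φ y
    have h1 : eaQ 𝔤 C σ.G φ y ((3 / 5 : ℝ) • σ.s + (4 / 5 : ℝ) • σ.s') =
        (3 / 5 : ℝ) • eaQ 𝔤 C σ.G φ y σ.s + (4 / 5 : ℝ) • eaQ 𝔤 C σ.G φ y σ.s' := by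
      rw [map_add, map_smul, map_smul]
    rw [← Complex.coe_smul, ← Complex.coe_smul] at h1
    push_cast at h1
    exact h1
  have hd : ∀ u, DifferentiableAt ℝ (Qu 𝔤 C σ.G u ψ) x := fun u =>
    ea_diff_dirac C _ ((contDiff_wpot 𝔤 σ.G u).differentiable (by simp)).differentiableAt hψ
  have h1 := Qu_sq 𝔤 C σ (u := (3 / 5 : ℝ) • σ.s + (4 / 5 : ℝ) • σ.s') (by
    simp only [add_dotProduct, dotProduct_add, smul_dotProduct, dotProduct_smul, σ.unit, σ.s'_unit, σ.s_s',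
      dotProduct_comm σ.s' σ.s, smul_eq_mul]
    norm_num) (by rw [Matrix.mulVec_add, Matrix.mulVec_smul, Matrix.mulVec_smul, σ.h8, σ.h8']) hψ hG
  have h2 := Qu_sq 𝔤 C σ σ.unit σ.h8 hψ hG
  have h3 := Qu_sq 𝔤 C σ σ.s'_unit σ.h8' hψ hG
  have h4 : Qu 𝔤 C σ.G ((3 / 5 : ℝ) • σ.s + (4 / 5 : ℝ) • σ.s') ψ =
      (3 / 5 : ℂ) • Qu 𝔤 C σ.G σ.s ψ + (4 / 5 : ℂ) • Qu 𝔤 C σ.G σ.s' ψ := funext (hlin ψ)
  have h5 : ∀ u, Qu 𝔤 C σ.G u ((3 / 5 : ℂ) • Qu 𝔤 C σ.G σ.s ψ + (4 / 5 : ℂ) • Qu 𝔤 C σ.G σ.s' ψ) x =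
      (3 / 5 : ℂ) • Qu 𝔤 C σ.G u (Qu 𝔤 C σ.G σ.s ψ) x + (4 / 5 : ℂ) • Qu 𝔤 C σ.G u (Qu 𝔤 C σ.G σ.s' ψ) x := by
    intro u
    exact (dirac_add C _ _ ((hd _).const_smul _) ((hd _).const_smul _)).trans
      (congrArg₂ (· + ·) (dirac_csmul C _ _ _ _ _) (dirac_csmul C _ _ _ _ _))
  rw [h4, hlin, h5, h5, h2, h3] at h1
  linear_combination (norm := module) (25 / 12 : ℂ) • h1

theorem Qu_sq_sum (𝔤 : Lie E) (C : Cl (Th E) F) (σ : Spn) {ψ : X E → F} {x : X E}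
    (hψ : ContDiffAt ℝ 2 ψ x) :
    ∑ α, Qu 𝔤 C σ.G (Pi.single α 1) (Qu 𝔤 C σ.G (Pi.single α 1) ψ) x = (16 : ℂ) • H0 𝔤 C σ ψ x := by
  borelize (X E)
  have hu : ∀ α : Fin 16, (Pi.single α 1 : Fin 16 → ℝ) ⬝ᵥ Pi.single α 1 = 1 := fun α => by simp
  have hw := fun u => ((contDiff_wpot 𝔤 σ.G u).differentiable (by simp)).differentiableAt (x := x)
  have h1 : ∑ α : Fin 16, LinearMap.adjoint (cmap σ.G (Pi.single α 1)) (wpot 𝔤 σ.G (Pi.single α 1) x) = 0 := by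
    ext k
    have h2 : ∀ i j, ∑ α : Fin 16, ∑ β, (σ.G.γ k *ᵥ Pi.single α 1) β * ((σ.G.γ i * σ.G.γ j) *ᵥ Pi.single α 1) β = 0 := by
      intro i j
      rw [← gamma_trace_three σ.G k i j, Matrix.mul_assoc, Matrix.trace]
      refine Finset.sum_congr rfl fun α _ => ?_
      rw [Matrix.diag_apply, Matrix.mul_apply]
      refine Finset.sum_congr rfl fun β _ => ?_
      have : σ.G.γ k β α = σ.G.γ k α β := by
        conv_lhs => rw [← σ.G.symm k]
        rfl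
      simp [this]
    have h3 : ∀ α : Fin 16, LinearMap.adjoint (cmap σ.G (Pi.single α 1)) (wpot 𝔤 σ.G (Pi.single α 1) x) k =
        (1 / 2 : ℝ) • ∑ i, ∑ j, (∑ β, (σ.G.γ k *ᵥ Pi.single α 1) β *
          ((σ.G.γ i * σ.G.γ j) *ᵥ Pi.single α 1) β) • 𝔤.br (x i) (x j) := by
      intro α
      simp only [wpot, map_smul, map_sum, PiLp.smul_apply, WithLp.ofLp_sum, Finset.sum_apply, ea_adj_cmap, tens,
        Finset.sum_smul, mul_smul]
    simp only [WithLp.ofLp_sum, Finset.sum_apply, h3, PiLp.zero_apply]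
    rw [← Finset.smul_sum, Finset.sum_comm, Finset.sum_eq_zero, smul_zero]
    intro i _
    rw [Finset.sum_comm, Finset.sum_eq_zero]
    intro j _
    rw [← Finset.sum_smul, h2, zero_smul]
  have hU : ∀ M : Matrix (Fin 16) (Fin 16) ℝ,
      ∑ α : Fin 16, Matrix.vecMulVec (M *ᵥ Pi.single α 1) (M *ᵥ Pi.single α 1) = M * Mᵀ := fun M => by
    ext a b
    simp [Matrix.sum_apply, Matrix.vecMulVec_apply, Matrix.mul_apply]
  have h2 : ∑ α : Fin 16, cmap σ.G (Pi.single α 1) ∘ₗ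
      LinearMap.adjoint (fderiv ℝ (wpot 𝔤 σ.G (Pi.single α 1)) x).toLinearMap = (-8 : ℝ) • eaY 𝔤 σ.G x := by
    have h3 := hU 1
    simp only [Matrix.one_mulVec, Matrix.transpose_one, mul_one] at h3
    have h4 : ∑ α : Fin 16, ∑ i, Matrix.vecMulVec (σ.G.γ i *ᵥ Pi.single α 1) (σ.G.γ i *ᵥ Pi.single α 1) =
        (9 : ℝ) • (1 : Matrix (Fin 16) (Fin 16) ℝ) := by
      have h5 : ∀ i, σ.G.γ i * σ.G.γ i = 1 := fun i => by
        have := σ.G.clifford i i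
        rw [if_pos rfl, ← one_add_one_eq_two, ← two_smul ℝ, ← two_smul ℝ] at this
        exact smul_right_injective _ two_ne_zero this
      rw [Finset.sum_comm]
      simp only [hU, σ.G.symm, h5, Finset.sum_const, Finset.card_univ, Fintype.card_fin]
      rw [← Nat.cast_smul_eq_nsmul ℝ]
      norm_num
    simp only [ea_dw', Finset.sum_sub_distrib, ← Module.End.mul_eq_comp, ← Finset.mul_sum, ← Finset.sum_mul,
      ← ea_mat_sum, h3, h4, mat_smul, mat_one, smul_mul_assoc]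
    simp only [Module.End.mul_eq_comp, LinearMap.comp_id, LinearMap.id_comp]
    module
  unfold Qu H0
  simp only [fun α => dirac_sq C _ (norm_cmap σ.G (hu α)) (hw (Pi.single α 1)) hψ, norm_wpot_sq 𝔤 σ.G (hu _),
    norm_wpot_sq 𝔤 σ.G σ.unit, Finset.sum_add_distrib, Finset.sum_sub_distrib, ← Finset.smul_sum, ← map_sum, h1,
    ← sum_apply, ← C.S_sum, h2, ea_yuk, Cl.iS, C.S_smul, Finset.sum_const, Finset.card_univ,
    Fintype.card_fin, map_zero, smul_apply, ← Nat.cast_smul_eq_nsmul ℂ]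
  push_cast
  module

theorem eb_mat_sum {m n : ℕ} {ι : Type} [Fintype ι] (M : ι → Matrix (Fin m) (Fin n) ℝ) :
    (mat (∑ i, M i) : T n E →ₗ[ℝ] T m E) = ∑ i, mat (M i) := by
  refine LinearMap.ext fun x => PiLp.ext fun a => ?_
  simp only [mat, LinearMap.sum_apply, LinearMap.coe_mk, AddHom.coe_mk, Matrix.sum_apply, Finset.sum_smul,
    WithLp.ofLp_sum, Finset.sum_apply]
  exact Finset.sum_comm

theorem eb_mat_tens {m n : ℕ} (M : Matrix (Fin m) (Fin n) ℝ) (x : T n E) :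
    mat M x = ∑ k, tens (fun a => M a k) (x k) := by
  refine PiLp.ext fun a => ?_
  simp only [mat, tens, LinearMap.coe_mk, AddHom.coe_mk, WithLp.ofLp_sum, Finset.sum_apply]

theorem eb_tr {n : ℕ} (A B : Matrix (Fin n) (Fin n) ℝ) :
    ∑ α, (A *ᵥ Pi.single α 1) ⬝ᵥ (fun β => B β α) = (Aᵀ * B).trace := by
  simp [Matrix.trace, Matrix.mul_apply, dotProduct]

theorem eb_matrices (G : GammaNine) {V : Matrix (Fin 9) (Fin 9) ℝ} (hV : Vᵀ = -V) :
    ∃ M : Fin 9 → Matrix (Fin 16) (Fin 16) ℝ, (∀ i k, (G.γ i * M k).trace = V i k) ∧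
      ∑ k, G.γ k * (M k)ᵀ = (-1 / 2 : ℝ) • sig G V ∧ ∀ i j k, (G.γ i * G.γ j * M k).trace = 0 := by
  have hsq : ∀ k, G.γ k * G.γ k = 1 := fun k => by
    have := G.clifford k k
    rw [if_pos rfl, ← two_smul ℝ, ← one_add_one_eq_two (R := Matrix _ _ ℝ), ← two_smul ℝ] at this
    exact smul_right_injective _ two_ne_zero this
  have htr : (sig G V).trace = 0 := by
    have := congrArg Matrix.trace (sig_skew G hV)
    rw [Matrix.trace_transpose, Matrix.trace_neg] at this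
    linarith
  refine ⟨fun k => (9 / 112 : ℝ) • (sig G V * G.γ k) - (5 / 112 : ℝ) • (G.γ k * sig G V), fun i k => ?_, ?_,
    fun i j k => ?_⟩
  · have h1 := congrArg (fun A => (G.γ i * A).trace) (sig_comm G hV k)
    have h2 := congrArg (fun A => (A * sig G V).trace) (G.clifford k i)
    have h3 : ((if k = i then 2 else 0 : Matrix (Fin 16) (Fin 16) ℝ) * sig G V).trace = 0 := by
      split_ifs
      · rw [two_mul, Matrix.trace_add, htr, add_zero]
      · simp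
    simp only [Matrix.mul_sub, Matrix.trace_sub, Finset.mul_sum, Matrix.trace_sum, Matrix.mul_smul,
      Matrix.trace_smul, gamma_trace_two, smul_eq_mul, mul_ite, mul_zero, Finset.sum_ite_eq, Finset.mem_univ,
      if_true] at h1
    simp only [h3, Matrix.add_mul, Matrix.trace_add, Matrix.mul_assoc] at h2
    rw [Matrix.trace_mul_comm, Matrix.mul_assoc] at h2
    simp only [Matrix.mul_sub, Matrix.trace_sub, Matrix.mul_smul, Matrix.trace_smul, smul_eq_mul]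
    linarith
  · have h1 : ∀ k, G.γ k * (sig G V * G.γ k) = sig G V - ∑ i, V i k • (G.γ i * G.γ k) := fun k => by
      have := congrArg (· * G.γ k) (sig_comm G hV k)
      simp only [Matrix.sub_mul, Matrix.mul_assoc, hsq, Matrix.mul_one, Finset.sum_mul, Matrix.smul_mul] at this
      rw [← this, sub_sub_cancel]
    have h2 : ∑ k, ∑ i, V i k • (G.γ i * G.γ k) = (4 : ℝ) • sig G V := by
      rw [sig, smul_smul, Finset.sum_comm]; norm_num
    simp only [Matrix.transpose_sub, Matrix.transpose_smul, Matrix.transpose_mul, sig_skew G hV, G.symm,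
      Matrix.mul_sub, Matrix.mul_smul, Matrix.mul_neg, Matrix.neg_mul, h1, ← Matrix.mul_assoc (G.γ _) (G.γ _), hsq,
      Matrix.one_mul, Finset.sum_sub_distrib, ← Finset.smul_sum, Finset.sum_neg_distrib, h2, Finset.sum_const,
      Finset.card_univ, Fintype.card_fin, ← Nat.cast_smul_eq_nsmul ℝ]
    module
  · simp only [sig, Matrix.mul_sub, Matrix.trace_sub, Matrix.mul_smul, Matrix.smul_mul, Matrix.trace_smul,
      Finset.mul_sum, Finset.sum_mul, Matrix.trace_sum, ← Matrix.mul_assoc, gamma_trace_five, smul_zero,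
      Finset.sum_const_zero, sub_zero]

/-- Hasler–Hoppe: the rotation generators are `Q`-exact. -/
theorem hh_identity (𝔤 : Lie E) (C : Cl (Th E) F) (G : GammaNine) {V : Matrix (Fin 9) (Fin 9) ℝ}
    (hV : Vᵀ = -V) : ∃ K : Fin 16 → X E →ₗ[ℝ] Th E, ∀ (ψ : X E → F) (x : X E),
      DifferentiableAt ℝ ψ x →
      ∑ α, (Qu 𝔤 C G (Pi.single α 1) (fun y => C.θ (K α y) (ψ y)) x +
        C.θ (K α x) (Qu 𝔤 C G (Pi.single α 1) ψ x)) =
        -Complex.I • (fderiv ℝ ψ x (mat V x) - C.S (mat (sig G V)) (ψ x)) := by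
  obtain ⟨M, h1, h2, h3⟩ := eb_matrices G hV
  let K : Fin 16 → X E →ₗ[ℝ] Th E := fun α => mat (Matrix.of fun β k => M k β α)
  have e1 : ∑ α, LinearMap.adjoint (cmap G (Pi.single α 1)) ∘ₗ K α = mat V := by
    simp only [cmap, K, adjoint_mat, ← mat_mul, ← eb_mat_sum]
    congr 1
    ext i k
    rw [← h1, ← G.symm i, ← eb_tr, Matrix.sum_apply]
    rfl
  have e2 : ∑ α, cmap G (Pi.single α 1) ∘ₗ LinearMap.adjoint (K α) = (-1 / 2 : ℝ) • mat (sig G V) := by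
    simp only [cmap, K, adjoint_mat, ← mat_mul, ← eb_mat_sum, ← mat_smul, ← h2]
    congr 1
    ext β δ
    simp only [Matrix.sum_apply, Matrix.mul_apply, Matrix.of_apply, Matrix.transpose_apply,
      Matrix.mulVec_single_one, Matrix.col_apply]
    exact Finset.sum_comm
  refine ⟨K, fun ψ x hψ => ?_⟩
  have e3 : ∑ α, ⟪wpot 𝔤 G (Pi.single α 1) x, K α x⟫_ℝ = 0 := by
    simp only [wpot, K, eb_mat_tens, real_inner_smul_left, sum_inner, inner_sum, inner_tens, Matrix.of_apply]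
    rw [Finset.sum_comm]
    refine Finset.sum_eq_zero fun k _ => ?_
    rw [← Finset.mul_sum, Finset.sum_comm, Finset.sum_eq_zero, mul_zero]
    intro i _
    rw [Finset.sum_comm]
    refine Finset.sum_eq_zero fun j _ => ?_
    rw [← Finset.sum_mul, eb_tr, Matrix.transpose_mul, G.symm, G.symm, h3, zero_mul]
  have e4 : ∀ α, (fderiv ℝ (K α) x).toLinearMap = K α := fun α =>
    congrArg ContinuousLinearMap.toLinearMap (LinearMap.toContinuousLinearMap (K α)).fderiv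
  borelize (X E)
  simp only [Qu, fun α => dirac_anticomm_θ C (cmap G (Pi.single α 1)) (wpot 𝔤 G (Pi.single α 1)) (k := K α)
    (LinearMap.toContinuousLinearMap (K α)).differentiableAt hψ, e4]
  rw [Finset.sum_add_distrib, Finset.sum_sub_distrib, Finset.sum_neg_distrib, ← Finset.smul_sum,
    ← Finset.smul_sum, ← Finset.sum_smul, ← Complex.ofReal_sum, e3, ← map_sum, ← e1,
    ← _root_.sum_apply, ← C.S_sum, e2, C.S_smul, LinearMap.sum_apply]
  simp only [LinearMap.comp_apply, _root_.smul_apply]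
  push_cast
  module

end Crest.Agent.R330

end
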