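import Crest.Agent.R330.A2.E

/-! # Row 330, A2/F (statements frozen; see `R330/Blueprint.lean`) -/

set_option autoImplicit false
set_option linter.unusedSectionVars false

noncomputable section

open MeasureTheory Filter Topology
open scoped InnerProductSpace ContDiff Matrix
open Crest.MathPhysics.MatrixQM (GammaNine)

namespace Crest.Agent.R330

variable {E E' F : Type} [NormedAddCommGroup E] [InnerProductSpace ℝ E] [FiniteDimensional ℝ E]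
  [NormedAddCommGroup E'] [InnerProductSpace ℝ E'] [FiniteDimensional ℝ E']
  [NormedAddCommGroup F] [InnerProductSpace ℂ F] [FiniteDimensional ℂ F]

variable [MeasurableSpace E] [BorelSpace E]

theorem F_grad {Fn : E → ℝ} (hF : ContDiff ℝ ∞ Fn) : ContDiff ℝ ∞ (gradient Fn) :=
  (InnerProductSpace.toDual ℝ E).symm.contDiff.comp (hF.fderiv_right (m := ∞) (by simp))

theorem F_grad_symm {Fn : E → ℝ} (hF : ContDiff ℝ ∞ Fn) (a u v : E) :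
    ⟪fderiv ℝ (gradient Fn) a u, v⟫_ℝ = ⟪u, fderiv ℝ (gradient Fn) a v⟫_ℝ := by
  have h : ∀ u v, ⟪fderiv ℝ (gradient Fn) a u, v⟫_ℝ = fderiv ℝ (fderiv ℝ Fn) a u v := fun u v => by
    have h1 := (innerSL ℝ v).hasFDerivAt.comp a ((F_grad hF).differentiable (by simp) a).hasFDerivAt
    have h2 := (ContinuousLinearMap.apply ℝ ℝ v).hasFDerivAt.comp a
      ((hF.fderiv_right (m := ∞) (by simp)).differentiable (by simp) a).hasFDerivAt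
    have h3 : (innerSL ℝ v) ∘ gradient Fn = (ContinuousLinearMap.apply ℝ ℝ v) ∘ fderiv ℝ Fn := by
      ext y
      simp
    rw [h3] at h1
    rw [real_inner_comm]
    exact congrArg (fun L : E →L[ℝ] ℝ => L u) (h1.unique h2)
  rw [real_inner_comm _ u, h, h]
  exact (hF.contDiffAt (x := a)).isSymmSndFDerivAt (by
    rw [minSmoothness_of_isRCLikeNormedField]
    exact WithTop.coe_le_coe.2 (le_top : (2 : ℕ∞) ≤ ⊤)) u v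

theorem F_two {ψ : X E → F} (hψ : Core ψ) (x : X E) : ContDiffAt ℝ 2 ψ x :=
  hψ.1.contDiffAt.of_le (WithTop.coe_le_coe.2 (le_top : (2 : ℕ∞) ≤ ⊤))

theorem F_one {ψ : X E → F} (hψ : Core ψ) : ContDiff ℝ 1 ψ := hψ.1.of_le (by simp)

theorem F_dv {ψ : X E → F} (hψ : ContDiff ℝ ∞ ψ) (v : X E) : ContDiff ℝ ∞ fun y => fderiv ℝ ψ y v :=
  (hψ.fderiv_right (m := ∞) (by simp)).clm_apply contDiff_const

theorem F_re (𝔤 : Lie E) (C : Cl (Th E) F) (σ : Spn) (ε k κ : ℝ) (f : E → E) (ψ : X E → F) (x : X E) :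
    κ * gsq ψ x + (⟪ψ x, ((1 / 2 * ‖wd 𝔤 σ ε f x‖ ^ 2 : ℝ) : ℂ) • ψ x + C.iS (yuk 𝔤 σ ε f x) (ψ x) +
      ((ε * k : ℝ) : ℂ) • ψ x⟫_ℂ).re = edens 𝔤 C σ ε f κ ψ x + ε * k * ‖ψ x‖ ^ 2 := by
  have h : (⟪ψ x, ψ x⟫_ℂ).re = ‖ψ x‖ ^ 2 := inner_self_eq_norm_sq (𝕜 := ℂ) (ψ x)
  simp only [inner_add_right, inner_smul_right, Complex.add_re, Complex.re_ofReal_mul, h, edens]
  ring

theorem F_zero (𝔤 : Lie E) (C : Cl (Th E) F) (σ : Spn) (ε κ : ℝ) (f : E → E) {ψ : X E → F} {x : X E}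
    (hx : x ∉ tsupport ψ) : edens 𝔤 C σ ε f κ ψ x = 0 := by
  simp [edens, gsq, image_eq_zero_of_notMem_tsupport hx, fderiv_of_notMem_tsupport ℝ hx]

theorem F_cont (𝔤 : Lie E) (C : Cl (Th E) F) (σ : Spn) (ε k κ : ℝ) {f : E → E}
    (hf : ContDiff ℝ ∞ f) (hfs : ∀ a u v, ⟪fderiv ℝ f a u, v⟫_ℝ = ⟪u, fderiv ℝ f a v⟫_ℝ)
    {ψ : X E → F} (hψ : Cls 𝔤 C σ.G ∅ ψ) (hk : ε = 0 ∨ ∀ x, RotAt C σ.G V0 k ψ x) :
    Continuous (edens 𝔤 C σ ε f κ ψ) := by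
  have hw := contDiff_wd 𝔤 σ ε hf
  have h1 : Continuous (Qd 𝔤 C σ ε f (Qd 𝔤 C σ ε f ψ)) :=
    (Core.dirac C _ hw (Core.dirac C _ hw hψ.1)).1.continuous
  have h2 : Continuous (lap ψ) := continuous_finsetSum _ fun i _ => (F_dv (F_dv hψ.1.1 _) _).continuous
  have h3 : Continuous (gsq ψ) := continuous_finsetSum _ fun i _ => (F_dv hψ.1.1 _).continuous.norm.pow 2
  have h4 := hψ.1.1.continuous
  have h5 : edens 𝔤 C σ ε f κ ψ = fun x => κ * gsq ψ x + (⟪ψ x, Qd 𝔤 C σ ε f (Qd 𝔤 C σ ε f ψ) x -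
      (-1 / 2 : ℂ) • lap ψ x⟫_ℂ).re - ε * k * ‖ψ x‖ ^ 2 := funext fun x => by
    rw [Qd_sq 𝔤 C σ ε k (hf.differentiable (by simp) _) (hfs _) (F_two hψ.1 x) (hψ.2.1 x) (hk.imp id fun h => h x),
      add_sub_cancel_left, F_re, add_sub_cancel_right]
  rw [h5]
  fun_prop

theorem F_sq {ψ : X E → F} (hψ : Core ψ) : Integrable fun x => ‖ψ x‖ ^ 2 :=
  (hψ.1.continuous.norm.pow 2).integrable_of_hasCompactSupport
    (HasCompactSupport.intro hψ.2 fun x hx => by simp [image_eq_zero_of_notMem_tsupport hx])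

theorem F_energy (𝔤 : Lie E) (C : Cl (Th E) F) (σ : Spn) (ε k : ℝ) {f : E → E}
    (hf : ContDiff ℝ ∞ f) (hfs : ∀ a u v, ⟪fderiv ℝ f a u, v⟫_ℝ = ⟪u, fderiv ℝ f a v⟫_ℝ)
    {ψ : X E → F} (hψ : Cls 𝔤 C σ.G ∅ ψ) (hk : ε = 0 ∨ ∀ x, RotAt C σ.G V0 k ψ x) :
    ∫ x, ‖Qd 𝔤 C σ ε f ψ x‖ ^ 2 = (∫ x, edens 𝔤 C σ ε f (1 / 2) ψ x) + ε * k * ∫ x, ‖ψ x‖ ^ 2 := by
  refine (energy_eq C _ (contDiff_wd 𝔤 σ ε hf) hψ.1 _ fun x => Qd_sq 𝔤 C σ ε k (hf.differentiable (by simp) _)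
    (hfs _) (F_two hψ.1 x) (hψ.2.1 x) (hk.imp id fun h => h x)).trans ?_
  simp only [F_re]
  rw [integral_add ((F_cont 𝔤 C σ ε k _ hf hfs hψ hk).integrable_of_hasCompactSupport
    (HasCompactSupport.intro hψ.1.2 fun x hx => F_zero 𝔤 C σ ε _ f hx)) ((F_sq hψ.1).const_mul _),
    integral_const_mul]

theorem F_wt {ψ : X E → F} (hψ : Core ψ) {U : Set (X E)} (hU : IsOpen U) (hs : tsupport ψ ⊆ U) {ϖ h : X E → ℝ}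
    (hϖ : ContinuousOn ϖ U) (hh : Continuous h) (h0 : ∀ x, x ∉ tsupport ψ → h x = 0) :
    Integrable fun x => ϖ x * h x := by
  have h1 : ∀ x, x ∉ tsupport ψ → ϖ x * h x = 0 := fun x hx => by rw [h0 x hx, mul_zero]
  have h2 : tsupport (fun x => ϖ x * h x) ⊆ tsupport ψ :=
    closure_minimal (fun x hx => by_contra fun h2 => hx (h1 x h2)) (isClosed_tsupport ψ)
  exact ((hϖ.mul hh.continuousOn).continuous_of_tsupport_subset hU (h2.trans hs)).integrable_of_hasCompactSupport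
    (HasCompactSupport.intro hψ.2 h1)

/-- Energy identity on the sector. -/
theorem energy_Qd (𝔤 : Lie E) (C : Cl (Th E) F) (σ : Spn) (ε k : ℝ) {Fn : E → ℝ}
    (hF : ContDiff ℝ ∞ Fn) {ψ : X E → F} (hψ : Cls 𝔤 C σ.G ∅ ψ)
    (hk : ε = 0 ∨ ∀ x, RotAt C σ.G V0 k ψ x) :
    ∫ x, ‖Qd 𝔤 C σ ε (gradient Fn) ψ x‖ ^ 2 =
      (∫ x, edens 𝔤 C σ ε (gradient Fn) (1 / 2) ψ x) + ε * k * ∫ x, ‖ψ x‖ ^ 2 := by
  exact F_energy 𝔤 C σ ε k (F_grad hF) (F_grad_symm hF) hψ hk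

theorem energy_Qe (𝔤 : Lie E) (C : Cl (Th E) F) (σ : Spn) (ε k : ℝ) {ψ : X E → F}
    (hψ : Cls 𝔤 C σ.G ∅ ψ) (hk : ε = 0 ∨ ∀ x, RotAt C σ.G V0 k ψ x) :
    ∫ x, ‖Qe 𝔤 C σ ε ψ x‖ ^ 2 =
      (∫ x, edens 𝔤 C σ ε (fun _ => 0) (1 / 2) ψ x) + ε * k * ∫ x, ‖ψ x‖ ^ 2 := by
  exact F_energy 𝔤 C σ ε k contDiff_const (by simp) hψ hk

/-- Weighted energy inequality on the sector. -/
theorem energy_weighted_Qd (𝔤 : Lie E) (C : Cl (Th E) F) (σ : Spn) (ε k : ℝ) {f : E → E}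
    (hf : ContDiff ℝ ∞ f) (hfs : ∀ a u v, ⟪fderiv ℝ f a u, v⟫_ℝ = ⟪u, fderiv ℝ f a v⟫_ℝ)
    {ψ : X E → F} (hψ : Cls 𝔤 C σ.G ∅ ψ)
    (hk : ε = 0 ∨ (0 ≤ ε * k ∧ ∀ x, RotAt C σ.G V0 k ψ x))
    {U : Set (X E)} (hU : IsOpen U) (hs : tsupport ψ ⊆ U) {ϖ Λ : X E → ℝ}
    (hϖ : ContDiffOn ℝ 1 ϖ U) (hΛ : ContinuousOn Λ U) (h0 : ∀ x ∈ U, 0 ≤ ϖ x)
    (hg : ∀ x ∈ U, ‖fderiv ℝ ϖ x‖ ≤ Λ x * ϖ x) {τ : ℝ} (hτ : 0 < τ) :
    ∫ x, ϖ x * edens 𝔤 C σ ε f (1 / 2 - τ) ψ x ≤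
      2 * (∫ x, ϖ x * ‖Qd 𝔤 C σ ε f ψ x‖ ^ 2) +
        (1 / (16 * τ) + 1 / 8) * ∫ x, Λ x ^ 2 * ϖ x * ‖ψ x‖ ^ 2 := by
  have hk' : ε = 0 ∨ ∀ x, RotAt C σ.G V0 k ψ x := hk.imp id And.right
  have hε : 0 ≤ ε * k := hk.elim (fun h => by simp [h]) And.left
  refine le_trans ?_ (energy_weighted C _ (norm_cmap σ.G σ.unit) (contDiff_wd 𝔤 σ ε hf) hψ.1 _
    (fun x => Qd_sq 𝔤 C σ ε k (hf.differentiable (by simp) _) (hfs _) (F_two hψ.1 x) (hψ.2.1 x)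
      (hk'.imp id fun h => h x)) hU hs hϖ hΛ h0 hg hτ)
  simp only [F_re]
  have h1 := F_cont 𝔤 C σ ε k (1 / 2 - τ) hf hfs hψ hk'
  have h2 := hψ.1.1.continuous
  refine integral_mono (F_wt hψ.1 hU hs hϖ.continuousOn h1 fun x hx => F_zero 𝔤 C σ ε _ f hx)
    (F_wt hψ.1 hU hs hϖ.continuousOn (by fun_prop) fun x hx => by
      simp [F_zero 𝔤 C σ ε _ f hx, image_eq_zero_of_notMem_tsupport hx]) fun x => ?_
  by_cases hx : x ∈ U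
  · exact mul_le_mul_of_nonneg_left (le_add_of_nonneg_right (mul_nonneg hε (sq_nonneg _))) (h0 x hx)
  · simp [image_eq_zero_of_notMem_tsupport fun h => hx (hs h)]

/-- The sixteen supercharges versus one. -/
theorem form_sum (𝔤 : Lie E) (C : Cl (Th E) F) (σ : Spn) {φ ψ : X E → F} (hφ : Core φ)
    (hψ : Cls 𝔤 C σ.G ∅ ψ) :
    (1 / 16 : ℂ) * ∑ α, ∫ x, ⟪Qu 𝔤 C σ.G (Pi.single α 1) φ x, Qu 𝔤 C σ.G (Pi.single α 1) ψ x⟫_ℂ =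
      ∫ x, ⟪Qe 𝔤 C σ 0 φ x, Qe 𝔤 C σ 0 ψ x⟫_ℂ := by
  have hs : ∀ u, ∫ x, ⟪Qu 𝔤 C σ.G u φ x, Qu 𝔤 C σ.G u ψ x⟫_ℂ =
      ∫ x, ⟪φ x, Qu 𝔤 C σ.G u (Qu 𝔤 C σ.G u ψ) x⟫_ℂ := fun u =>
    dirac_symm C _ (contDiff_wpot 𝔤 σ.G u).continuous (F_one hφ)
      (F_one (Core.dirac C _ (contDiff_wpot 𝔤 σ.G u) hψ.1)) (Or.inl hφ.2)
  rw [Qe_zero]
  simp only [hs]
  rw [← integral_finsetSum _ fun α _ => ?_, ← integral_const_mul]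
  · refine integral_congr_ae (Eventually.of_forall fun x => ?_)
    simp only
    rw [← inner_sum, Qu_sq_sum 𝔤 C σ (F_two hψ.1 x), Qu_sq 𝔤 C σ σ.unit σ.h8 (F_two hψ.1 x) (hψ.2.1 x),
      inner_smul_right]
    ring
  · exact (hφ.1.continuous.inner (Core.dirac C _ (contDiff_wpot 𝔤 σ.G _)
      (Core.dirac C _ (contDiff_wpot 𝔤 σ.G _) hψ.1)).1.continuous).integrable_of_hasCompactSupport
      (HasCompactSupport.intro hφ.2 fun x hx => by simp [image_eq_zero_of_notMem_tsupport hx])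

theorem norm_Qα_le (𝔤 : Lie E) (C : Cl (Th E) F) (σ : Spn) {ψ : X E → F} (hψ : Cls 𝔤 C σ.G ∅ ψ)
    (α : Fin 16) :
    ∫ x, ‖Qu 𝔤 C σ.G (Pi.single α 1) ψ x‖ ^ 2 ≤ 16 * ∫ x, ‖Qe 𝔤 C σ 0 ψ x‖ ^ 2 := by
  have h1 := form_sum 𝔤 C σ hψ.1 hψ
  have h2 : ∀ g : X E → F, ∫ x, ⟪g x, g x⟫_ℂ = ((∫ x, ‖g x‖ ^ 2 : ℝ) : ℂ) := fun g => by
    rw [← integral_complex_ofReal]
    simp [inner_self_eq_norm_sq_to_K]
  simp only [h2] at h1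
  have h3 : (1 / 16 : ℝ) * ∑ α, ∫ x, ‖Qu 𝔤 C σ.G (Pi.single α 1) ψ x‖ ^ 2 = ∫ x, ‖Qe 𝔤 C σ 0 ψ x‖ ^ 2 := by
    apply Complex.ofReal_injective
    rw [← h1]
    push_cast
    rfl
  have h4 := Finset.single_le_sum (f := fun α => ∫ x, ‖Qu 𝔤 C σ.G (Pi.single α 1) ψ x‖ ^ 2)
    (fun α _ => integral_nonneg fun x => sq_nonneg _) (Finset.mem_univ α)
  linarith

end Crest.Agent.R330

end
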