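import Crest.Agent.R330.A2.E

/-! # Row 330, A2/G (statements frozen; see `R330/Blueprint.lean`) -/

set_option autoImplicit false
set_option linter.unusedSectionVars false

noncomputable section

open MeasureTheory Filter Topology
open scoped InnerProductSpace ContDiff Matrix
open Crest.MathPhysics.MatrixQM (GammaNine)

namespace Crest.Agent.R330

variable {E E' F : Type} [NormedAddCommGroup E] [InnerProductSpace ℝ E] [FiniteDimensional ℝ E]
  [NormedAddCommGroup E'] [InnerProductSpace ℝ E'] [FiniteDimensional ℝ E']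
  [NormedAddCommGroup F] [InnerProductSpace ℂ F] [FiniteDimensional ℂ F]

variable [MeasurableSpace E] [BorelSpace E]

/-! ### auxiliary lemmas for `G-a` -/

section GaAux

variable {V W : Type} [NormedAddCommGroup V] [InnerProductSpace ℝ V] [FiniteDimensional ℝ V]
  [NormedAddCommGroup W] [InnerProductSpace ℝ W] [FiniteDimensional ℝ W]

theorem ga_skew_smul {A : V →ₗ[ℝ] V} (hA : IsSkew A) (t : ℝ) : IsSkew (t • A) := fun u v => by
  simp only [LinearMap.smul_apply, real_inner_smul_left, real_inner_smul_right, hA u v, mul_neg]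

theorem ga_inner {A : V →ₗ[ℝ] V} (hA : IsSkew A) (u v : V) :
    ⟪rexp' A u, rexp' A v⟫_ℝ = ⟪u, v⟫_ℝ :=
  (⟨(rexp' A).toLinearMap, norm_rexp' hA⟩ : V →ₗᵢ[ℝ] V).inner_map_map u v

theorem ga_surj (A : V →ₗ[ℝ] V) (w : V) : rexp' A (rexp' ((-1 : ℝ) • A) w) = w := by
  have := rexp'_add_smul A 1 (-1) w
  rw [add_neg_cancel, zero_smul, rexp'_zero, one_smul] at this
  exact this.symm

/-- Equivariance of a bilinear map integrates to the flows. -/
theorem ga_bilin (B : V →ₗ[ℝ] V →ₗ[ℝ] W) (A : V →ₗ[ℝ] V) (A' : W →ₗ[ℝ] W)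
    (h : ∀ x y, A' (B x y) = B (A x) y + B x (A y)) (x y : V) :
    B (rexp' A x) (rexp' A y) = rexp' A' (B x y) := by
  let B' : V →L[ℝ] V →L[ℝ] W := LinearMap.toContinuousLinearMap
    ((LinearMap.toContinuousLinearMap : (V →ₗ[ℝ] W) ≃ₗ[ℝ] V →L[ℝ] W).toLinearMap ∘ₗ B)
  have := ba_ode A' (f := fun s => B (rexp' (s • A) x) (rexp' (s • A) y)) (fun s => by
    have h1 := (B'.hasFDerivAt.comp_hasDerivAt s (ba_hasDerivAt A x s)).clm_apply (ba_hasDerivAt A y s)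
    rw [h]
    exact h1) 1
  simpa [ba_zero] using this

theorem ga_exp_θ (C : Cl V F) {A : V →ₗ[ℝ] V} (hA : IsSkew A) (t k : ℝ) (v : V) :
    NormedSpace.exp ((t : ℂ) • (C.S A + ((k : ℂ) * Complex.I) • 1)) * C.θ v =
      C.θ (rexp' (t • A) v) * NormedSpace.exp ((t : ℂ) • (C.S A + ((k : ℂ) * Complex.I) • 1)) := by
  let +nondep : NormedAlgebra ℚ (F →L[ℂ] F) := .restrictScalars ℚ ℂ _
  have hc : ∀ T : F →L[ℂ] F, Commute T ((t : ℂ) • (((k : ℂ) * Complex.I) • (1 : F →L[ℂ] F))) := fun T =>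
    ((Commute.one_right T).smul_right _).smul_right _
  rw [smul_add, NormedSpace.exp_add_of_commute (hc _), ← C.S_smul, mul_assoc, ← (hc _).exp_right.eq,
    ← mul_assoc, C.exp_S_θ (ga_skew_smul hA t), mul_assoc]

end GaAux

theorem ga_lift_smul {n : ℕ} (t : ℝ) (L : E →ₗ[ℝ] E) : lift n (t • L) = t • lift n L := by
  ext x a
  rfl

/-- `tens` as a bilinear map. -/
def ga_tens (n : ℕ) : (Fin n → ℝ) →ₗ[ℝ] E →ₗ[ℝ] T n E :=
  LinearMap.mk₂ ℝ tens (fun u v e => by ext a; simp [add_smul]) (fun r u e => by ext a; simp [mul_smul])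
    (fun u e e' => by ext a; simp) (fun r u e => by ext a; simp [smul_comm r])

theorem ga_tens_apply {n : ℕ} (u : Fin n → ℝ) (e : E) : ga_tens n u e = tens u e := rfl

/-- The component map. -/
def ga_proj {n : ℕ} (i : Fin n) : T n E →ₗ[ℝ] E where
  toFun x := x i
  map_add' _ _ := rfl
  map_smul' _ _ := rfl

theorem ga_proj_apply {n : ℕ} (i : Fin n) (x : T n E) : ga_proj i x = x i := rfl

/-- The polarisation of `wpot`. -/
def ga_B (𝔤 : Lie E) (G : GammaNine) (u : Fin 16 → ℝ) : X E →ₗ[ℝ] X E →ₗ[ℝ] Th E :=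
  (1 / 2 : ℝ) • ∑ i, ∑ j, (𝔤.br.compl₁₂ (ga_proj i) (ga_proj j)).compr₂ (ga_tens 16 ((G.γ i * G.γ j) *ᵥ u))

theorem ga_B_apply (𝔤 : Lie E) (G : GammaNine) (u : Fin 16 → ℝ) (x y : X E) : ga_B 𝔤 G u x y =
    (1 / 2 : ℝ) • ∑ i, ∑ j, ga_tens 16 ((G.γ i * G.γ j) *ᵥ u) (𝔤.br (x i) (y j)) := by
  simp only [ga_B, LinearMap.smul_apply, LinearMap.sum_apply, LinearMap.compr₂_apply,
    LinearMap.compl₁₂_apply, ga_proj_apply]

theorem ga_B_self (𝔤 : Lie E) (G : GammaNine) (u : Fin 16 → ℝ) (x : X E) :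
    ga_B 𝔤 G u x x = wpot 𝔤 G u x := ga_B_apply 𝔤 G u x x

theorem ga_B_gauge (𝔤 : Lie E) (G : GammaNine) (u : Fin 16 → ℝ) (ξ : E) (x y : X E) :
    lift 16 (𝔤.br ξ) (ga_B 𝔤 G u x y) =
      ga_B 𝔤 G u (lift 9 (𝔤.br ξ) x) y + ga_B 𝔤 G u x (lift 9 (𝔤.br ξ) y) := by
  have e' : ∀ a (v : E), lift 16 (𝔤.br ξ) (ga_tens 16 a v) = ga_tens 16 a (𝔤.br ξ v) := fun a v =>
    lift_tens _ a v
  simp only [ga_B_apply, map_smul, map_sum, lift_apply, ← smul_add, e', 𝔤.jac ξ, map_add,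
    Finset.sum_add_distrib]

theorem ga_sig_γ (G : GammaNine) {V : Matrix (Fin 9) (Fin 9) ℝ} (hV : Vᵀ = -V) (j : Fin 9) :
    sig G V * G.γ j = G.γ j * sig G V + ∑ i, V i j • G.γ i := by
  rw [← sig_comm G hV j, add_sub_cancel]

theorem ga_B_rot (𝔤 : Lie E) (G : GammaNine) {u : Fin 16 → ℝ} {V : Matrix (Fin 9) (Fin 9) ℝ}
    (hV : Vᵀ = -V) (hu : sig G V *ᵥ u = 0) (x y : X E) :
    mat (sig G V) (ga_B 𝔤 G u x y) = ga_B 𝔤 G u (mat V x) y + ga_B 𝔤 G u x (mat V y) := by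
  have e : ∀ i j, sig G V *ᵥ ((G.γ i * G.γ j) *ᵥ u) =
      ∑ k, V k i • ((G.γ k * G.γ j) *ᵥ u) + ∑ k, V k j • ((G.γ i * G.γ k) *ᵥ u) := fun i j => by
    rw [Matrix.mulVec_mulVec, ← mul_assoc, ga_sig_γ G hV, add_mul, mul_assoc, ga_sig_γ G hV, mul_add,
      ← mul_assoc, Matrix.add_mulVec, Matrix.add_mulVec, ← Matrix.mulVec_mulVec u, hu, Matrix.mulVec_zero,
      zero_add, add_comm, Finset.sum_mul, Finset.mul_sum, Matrix.sum_mulVec, Matrix.sum_mulVec]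
    simp only [smul_mul_assoc, mul_smul_comm, Matrix.smul_mulVec]
  have e' : ∀ a (v : E), mat (sig G V) (ga_tens 16 a v) = ga_tens 16 (sig G V *ᵥ a) v := fun a v =>
    mat_tens _ a v
  simp only [ga_B_apply, map_smul, map_sum, mat_apply, ← smul_add, e', e, map_add, LinearMap.add_apply,
    LinearMap.sum_apply, LinearMap.smul_apply, Finset.sum_add_distrib]
  congr 2
  · rw [Finset.sum_comm]
    conv_rhs => rw [Finset.sum_comm]
    exact Finset.sum_congr rfl fun j _ => Finset.sum_comm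
  · exact Finset.sum_congr rfl fun i _ => Finset.sum_comm

theorem ga_cmap_rot (G : GammaNine) {u : Fin 16 → ℝ} {V : Matrix (Fin 9) (Fin 9) ℝ}
    (hV : Vᵀ = -V) (hu : sig G V *ᵥ u = 0) :
    (cmap G u : X E →ₗ[ℝ] Th E) ∘ₗ mat V = mat (sig G V) ∘ₗ cmap G u := by
  rw [cmap, ← mat_mul, ← mat_mul]
  congr 1
  ext α j
  have e : sig G V *ᵥ (G.γ j *ᵥ u) = ∑ i, V i j • (G.γ i *ᵥ u) := by
    rw [Matrix.mulVec_mulVec, ga_sig_γ G hV, Matrix.add_mulVec, ← Matrix.mulVec_mulVec u, hu,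
      Matrix.mulVec_zero, zero_add, Matrix.sum_mulVec]
    simp only [Matrix.smul_mulVec]
  have e' := congrFun e α
  simp only [Finset.sum_apply, Pi.smul_apply, smul_eq_mul] at e'
  simp only [Matrix.mul_apply, Matrix.of_apply]
  exact (Finset.sum_congr rfl fun i _ => mul_comm _ _).trans e'.symm

theorem ga_wpot_gauge (𝔤 : Lie E) (G : GammaNine) (u : Fin 16 → ℝ) (ξ : E) (x : X E) :
    wpot 𝔤 G u (rexp' (lift 9 (𝔤.br ξ)) x) = rexp' (lift 16 (𝔤.br ξ)) (wpot 𝔤 G u x) := by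
  rw [← ga_B_self, ← ga_B_self, ga_bilin _ _ _ (ga_B_gauge 𝔤 G u ξ)]

theorem ga_wpot_rot (𝔤 : Lie E) (G : GammaNine) {u : Fin 16 → ℝ} {V : Matrix (Fin 9) (Fin 9) ℝ}
    (hV : Vᵀ = -V) (hu : sig G V *ᵥ u = 0) (t : ℝ) (x : X E) :
    wpot 𝔤 G u (rexp' (t • mat V) x) = rexp' (t • mat (sig G V)) (wpot 𝔤 G u x) := by
  rw [← ga_B_self, ← ga_B_self, ga_bilin _ _ (t • mat (sig G V)) fun x y => ?_]
  simp only [LinearMap.smul_apply, ga_B_rot 𝔤 G hV hu, map_smul, smul_add]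

theorem ga_cmap_gauge (𝔤 : Lie E) (G : GammaNine) (u : Fin 16 → ℝ) (ξ : E) (x : X E) :
    cmap G u (rexp' (lift 9 (𝔤.br ξ)) x) = rexp' (lift 16 (𝔤.br ξ)) (cmap G u x) :=
  rexp'_intertwine _ _ _ (mat_lift _ _) x

theorem ga_cmap_rot' (G : GammaNine) {u : Fin 16 → ℝ} {V : Matrix (Fin 9) (Fin 9) ℝ}
    (hV : Vᵀ = -V) (hu : sig G V *ᵥ u = 0) (t : ℝ) (x : X E) :
    cmap G u (rexp' (t • mat V) x) = rexp' (t • mat (sig G V)) (cmap G u x) :=
  rexp'_intertwine _ _ _ (by rw [LinearMap.comp_smul, LinearMap.smul_comp, ga_cmap_rot G hV hu]) x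

theorem ga_gauge_apply (𝔤 : Lie E) (ξ : E) (x : X E) (i : Fin 9) :
    rexp' (lift 9 (𝔤.br ξ)) x i = rexp' (𝔤.br ξ) (x i) := by
  rw [rexp'_lift]
  rfl

theorem ga_V0_eight (t : ℝ) (x : X E) : rexp' (t • mat V0) x 8 = x 8 := by
  have := rexp'_intertwine (ga_proj 8) (t • mat V0 : X E →ₗ[ℝ] X E) 0 (by
    ext y
    have : ∀ b, V0 8 b = 0 := fun b => by
      simp [V0, pl]
    simp [ga_proj_apply, this]) x
  rwa [rexp'_zero] at this

theorem ga_diag_pl (d : Fin 9 → ℝ) {i j : Fin 9} (h : d i = d j) :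
    Matrix.diagonal d * pl i j = pl i j * Matrix.diagonal d := by
  ext a b
  simp only [pl, Matrix.diagonal_mul, Matrix.mul_diagonal, Matrix.sub_apply, Matrix.single_apply]
  split_ifs with h1 h2 h2
  · rw [← h1.1, ← h1.2, h, mul_comm]
  · rw [← h1.1, ← h1.2, h, mul_comm]
  · rw [← h2.1, ← h2.2, h, mul_comm]
  · simp

theorem ga_diag (d : Fin 9 → ℝ) (h01 : d 0 = d 1) (h23 : d 2 = d 3) (h45 : d 4 = d 5) (h67 : d 6 = d 7)
    (t : ℝ) (x : X E) : ∑ i, d i * ‖rexp' (t • mat V0) x i‖ ^ 2 = ∑ i, d i * ‖x i‖ ^ 2 := by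
  have e : ∀ y : X E, ∑ i, d i * ‖y i‖ ^ 2 = ⟪mat (Matrix.diagonal d) y, y⟫_ℝ := fun y => by
    rw [PiLp.inner_apply]
    refine Finset.sum_congr rfl fun i _ => ?_
    rw [mat_apply, Finset.sum_eq_single i (fun b _ hb => by rw [Matrix.diagonal_apply_ne _ hb.symm, zero_smul])
      (by simp), Matrix.diagonal_apply_eq, real_inner_smul_left, real_inner_self_eq_norm_sq]
  have hc : Matrix.diagonal d * V0 = V0 * Matrix.diagonal d := by
    simp only [V0, mul_add, add_mul, mul_sub, sub_mul, mul_smul_comm, smul_mul_assoc, ga_diag_pl d h01,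
      ga_diag_pl d h23, ga_diag_pl d h45, ga_diag_pl d h67]
  have hi := rexp'_intertwine (mat (Matrix.diagonal d) : X E →ₗ[ℝ] X E) (t • mat V0) (t • mat V0)
    (by rw [LinearMap.comp_smul, LinearMap.smul_comp, ← mat_mul, ← mat_mul, hc]) x
  rw [e, e, hi, ga_inner (ga_skew_smul (isSkew_mat V0_skew) t)]

theorem ga_sum9 (f : Fin 9 → ℝ) :
    ∑ i, f i = f 0 + f 1 + f 2 + f 3 + f 4 + f 5 + f 6 + f 7 + f 8 := by
  rw [Fin.sum_univ_castSucc, Fin.sum_univ_eight]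
  rfl

/-! ### symmetries -/

theorem symOK_flows (𝔤 : Lie E) (C : Cl (Th E) F) (G : GammaNine) {𝒱 : Wts} (h : 𝒱.OK) :
    SymOK (flows 𝔤 C G 𝒱) := by
  rintro _ (⟨ξ, rfl⟩ | ⟨q, hq, t, rfl⟩)
  · refine ⟨norm_rexp' (isSkew_lift (𝔤.isSkew_br ξ)), fun v => ?_⟩
    simpa using C.norm_exp_S (isSkew_lift (n := 16) (𝔤.isSkew_br ξ)) 1 0 v
  · exact ⟨norm_rexp' (ga_skew_smul (isSkew_mat (h q hq)) t),
      C.norm_exp_S (isSkew_mat (sig_skew G (h q hq))) t q.2⟩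

theorem cls_iff_ds (𝔤 : Lie E) (C : Cl (Th E) F) (G : GammaNine) (𝒱 : Wts) (ψ : X E → F) :
    Cls 𝔤 C G 𝒱 ψ ↔ DS (flows 𝔤 C G 𝒱) ψ := by
  refine and_congr_right fun hc => ?_
  have hd : Differentiable ℝ ψ := hc.1.differentiable (by simp)
  constructor
  · rintro ⟨hG, hR⟩ _ (⟨ξ, rfl⟩ | ⟨q, hq, t, rfl⟩) x
    · simpa using (wtAt_iff_flow _ _ _ hd).1 (fun x => hG x ξ) 1 x
    · exact (wtAt_iff_flow _ _ _ hd).1 (hR q hq) t x
  · intro h
    refine ⟨fun x ξ => (wtAt_iff_flow _ _ _ hd).2 (fun t x => ?_) x, fun q hq =>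
      (wtAt_iff_flow _ _ _ hd).2 fun t x => h _ (Or.inr ⟨q, hq, t, rfl⟩) x⟩
    have := h _ (Or.inl ⟨t • ξ, rfl⟩) x
    simp only [map_smul, ga_lift_smul, C.S_smul] at this
    simpa using this

theorem compat_Qu (𝔤 : Lie E) (C : Cl (Th E) F) (G : GammaNine) {𝒱 : Wts} (h : 𝒱.OK)
    (u : Fin 16 → ℝ) (hu : ∀ p ∈ 𝒱, sig G p.1 *ᵥ u = 0) :
    Compat C (cmap G u) (wpot 𝔤 G u) (flows 𝔤 C G 𝒱) := by
  rintro _ (⟨ξ, rfl⟩ | ⟨q, hq, t, rfl⟩)
  · have hs := isSkew_lift (n := 16) (𝔤.isSkew_br ξ)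
    exact ⟨fun x => by rw [ga_cmap_gauge, C.exp_S_θ hs], fun x => by rw [ga_wpot_gauge, C.exp_S_θ hs]⟩
  · have hs := isSkew_mat (E := E) (sig_skew G (h q hq))
    exact ⟨fun x => by rw [ga_cmap_rot' G (h q hq) (hu q hq), ga_exp_θ C hs],
      fun x => by rw [ga_wpot_rot 𝔤 G (h q hq) (hu q hq), ga_exp_θ C hs]⟩

theorem compat_Qd (𝔤 : Lie E) (C : Cl (Th E) F) (σ : Spn) {𝒱 : Wts} (h : ∀ p ∈ 𝒱, p.1 = V0)
    (ε : ℝ) {f : E → E} (hf : ∀ ξ v, f (rexp' (𝔤.br ξ) v) = rexp' (𝔤.br ξ) (f v)) :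
    Compat C (cmap σ.G σ.s) (wd 𝔤 σ ε f) (flows 𝔤 C σ.G 𝒱) := by
  rintro _ (⟨ξ, rfl⟩ | ⟨⟨V, k⟩, hq, t, rfl⟩)
  · have hs := isSkew_lift (n := 16) (𝔤.isSkew_br ξ)
    refine ⟨fun x => by rw [ga_cmap_gauge, C.exp_S_θ hs], fun x => ?_⟩
    have e1 := rexp'_intertwine (mat V0 : X E →ₗ[ℝ] X E) _ _ (mat_lift V0 (𝔤.br ξ)) x
    have e2 : ∀ v, rexp' (lift 16 (𝔤.br ξ)) (tens σ.s' v) = tens σ.s' (rexp' (𝔤.br ξ) v) := fun v => by
      rw [rexp'_lift, lift_tens]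
      rfl
    rw [C.exp_S_θ hs]
    simp only [wd, ga_wpot_gauge, e1, ga_cmap_gauge, ga_gauge_apply, hf, map_add, map_smul, e2]
  · obtain rfl : V = V0 := h _ hq
    have hs := isSkew_mat (E := E) (sig_skew σ.G V0_skew)
    refine ⟨fun x => by rw [ga_cmap_rot' σ.G V0_skew σ.sig_s, ga_exp_θ C hs], fun x => ?_⟩
    have e1 := rexp'_intertwine (mat V0 : X E →ₗ[ℝ] X E) (t • mat V0) (t • mat V0)
      (by rw [LinearMap.comp_smul, LinearMap.smul_comp]) x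
    have e2 : ∀ v : E, rexp' (t • mat (sig σ.G V0)) (tens σ.s' v) = tens σ.s' v := fun v => by
      have := rexp'_intertwine (ga_tens 16 σ.s' : E →ₗ[ℝ] Th E) 0 (t • mat (sig σ.G V0)) (by
        refine LinearMap.ext fun y => ?_
        have e3 : mat (sig σ.G V0) (ga_tens 16 σ.s' y) = ga_tens 16 (sig σ.G V0 *ᵥ σ.s') y := mat_tens _ _ y
        simp [e3, σ.sig_s']) v
      rw [rexp'_zero] at this
      exact this.symm
    rw [ga_exp_θ C hs]
    simp only [wd, ga_wpot_rot 𝔤 σ.G V0_skew σ.sig_s, e1, ga_cmap_rot' σ.G V0_skew σ.sig_s,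
      ga_V0_eight, map_add, map_smul, e2]

theorem invS_mu (𝔤 : Lie E) (C : Cl (Th E) F) (σ : Spn) (ε : ℝ) {Fn : E → ℝ}
    (hF : ∀ ξ v, Fn (rexp' (𝔤.br ξ) v) = Fn v) :
    InvS (flows 𝔤 C σ.G neut) fun y : X E => ε * mu y + Fn (y 8) := by
  rintro _ (⟨ξ, rfl⟩ | ⟨_, rfl, t, rfl⟩) x
  · simp only [mu, ga_gauge_apply, norm_rexp' (𝔤.isSkew_br ξ), hF]
  · have e : ∀ y : X E, mu y = ∑ i, (![1, 1, 2, 2, -1, -1, -2, -2, 0] : Fin 9 → ℝ) i * ‖y i‖ ^ 2 := fun y => by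
      rw [ga_sum9, mu]
      simp
      ring
    simp only [ga_V0_eight, e]
    rw [ga_diag _ rfl rfl rfl rfl]

theorem invS_zsq (𝔤 : Lie E) (C : Cl (Th E) F) (σ : Spn) :
    InvS (flows 𝔤 C σ.G neut) (zsq : X E → ℝ) := by
  rintro _ (⟨ξ, rfl⟩ | ⟨_, rfl, t, rfl⟩) x
  · simp only [zsq, ga_gauge_apply, norm_rexp' (𝔤.isSkew_br ξ)]
  · have h := ga_diag (fun _ => 1) rfl rfl rfl rfl t x
    simp only [one_mul, Fin.sum_univ_castSucc (n := 8)] at h
    rw [show (Fin.last 8 : Fin 9) = 8 from rfl, ga_V0_eight] at h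
    exact add_right_cancel h

theorem invS_radial (𝔤 : Lie E) (C : Cl (Th E) F) (G : GammaNine) {𝒱 : Wts} (h : 𝒱.OK)
    {χ : X E → ℝ} (hχ : ∀ x y, ‖x‖ = ‖y‖ → χ x = χ y) : InvS (flows 𝔤 C G 𝒱) χ :=
  fun p hp x => hχ _ _ ((symOK_flows 𝔤 C G h p hp).1 x)

theorem gradient_equivariant (𝔤 : Lie E) {Fn : E → ℝ} (hF : Differentiable ℝ Fn)
    (h : ∀ ξ v, Fn (rexp' (𝔤.br ξ) v) = Fn v) (ξ v : E) :
    gradient Fn (rexp' (𝔤.br ξ) v) = rexp' (𝔤.br ξ) (gradient Fn v) := by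
  have e : fderiv ℝ Fn v = (fderiv ℝ Fn (rexp' (𝔤.br ξ) v)).comp (rexp' (𝔤.br ξ)) := by
    have h1 := ((hF (rexp' (𝔤.br ξ) v)).hasFDerivAt.comp v (rexp' (𝔤.br ξ)).hasFDerivAt).fderiv
    rwa [show Fn ∘ rexp' (𝔤.br ξ) = Fn from funext (h ξ)] at h1
  refine ext_inner_right ℝ fun w => ?_
  rw [← ga_surj (𝔤.br ξ) w, ga_inner (𝔤.isSkew_br ξ), inner_gradient_left, inner_gradient_left, e]
  rfl

theorem gb_anti (G : GammaNine) {i j : Fin 9} (h : i ≠ j) : G.γ i * G.γ j = -(G.γ j * G.γ i) := by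
  have := G.clifford i j
  rw [if_neg h] at this
  exact eq_neg_of_add_eq_zero_left this

theorem gb_sq (G : GammaNine) (i : Fin 9) : G.γ i * G.γ i = 1 := by
  have := G.clifford i i
  rw [if_pos rfl, ← two_smul ℝ, ← one_add_one_eq_two (R := Matrix (Fin 16) (Fin 16) ℝ), ← two_smul ℝ] at this
  exact smul_right_injective _ two_ne_zero this

theorem gb_skew (G : GammaNine) {i j : Fin 9} (h : i ≠ j) : (G.γ i * G.γ j)ᵀ = -(G.γ i * G.γ j) := by
  rw [Matrix.transpose_mul, G.symm, G.symm, gb_anti G h.symm]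

theorem gb_mat_neg {m n : ℕ} (M : Matrix (Fin m) (Fin n) ℝ) :
    (mat (-M) : T n E →ₗ[ℝ] T m E) = -mat M := by
  rw [← neg_one_smul ℝ M, mat_smul, neg_one_smul]

theorem gb_mat_mul {l m n : ℕ} (M : Matrix (Fin l) (Fin m) ℝ) (N : Matrix (Fin m) (Fin n) ℝ) (x : T n E) :
    mat M (mat N x) = mat (M * N) x := by
  rw [mat_mul]; rfl

theorem gb_cx (G : GammaNine) {i j : Fin 9} (h : i ≠ j) :
    IsCx (mat (G.γ i * G.γ j) : Th E →ₗ[ℝ] Th E) := by
  refine ⟨isSkew_mat (gb_skew G h), fun v => ?_⟩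
  have : G.γ i * G.γ j * (G.γ i * G.γ j) = -1 := by
    rw [mul_assoc, ← mul_assoc (G.γ j), gb_anti G h.symm, neg_mul, mul_assoc, gb_sq, mul_one, mul_neg, gb_sq]
  rw [gb_mat_mul, this, gb_mat_neg, mat_one]
  rfl

theorem isPar_par (C : Cl (Th E) F) (G : GammaNine) : IsPar C (par C G) := by
  have h := C.isPar_exp (gb_cx (E := E) G (i := 1) (j := 0) (by decide))
    (by rw [finrank_T]; exact Dvd.dvd.mul_right (by norm_num) _)
  have e : ((2 * Real.pi : ℝ) : ℂ) • C.S (mat (sig G (pl 0 1))) =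
      ((Real.pi : ℝ) : ℂ) • C.S (mat (G.γ 1 * G.γ 0)) := by
    rw [sig_pl G (by decide), gb_anti G (i := 1) (j := 0) (by decide), ← neg_one_smul ℝ (G.γ 0 * G.γ 1),
      mat_smul, mat_smul, C.S_smul, C.S_smul, smul_smul, smul_smul]
    congr 1
    push_cast
    ring
  rw [par, e]
  exact h

theorem par_comm_flows (𝔤 : Lie E) (C : Cl (Th E) F) (G : GammaNine) (𝒱 : Wts) {Γ : F →L[ℂ] F}
    (hΓ : IsPar C Γ) : ∀ p ∈ flows 𝔤 C G 𝒱, Γ * p.2 = p.2 * Γ := by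
  have h : ∀ A, Commute Γ (C.S A) := fun A => C.comm_S Γ (Or.inr hΓ.2.2) A
  rintro _ (⟨ξ, rfl⟩ | ⟨q, -, t, rfl⟩)
  · exact (h _).exp_right
  · exact (((h _).add_right ((Commute.one_right Γ).smul_right _)).smul_right _).exp_right

theorem gb_cube {Y : Type} [NormedAddCommGroup Y] [InnerProductSpace ℝ Y] [FiniteDimensional ℝ Y]
    {J : Y →ₗ[ℝ] Y} (h : ∀ x, J (J (J x)) = -J x) (x : Y) : rexp' ((2 * Real.pi) • J) x = x := by
  have h1 := rexp'_cx (J := J) (J (J x)) (h _) (2 * Real.pi)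
  have h2 := ba_ode J (f := fun _ => x + J (J x)) (fun s => by
    rw [map_add, h, add_neg_cancel]; exact hasDerivAt_const _ _) (2 * Real.pi)
  rw [Real.cos_two_pi, Real.sin_two_pi, one_smul, zero_smul, add_zero] at h1
  rw [map_add, h1] at h2
  exact (add_right_cancel h2).symm

theorem gb_pl {i j : Fin 9} (h : i ≠ j) (x : X E) : rexp' ((2 * Real.pi) • mat (pl i j)) x = x := by
  refine gb_cube (fun x => ?_) x
  have : pl i j * pl i j * pl i j = -pl i j := by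
    simp only [pl, sub_mul, mul_sub, Matrix.single_mul_single_of_ne _ _ _ _ h,
      Matrix.single_mul_single_of_ne _ _ _ _ h.symm, Matrix.single_mul_single_same, mul_one, zero_mul]
    abel
  rw [gb_mat_mul, gb_mat_mul, this, gb_mat_neg]
  rfl

/-- The rotation by `2π` in the plane `(0,1)` is the parity. -/
theorem rexp'_pl_two_pi (x : X E) : rexp' ((2 * Real.pi) • mat (pl 0 1)) x = x := by
  exact gb_pl (by decide) x

theorem gb_four {𝔸 : Type} [NormedRing 𝔸] [NormedAlgebra ℚ 𝔸] [CompleteSpace 𝔸] {a b c d : 𝔸}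
    (ha : NormedSpace.exp a = 1) (hb : NormedSpace.exp b = 1) (hc : NormedSpace.exp c = 1)
    (hd : NormedSpace.exp d = 1) (ab : Commute a b) (ac : Commute a c) (ad : Commute a d) (bc : Commute b c)
    (bd : Commute b d) (cd : Commute c d) (m n p q : ℕ) :
    NormedSpace.exp (m • a + n • b + p • c + q • d) = 1 := by
  rw [NormedSpace.exp_add_of_commute
      ((((ad.smul_left m).add_left (bd.smul_left n)).add_left (cd.smul_left p)).smul_right q),
    NormedSpace.exp_add_of_commute (((ac.smul_left m).add_left (bc.smul_left n)).smul_right p),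
    NormedSpace.exp_add_of_commute ((ab.smul_left m).smul_right n)]
  simp only [NormedSpace.exp_nsmul, ha, hb, hc, hd, one_pow, mul_one]

theorem gb_four' {Y : Type} [NormedAddCommGroup Y] [InnerProductSpace ℝ Y] [FiniteDimensional ℝ Y]
    {a b c d : Y →ₗ[ℝ] Y} (ha : ∀ x, rexp' a x = x) (hb : ∀ x, rexp' b x = x) (hc : ∀ x, rexp' c x = x)
    (hd : ∀ x, rexp' d x = x) (ab : ∀ x, a (b x) = b (a x)) (ac : ∀ x, a (c x) = c (a x))
    (ad : ∀ x, a (d x) = d (a x)) (bc : ∀ x, b (c x) = c (b x)) (bd : ∀ x, b (d x) = d (b x))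
    (cd : ∀ x, c (d x) = d (c x)) (m n p q : ℕ) (x : Y) : rexp' (m • a + n • b + p • c + q • d) x = x := by
  let _ : NormedAlgebra ℚ (Y →L[ℝ] Y) := NormedAlgebra.restrictScalars ℚ ℝ _
  have := gb_four (𝔸 := Y →L[ℝ] Y) (a := LinearMap.toContinuousLinearMap a)
    (b := LinearMap.toContinuousLinearMap b) (c := LinearMap.toContinuousLinearMap c)
    (d := LinearMap.toContinuousLinearMap d) (ContinuousLinearMap.ext ha) (ContinuousLinearMap.ext hb)
    (ContinuousLinearMap.ext hc) (ContinuousLinearMap.ext hd) (ContinuousLinearMap.ext ab)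
    (ContinuousLinearMap.ext ac) (ContinuousLinearMap.ext ad) (ContinuousLinearMap.ext bc)
    (ContinuousLinearMap.ext bd) (ContinuousLinearMap.ext cd) m n p q
  rw [rexp', map_add, map_add, map_add, map_nsmul, map_nsmul, map_nsmul, map_nsmul, this]
  rfl

theorem gb_pl_mul {i j k l : Fin 9} (e1 : i ≠ k) (e2 : i ≠ l) (e3 : j ≠ k) (e4 : j ≠ l) :
    pl i j * pl k l = 0 := by
  simp only [pl, sub_mul, mul_sub, Matrix.single_mul_single_of_ne _ _ _ _ e1,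
    Matrix.single_mul_single_of_ne _ _ _ _ e2, Matrix.single_mul_single_of_ne _ _ _ _ e3,
    Matrix.single_mul_single_of_ne _ _ _ _ e4, sub_self]

/-- `V₀` generates a `2π`-periodic flow. -/
theorem V0_period (C : Cl (Th E) F) (G : GammaNine) :
    (∀ x : X E, rexp' ((2 * Real.pi) • mat V0) x = x) ∧
      NormedSpace.exp (((2 * Real.pi : ℝ) : ℂ) • C.S (mat (sig G V0))) = 1 := by
  constructor
  · intro x
    have h2 : ∀ i j k l : Fin 9, i ≠ k → i ≠ l → j ≠ k → j ≠ l → ∀ x : X E,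
        ((2 * Real.pi) • mat (pl i j) : X E →ₗ[ℝ] X E) (((2 * Real.pi) • mat (pl k l) : X E →ₗ[ℝ] X E) x) =
        ((2 * Real.pi) • mat (pl k l) : X E →ₗ[ℝ] X E) (((2 * Real.pi) • mat (pl i j) : X E →ₗ[ℝ] X E) x) := by
      intro i j k l e1 e2 e3 e4 x
      simp only [LinearMap.smul_apply, map_smul, gb_mat_mul, gb_pl_mul e1 e2 e3 e4,
        gb_pl_mul e1.symm e3.symm e2.symm e4.symm]
    have h3 := gb_four' (gb_pl (E := E) (i := 0) (j := 1) (by decide)) (gb_pl (i := 2) (j := 3) (by decide))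
      (gb_pl (i := 5) (j := 4) (by decide)) (gb_pl (i := 7) (j := 6) (by decide))
      (h2 _ _ _ _ (by decide) (by decide) (by decide) (by decide))
      (h2 _ _ _ _ (by decide) (by decide) (by decide) (by decide))
      (h2 _ _ _ _ (by decide) (by decide) (by decide) (by decide))
      (h2 _ _ _ _ (by decide) (by decide) (by decide) (by decide))
      (h2 _ _ _ _ (by decide) (by decide) (by decide) (by decide))
      (h2 _ _ _ _ (by decide) (by decide) (by decide) (by decide)) 2 4 2 4 x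
    have e : V0 = (2 : ℝ) • pl 0 1 + (4 : ℝ) • pl 2 3 + (2 : ℝ) • pl 5 4 + (4 : ℝ) • pl 7 6 := by
      simp only [V0, pl]; module
    rw [e, mat_add, mat_add, mat_add, mat_smul, mat_smul, mat_smul, mat_smul]
    refine Eq.trans ?_ h3
    congr 2
    module
  · let _ : NormedAlgebra ℚ (F →L[ℂ] F) := NormedAlgebra.restrictScalars ℚ ℂ _
    set a : Fin 9 → Fin 9 → F →L[ℂ] F := fun i j =>
      ((2 * Real.pi : ℝ) : ℂ) • C.S (mat (G.γ i * G.γ j)) with ha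
    have h1 : ∀ i j, i ≠ j → NormedSpace.exp (a i j) = 1 := fun i j h => by
      have h := (C.isPar_exp (gb_cx (E := E) G h)
        (by rw [finrank_T]; exact Dvd.dvd.mul_right (by norm_num) _)).2.1
      rw [← NormedSpace.exp_add_of_commute (Commute.refl _), ← add_smul] at h
      rw [← h, ha]
      congr 2
      push_cast
      ring
    have h2 : ∀ i j k l, i ≠ j → k ≠ l → i ≠ k → i ≠ l → j ≠ k → j ≠ l → Commute (a i j) (a k l) := by
      intro i j k l d1 d2 e1 e2 e3 e4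
      refine Commute.smul_left (Commute.smul_right (sub_eq_zero.1 ?_) _) _
      have f : G.γ i * G.γ j * (G.γ k * G.γ l) = G.γ k * G.γ l * (G.γ i * G.γ j) := by
        have c : ∀ m, m ≠ k → m ≠ l → Commute (G.γ m) (G.γ k * G.γ l) := fun m m1 m2 => by
          rw [Commute, SemiconjBy, ← mul_assoc, gb_anti G m1, neg_mul, mul_assoc, gb_anti G m2, mul_neg,
            neg_neg, mul_assoc]
        exact (c i e1 e2).mul_left (c j e3 e4)
      rw [C.S_lie (gb_cx G d1).1 (gb_cx G d2).1, ← mat_mul, ← mat_mul, f, sub_self, C.S_zero]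
    have h3 := gb_four (h1 1 0 (by decide)) (h1 3 2 (by decide)) (h1 4 5 (by decide)) (h1 6 7 (by decide))
      (h2 _ _ _ _ (by decide) (by decide) (by decide) (by decide) (by decide) (by decide))
      (h2 _ _ _ _ (by decide) (by decide) (by decide) (by decide) (by decide) (by decide))
      (h2 _ _ _ _ (by decide) (by decide) (by decide) (by decide) (by decide) (by decide))
      (h2 _ _ _ _ (by decide) (by decide) (by decide) (by decide) (by decide) (by decide))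
      (h2 _ _ _ _ (by decide) (by decide) (by decide) (by decide) (by decide) (by decide))
      (h2 _ _ _ _ (by decide) (by decide) (by decide) (by decide) (by decide) (by decide)) 1 2 1 2
    have e : sig G V0 = G.γ 1 * G.γ 0 + (2 : ℝ) • (G.γ 3 * G.γ 2) + G.γ 4 * G.γ 5 +
        (2 : ℝ) • (G.γ 6 * G.γ 7) := by
      have e0 : sig G V0 = (2 : ℝ) • sig G (pl 0 1) + (4 : ℝ) • sig G (pl 2 3) - (2 : ℝ) • sig G (pl 4 5) -
          (4 : ℝ) • sig G (pl 6 7) := by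
        simp only [sig, V0, Matrix.sub_apply, Matrix.add_apply, Matrix.smul_apply, smul_eq_mul, sub_smul,
          add_smul, mul_smul, Finset.sum_sub_distrib, Finset.sum_add_distrib, ← Finset.smul_sum]
        module
      rw [e0, sig_pl G (by decide), sig_pl G (by decide), sig_pl G (by decide), sig_pl G (by decide),
        gb_anti G (i := 1) (j := 0) (by decide), gb_anti G (i := 3) (j := 2) (by decide)]
      module
    rw [← h3, e]
    congr 1
    simp only [ha, mat_add, mat_smul, C.S_add, C.S_smul]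
    push_cast
    module

theorem gb_lift_smul {n : ℕ} (r : ℝ) (L : E →ₗ[ℝ] E') : lift n (r • L) = r • lift n L := by
  ext x a
  simp [lift]

/-- Multiplying by a gauge and rotation invariant function preserves the class. -/
theorem Cls.smul {𝔤 : Lie E} {C : Cl (Th E) F} {G : GammaNine} {𝒱 : Wts} (h𝒱 : 𝒱.OK)
    {ψ : X E → F} (hψ : Cls 𝔤 C G 𝒱 ψ) {χ : X E → ℝ} {U : Set (X E)} (hU : IsOpen U)
    (hs : tsupport ψ ⊆ U) (hχ : ContDiffOn ℝ ∞ χ U)
    (hg : ∀ ξ x, χ (rexp' (lift 9 (𝔤.br ξ)) x) = χ x) (hr : RotInv χ) :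
    Cls 𝔤 C G 𝒱 fun x => (χ x : ℂ) • ψ x := by
  have hd : Differentiable ℝ ψ := hψ.1.1.differentiable (by simp)
  have key : ∀ (A : X E →ₗ[ℝ] X E) (S : F →L[ℂ] F) (k : ℝ) (x : X E), WtAt A S k ψ x →
      (∀ t : ℝ, χ (rexp' (t • A) x) = χ x) → WtAt A S k (fun x => (χ x : ℂ) • ψ x) x := by
    intro A S k x h1 h2
    by_cases hx : x ∈ tsupport ψ
    · have h3 : DifferentiableAt ℝ χ x :=
        (hχ.contDiffAt (hU.mem_nhds (hs hx))).differentiableAt (by simp)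
      exact h1.smul (hd x) h3 (fderiv_eq_zero_of_flow A h3 h2)
    · exact WtAt.of_notMem_tsupport fun h => hx (tsupport_smul_subset_right _ _ h)
  refine ⟨hψ.1.smul_of_contDiffOn hU hs hχ, fun x ξ => key _ _ _ x (hψ.2.1 x ξ) fun t => ?_,
    fun p hp x => key _ _ _ x (hψ.2.2 p hp x) fun t => ?_⟩
  · rw [← gb_lift_smul, ← map_smul, hg]
  · obtain ⟨h1, h2⟩ := exists_rexp'_mat (E := E) (h𝒱 p hp) t
    rw [h2, hr _ h1]

theorem gb_fd {Y : Type} [NormedAddCommGroup Y] [NormedSpace ℝ Y] (R : Y →L[ℝ] Y) (U : F →L[ℂ] F) {φ : Y → F}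
    (hφ : Differentiable ℝ φ) (x v : Y) :
    fderiv ℝ (fun x => U (φ (R x))) x v = U (fderiv ℝ φ (R x) (R v)) :=
  DFunLike.congr_fun ((U.restrictScalars ℝ).hasFDerivAt.comp x
    ((hφ (R x)).hasFDerivAt.comp x R.hasFDerivAt)).fderiv v

theorem gb_lap {Y : Type} [NormedAddCommGroup Y] [InnerProductSpace ℝ Y] [FiniteDimensional ℝ Y]
    (R : Y →ₗᵢ[ℝ] Y) (U : F →L[ℂ] F) {ψ : Y → F} (hψ : ContDiff ℝ ∞ ψ) (x : Y) :
    lap (fun x => U (ψ (R x))) x = U (lap ψ (R x)) := by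
  have hd : Differentiable ℝ ψ := hψ.differentiable (by simp)
  have hd2 : Differentiable ℝ (fderiv ℝ ψ) :=
    (hψ.fderiv_right (m := 1) (by norm_cast)).differentiable one_ne_zero
  have hf : ∀ {φ : Y → F}, Differentiable ℝ φ → ∀ x v,
      fderiv ℝ (fun x => U (φ (R x))) x v = U (fderiv ℝ φ (R x) (R v)) :=
    fun hφ x v => gb_fd R.toContinuousLinearMap U hφ x v
  have h2 : ∀ y u v, fderiv ℝ (fun z => fderiv ℝ ψ z v) y u = fderiv ℝ (fderiv ℝ ψ) y u v := fun y u v => by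
    rw [fderiv_clm_apply (hd2 y) (differentiableAt_const v)]
    simp
  have h3 := sum_onb (LinearMap.mk₂ ℝ (fun u v => fderiv ℝ (fderiv ℝ ψ) (R x) u v) (by simp) (by simp)
    (by simp) (by simp)) ((stdOrthonormalBasis ℝ Y).map (R.toLinearIsometryEquiv rfl))
    (stdOrthonormalBasis ℝ Y)
  simp only [LinearMap.mk₂_apply, OrthonormalBasis.map_apply, LinearIsometry.toLinearIsometryEquiv_apply] at h3
  simp only [lap, hf hd]
  rw [Finset.sum_congr rfl fun i _ => hf (φ := fun z => fderiv ℝ ψ z (R (stdOrthonormalBasis ℝ Y i)))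
    (hd2.clm_apply (differentiable_const _)) x _]
  simp only [h2, ← map_sum, h3]

theorem gb_pot (𝔤 : Lie E) {O : Matrix (Fin 9) (Fin 9) ℝ} (hO : Oᵀ * O = 1) (x : X E) :
    ∑ i, ∑ j, ‖𝔤.br (mat O x i) (mat O x j)‖ ^ 2 = ∑ i, ∑ j, ‖𝔤.br (x i) (x j)‖ ^ 2 := by
  have h : ∀ a : E, ∑ j, ‖𝔤.br a (mat O x j)‖ ^ 2 = ∑ j, ‖𝔤.br a (x j)‖ ^ 2 := fun a => by
    have h1 := norm_mat_orth O hO (lift 9 (𝔤.br a) x)
    have h2 : mat O (lift 9 (𝔤.br a) x) = lift 9 (𝔤.br a) (mat O x) := LinearMap.congr_fun (mat_lift _ _) x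
    rw [h2] at h1
    have h3 := congrArg (· ^ 2) h1
    simp only [PiLp.norm_sq_eq_of_L2] at h3
    exact h3
  have h' : ∀ a b : E, ‖𝔤.br a b‖ = ‖𝔤.br b a‖ := fun a b => by rw [𝔤.anti, norm_neg]
  simp only [h]
  rw [Finset.sum_comm]
  simp only [h' (mat O x _), h]

/-- the Yukawa matrix as a bilinear map -/
def gb_Y (𝔤 : Lie E) (G : GammaNine) : X E →ₗ[ℝ] Th E →ₗ[ℝ] Th E where
  toFun x := ∑ i, mat (G.γ i) ∘ₗ lift 16 (𝔤.br (x i))
  map_add' x y := by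
    rw [← Finset.sum_add_distrib]
    refine Finset.sum_congr rfl fun i _ => ?_
    rw [← LinearMap.comp_add]
    congr 1
    ext v a
    simp [lift]
  map_smul' r x := by
    simp only [PiLp.smul_apply, map_smul, gb_lift_smul, LinearMap.comp_smul, Finset.smul_sum, RingHom.id_apply]

theorem gb_Y_mat (𝔤 : Lie E) (G : GammaNine) {V : Matrix (Fin 9) (Fin 9) ℝ} (hV : Vᵀ = -V) (x : X E)
    (v : Th E) : gb_Y 𝔤 G (mat V x) v + gb_Y 𝔤 G x (mat (sig G V) v) = mat (sig G V) (gb_Y 𝔤 G x v) := by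
  let mL : Matrix (Fin 16) (Fin 16) ℝ →ₗ[ℝ] Th E →ₗ[ℝ] Th E :=
    { toFun := mat, map_add' := mat_add, map_smul' := mat_smul }
  let lL : (E →ₗ[ℝ] E) →ₗ[ℝ] Th E →ₗ[ℝ] Th E :=
    { toFun := lift 16, map_add' := fun a b => by ext v i; simp [lift], map_smul' := gb_lift_smul }
  have h0 : ∀ x v, gb_Y 𝔤 G x v = ∑ i, mL (G.γ i) (lL (𝔤.br (x i)) v) := fun x v => LinearMap.sum_apply _ _ _
  have h1 : gb_Y 𝔤 G (mat V x) v = ∑ j, mL (∑ i, V i j • G.γ i) (lL (𝔤.br (x j)) v) := by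
    rw [h0]
    change ∑ i, mL (G.γ i) (lL (𝔤.br (∑ b, V i b • x b)) v) = _
    simp only [map_sum, map_smul, LinearMap.sum_apply, LinearMap.smul_apply]
    exact Finset.sum_comm
  rw [h1, h0, h0, map_sum, ← Finset.sum_add_distrib]
  refine Finset.sum_congr rfl fun i _ => ?_
  have h2 : lL (𝔤.br (x i)) (mat (sig G V) v) = mL (sig G V) (lL (𝔤.br (x i)) v) :=
    (LinearMap.congr_fun (mat_lift _ _) v).symm
  have h3 : ∀ M N w, mL (M * N) w = mL M (mL N w) := fun M N w => (gb_mat_mul M N w).symm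
  rw [← sig_comm G hV, map_sub, LinearMap.sub_apply, h2, h3, h3, sub_add_cancel]
  rfl

theorem gb_conj0 {Y Θ : Type} [NormedAddCommGroup Y] [InnerProductSpace ℝ Y] [FiniteDimensional ℝ Y]
    [NormedAddCommGroup Θ] [InnerProductSpace ℝ Θ] [FiniteDimensional ℝ Θ] (C : Cl Θ F)
    (W : Y →ₗ[ℝ] Θ →ₗ[ℝ] Θ) (A : Y →ₗ[ℝ] Y) {B : Θ →ₗ[ℝ] Θ} (hB : IsSkew B)
    (h : ∀ x v, W (A x) v + W x (B v) = B (W x v)) (t : ℝ) (x : Y) :
    NormedSpace.exp ((t : ℂ) • C.S B) * C.S (W x) =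
      C.S (W (rexp' (t • A) x)) * NormedSpace.exp ((t : ℂ) • C.S B) := by
  have hσ : IsSkew (t • B) := fun u v => by
    simp only [LinearMap.smul_apply, inner_smul_left, inner_smul_right, hB u v]
    simp
  let O : Θ ≃ₗᵢ[ℝ] Θ := (LinearIsometry.mk (rexp' (t • B)).toLinearMap
    (norm_rexp' hσ)).toLinearIsometryEquiv rfl
  rw [← C.S_smul, C.S_conj _ O (C.exp_S_θ hσ)]
  congr 2
  refine LinearMap.ext fun v => ?_
  obtain ⟨v, rfl⟩ := O.surjective v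
  let Yc : Y →L[ℝ] Θ →L[ℝ] Θ := LinearMap.toContinuousLinearMap
    ((LinearMap.toContinuousLinearMap (𝕜 := ℝ) (E := Θ) (F' := Θ)).toLinearMap ∘ₗ W)
  have := ba_ode B (f := fun s => W (rexp' (s • A) x) (rexp' (s • B) v)) (fun s => by
      have h1 := (Yc.hasFDerivAt.comp_hasDerivAt s (ba_hasDerivAt A x s)).clm_apply (ba_hasDerivAt B v s)
      rw [← h]
      exact h1) t
  simp only [zero_smul, rexp'_zero] at this
  simp only [LinearMap.comp_apply, LinearEquiv.coe_coe, LinearIsometryEquiv.coe_toLinearEquiv,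
    LinearIsometryEquiv.symm_apply_apply]
  exact this.symm

theorem gb_conj (𝔤 : Lie E) (C : Cl (Th E) F) (σ : Spn) {V : Matrix (Fin 9) (Fin 9) ℝ}
    (hV : Vᵀ = -V) (t : ℝ) (x : X E) :
    NormedSpace.exp ((t : ℂ) • C.S (mat (sig σ.G V))) * C.S (yuk 𝔤 σ 0 (fun _ => 0) x) =
      C.S (yuk 𝔤 σ 0 (fun _ => 0) (rexp' (t • mat V) x)) *
        NormedSpace.exp ((t : ℂ) • C.S (mat (sig σ.G V))) := by
  have hy : ∀ x, yuk 𝔤 σ 0 (fun _ => 0) x = gb_Y 𝔤 σ.G x := fun x => by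
    have : lift 16 (0 : E →ₗ[ℝ] E) = 0 := by
      rw [← zero_smul ℝ (0 : E →ₗ[ℝ] E), gb_lift_smul, zero_smul]
    rw [yuk, fderiv_fun_const, Pi.zero_apply, ContinuousLinearMap.toLinearMap_zero, this, LinearMap.comp_zero, add_zero,
      zero_smul, sub_zero]
    rfl
  rw [hy, hy]
  exact gb_conj0 C _ _ (isSkew_mat (sig_skew σ.G hV)) (gb_Y_mat 𝔤 σ.G hV) t x

/-- Rotating a gauge invariant core vector; the energy form is rotation invariant. -/
theorem rot_cls (𝔤 : Lie E) (C : Cl (Th E) F) (σ : Spn) {V : Matrix (Fin 9) (Fin 9) ℝ}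
    (hV : Vᵀ = -V) (t : ℝ) {ψ : X E → F} (hψ : Cls 𝔤 C σ.G ∅ ψ) :
    Cls 𝔤 C σ.G ∅ (fun x => NormedSpace.exp ((t : ℂ) • C.S (mat (sig σ.G V)))
      (ψ (rexp' ((-t) • mat V) x))) ∧
    ∀ x, H0 𝔤 C σ (fun x => NormedSpace.exp ((t : ℂ) • C.S (mat (sig σ.G V)))
      (ψ (rexp' ((-t) • mat V) x))) x =
      NormedSpace.exp ((t : ℂ) • C.S (mat (sig σ.G V))) (H0 𝔤 C σ ψ (rexp' ((-t) • mat V) x)) := by
  set U := NormedSpace.exp ((t : ℂ) • C.S (mat (sig σ.G V))) with hU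
  set R : X E →L[ℝ] X E := rexp' ((-t) • mat V) with hR
  have hσ : IsSkew (mat (sig σ.G V) : Th E →ₗ[ℝ] Th E) := isSkew_mat (sig_skew σ.G hV)
  obtain ⟨hO, hRO⟩ := exists_rexp'_mat (E := E) hV (-t)
  have hRn : ∀ x, ‖R x‖ = ‖x‖ := fun x => by rw [hR, hRO, norm_mat_orth _ hO]
  have hd : Differentiable ℝ ψ := hψ.1.1.differentiable (by simp)
  have hf := gb_fd R U hd
  refine ⟨⟨⟨(U.restrictScalars ℝ).contDiff.comp (hψ.1.1.comp R.contDiff), ?_⟩, fun x ξ => ?_,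
    fun p hp => hp.elim⟩, fun x => ?_⟩
  · exact (hψ.1.2.comp_isClosedEmbedding
      (LinearIsometry.mk R.toLinearMap hRn).isometry.isClosedEmbedding).comp_left (g := U) (map_zero _)
  · have h1 : R (lift 9 (𝔤.br ξ) x) = lift 9 (𝔤.br ξ) (R x) := by
      rw [hR, hRO, hRO]
      exact LinearMap.congr_fun (mat_lift _ _) x
    have h2 : Commute (C.S (lift 16 (𝔤.br ξ))) U := by
      refine Commute.exp_right (Commute.smul_right (sub_eq_zero.1 ?_) _)
      rw [C.S_lie (isSkew_lift (𝔤.isSkew_br ξ)) hσ, mat_lift, sub_self, C.S_zero]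
    have h3 := hψ.2.1 (R x) ξ
    rw [WtAt] at h3 ⊢
    rw [hf, h1, h3, map_add, map_smul]
    congr 1
    exact (DFunLike.congr_fun h2.eq _).symm
  · have h1 := gb_lap (LinearIsometry.mk R.toLinearMap hRn) U hψ.1.1 x
    have h2 : ‖wpot 𝔤 σ.G σ.s (R x)‖ ^ 2 = ‖wpot 𝔤 σ.G σ.s x‖ ^ 2 := by
      rw [norm_wpot_sq 𝔤 σ.G σ.unit, norm_wpot_sq 𝔤 σ.G σ.unit, hR, hRO, gb_pot 𝔤 hO]
    have h3 := gb_conj 𝔤 C σ hV t (R x)
    have h4 : rexp' (t • mat V) (R x) = x := by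
      rw [hR, ← rexp'_add_smul, add_neg_cancel, zero_smul, rexp'_zero]
    rw [h4] at h3
    simp only [H0, map_add, map_smul, h2, Cl.iS, smul_apply]
    congr 2
    · congr 1
    · exact (DFunLike.congr_fun h3 _).symm

end Crest.Agent.R330

end
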